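import Mathlib

/-! # P097 / row A5.DISC1, part A: the Marcinkiewicz integral of the distance function -/

set_option linter.all false

open Set Metric Filter Topology MeasureTheory
open scoped ENNReal

namespace Vale.Agent.P097.H337

/-- the Marcinkiewicz kernel -/
noncomputable def mkk (A : Set ℝ) (u x : ℝ) : ℝ := infDist x A / (x - u) ^ 2

theorem mk_nonneg (A : Set ℝ) (u x : ℝ) : 0 ≤ mkk A u x :=
  div_nonneg infDist_nonneg (sq_nonneg _)

theorem measurable_mk (A : Set ℝ) : Measurable (fun q : ℝ × ℝ => mkk A q.1 q.2) := by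
  unfold mkk
  have h1 : Continuous fun q : ℝ × ℝ => infDist q.2 A := (continuous_infDist_pt A).comp continuous_snd
  exact h1.measurable.div (by fun_prop)

/-- `∫_{|x-u| ≥ d} (x-u)⁻² du ≤ 2/d` -/
theorem lint_tail {d : ℝ} (hd : 0 < d) (x : ℝ) :
    ∫⁻ u in {u : ℝ | d ≤ |x - u|}, ENNReal.ofReal (1 / (x - u) ^ 2) ≤ ENNReal.ofReal (2 / d) := by
  have h1 : ∫⁻ t in Ioi d, ENNReal.ofReal (1 / t ^ 2) = ENNReal.ofReal (1 / d) := by
    have hi : IntegrableOn (fun t : ℝ => t ^ (-2 : ℝ)) (Ioi d) :=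
      integrableOn_Ioi_rpow_of_lt (by norm_num) hd
    have hv := integral_Ioi_rpow_of_lt (a := -2) (by norm_num) hd
    have he : ∀ t ∈ Ioi d, ENNReal.ofReal (1 / t ^ 2) = ENNReal.ofReal (t ^ (-2 : ℝ)) := by
      intro t ht
      have ht0 : 0 < t := hd.trans ht
      congr 1
      rw [Real.rpow_neg ht0.le, one_div]
      norm_num
    rw [setLIntegral_congr_fun measurableSet_Ioi he, ← ofReal_integral_eq_lintegral_ofReal hi]
    · rw [hv]
      congr 1
      rw [show (-2 : ℝ) + 1 = -1 by norm_num, Real.rpow_neg hd.le, Real.rpow_one]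
      field_simp
    · exact (ae_restrict_iff' measurableSet_Ioi).2 (Eventually.of_forall fun t ht =>
        Real.rpow_nonneg (hd.trans ht).le _)
  have h2 : {u : ℝ | d ≤ |x - u|} ⊆ ((fun t => x - t) ⁻¹' Ici d) ∪ ((fun t => t - x) ⁻¹' Ici d) := by
    intro u hu
    rcases le_abs.1 (show d ≤ |x - u| from hu) with h | h
    · exact Or.inl h
    · right
      simp only [mem_preimage, mem_Ici]
      linarith
  have e1 : ∫⁻ u in (fun t => x - t) ⁻¹' Ici d, ENNReal.ofReal (1 / (x - u) ^ 2) =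
      ENNReal.ofReal (1 / d) := by
    have hmp : MeasurePreserving (fun t : ℝ => x - t) volume volume :=
      Measure.measurePreserving_sub_left volume x
    have := hmp.setLIntegral_comp_preimage (s := Ici d) measurableSet_Ici
      (f := fun t => ENNReal.ofReal (1 / t ^ 2)) (by fun_prop)
    rw [this, ← h1]
    exact (setLIntegral_congr Ioi_ae_eq_Ici).symm
  have e2 : ∫⁻ u in (fun t => t - x) ⁻¹' Ici d, ENNReal.ofReal (1 / (x - u) ^ 2) =
      ENNReal.ofReal (1 / d) := by
    have hmp : MeasurePreserving (fun t : ℝ => t - x) volume volume :=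
      measurePreserving_sub_right volume x
    have := hmp.setLIntegral_comp_preimage (s := Ici d) measurableSet_Ici
      (f := fun t => ENNReal.ofReal (1 / t ^ 2)) (by fun_prop)
    have e3 : ∀ u : ℝ, ENNReal.ofReal (1 / (x - u) ^ 2) = ENNReal.ofReal (1 / (u - x) ^ 2) := by
      intro u
      rw [show (x - u) ^ 2 = (u - x) ^ 2 by ring]
    simp only [e3]
    rw [this, ← h1]
    exact (setLIntegral_congr Ioi_ae_eq_Ici).symm
  calc ∫⁻ u in {u : ℝ | d ≤ |x - u|}, ENNReal.ofReal (1 / (x - u) ^ 2)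
      ≤ ∫⁻ u in ((fun t => x - t) ⁻¹' Ici d) ∪ ((fun t => t - x) ⁻¹' Ici d),
        ENNReal.ofReal (1 / (x - u) ^ 2) := lintegral_mono_set h2
    _ ≤ _ := lintegral_union_le _ _ _
    _ = ENNReal.ofReal (2 / d) := by
      rw [e1, e2, ← ENNReal.ofReal_add (by positivity) (by positivity)]
      congr 1
      ring

/-- **Marcinkiewicz**: for a.e. `u` of the closed set `A` the integral is finite on bounded sets -/
theorem marc (A : Set ℝ) (hA : IsClosed A) :
    ∀ᵐ u : ℝ, u ∈ A → ∀ n : ℕ, ∫⁻ x in Icc (-(n : ℝ)) n, ENNReal.ofReal (mkk A u x) < ∞ := by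
  rw [← ae_restrict_iff' hA.measurableSet, ae_all_iff]
  intro n
  have hm : Measurable (fun q : ℝ × ℝ => ENNReal.ofReal (mkk A q.1 q.2)) :=
    (measurable_mk A).ennreal_ofReal
  refine ae_lt_top ?_ ?_
  · exact hm.lintegral_prod_right'
  rw [lintegral_lintegral_swap hm.aemeasurable]
  have key : ∀ x : ℝ, ∫⁻ u in A, ENNReal.ofReal (mkk A u x) ≤ 2 := by
    intro x
    by_cases hx : infDist x A = 0
    · simp [mkk, hx]
    have hd : 0 < infDist x A := lt_of_le_of_ne infDist_nonneg (Ne.symm hx)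
    have h1 : A ⊆ {u : ℝ | infDist x A ≤ |x - u|} := by
      intro u hu
      have := infDist_le_dist_of_mem (x := x) hu
      rwa [Real.dist_eq] at this
    calc ∫⁻ u in A, ENNReal.ofReal (mkk A u x)
        ≤ ∫⁻ u in {u : ℝ | infDist x A ≤ |x - u|}, ENNReal.ofReal (mkk A u x) :=
          lintegral_mono_set h1
      _ = ∫⁻ u in {u : ℝ | infDist x A ≤ |x - u|},
            ENNReal.ofReal (infDist x A) * ENNReal.ofReal (1 / (x - u) ^ 2) := by
          congr 1
          ext u
          rw [← ENNReal.ofReal_mul hd.le, mkk]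
          congr 1
          ring
      _ = ENNReal.ofReal (infDist x A) * ∫⁻ u in {u : ℝ | infDist x A ≤ |x - u|},
            ENNReal.ofReal (1 / (x - u) ^ 2) := by
          rw [lintegral_const_mul' _ _ ENNReal.ofReal_ne_top]
      _ ≤ ENNReal.ofReal (infDist x A) * ENNReal.ofReal (2 / infDist x A) :=
          mul_le_mul_right (lint_tail hd x) _
      _ = 2 := by
          rw [← ENNReal.ofReal_mul hd.le, mul_div_cancel₀ _ hx]
          norm_num
  have h2 : ∫⁻ x in Icc (-(n : ℝ)) n, ∫⁻ u in A, ENNReal.ofReal (mkk A u x) ≤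
      ∫⁻ x in Icc (-(n : ℝ)) n, 2 := lintegral_mono fun x => key x
  refine ne_top_of_le_ne_top ?_ h2
  rw [setLIntegral_const]
  exact ENNReal.mul_ne_top (by norm_num) (by rw [Real.volume_Icc]; exact ENNReal.ofReal_ne_top)

theorem measurable_mkk' (A : Set ℝ) (u : ℝ) : Measurable (mkk A u) :=
  (measurable_mk A).comp (g := fun q : ℝ × ℝ => mkk A q.1 q.2) (f := fun x : ℝ => (u, x))
    (measurable_const.prodMk measurable_id)

theorem ball_sub_Icc {u : ℝ} {n : ℕ} (hn : |u| + 1 < n) : ball u 1 ⊆ Icc (-(n : ℝ)) n := by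
  intro x hx
  rw [mem_ball, Real.dist_eq] at hx
  have h1 := neg_abs_le u
  have h1' := le_abs_self u
  have h2 := abs_lt.1 hx
  exact ⟨by linarith [h2.1], by linarith [h2.2]⟩

theorem integrableOn_mkk {A : Set ℝ} {u : ℝ}
    (hu : ∀ n : ℕ, ∫⁻ x in Icc (-(n : ℝ)) n, ENNReal.ofReal (mkk A u x) < ∞) :
    IntegrableOn (mkk A u) (ball u 1) := by
  obtain ⟨n, hn⟩ := exists_nat_gt (|u| + 1)
  have hfin : ∫⁻ x in ball u 1, ENNReal.ofReal (mkk A u x) < ∞ :=
    (lintegral_mono_set (ball_sub_Icc hn)).trans_lt (hu n)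
  exact (lintegral_ofReal_ne_top_iff_integrable (measurable_mkk' A u).aestronglyMeasurable
    (Eventually.of_forall fun x => mk_nonneg A u x)).1 hfin.ne

theorem iInter_ball_eq (u : ℝ) : (⋂ k : ℕ, ball u (1 / ((k : ℝ) + 1))) = {u} := by
  ext x
  simp only [mem_iInter, mem_singleton_iff]
  constructor
  · intro h
    have h3 : dist x u ≤ 0 := by
      refine ge_of_tendsto' (tendsto_one_div_add_atTop_nhds_zero_nat (𝕜 := ℝ)) fun k => ?_
      exact (mem_ball.1 (h k)).le
    exact dist_le_zero.1 h3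
  · rintro rfl k
    exact mem_ball_self (by positivity)

theorem tail_tendsto {A : Set ℝ} {u : ℝ} (hint : IntegrableOn (mkk A u) (ball u 1)) :
    Tendsto (fun k : ℕ => ∫ x in ball u (1 / ((k : ℝ) + 1)), mkk A u x) atTop (𝓝 0) := by
  have h00 : IntegrableOn (mkk A u) (ball u (1 / (((0 : ℕ) : ℝ) + 1))) := by
    have e0 : (1 : ℝ) / (((0 : ℕ) : ℝ) + 1) = 1 := by norm_num
    rw [e0]; exact hint
  have h1 := tendsto_setIntegral_of_antitone (μ := volume) (f := mkk A u)
    (s := fun k : ℕ => ball u (1 / ((k : ℝ) + 1))) (fun k => measurableSet_ball) (by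
      intro i j hij
      apply ball_subset_ball
      apply one_div_le_one_div_of_le (by positivity)
      have : (i : ℝ) ≤ j := by exact_mod_cast hij
      linarith) ⟨0, h00⟩
  have e0 : (volume : Measure ℝ).restrict (⋂ k : ℕ, ball u (1 / ((k : ℝ) + 1))) = 0 := by
    rw [iInter_ball_eq]
    exact Measure.restrict_eq_zero.2 (measure_singleton u)
  rw [e0, integral_zero_measure] at h1
  exact h1

/-- the tail is small: Bochner form -/
theorem marc_tail {A : Set ℝ} {u : ℝ}
    (hu : ∀ n : ℕ, ∫⁻ x in Icc (-(n : ℝ)) n, ENNReal.ofReal (mkk A u x) < ∞) {ε : ℝ} (hε : 0 < ε) :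
    ∃ ρ > 0, ρ ≤ 1 ∧ IntegrableOn (mkk A u) (ball u ρ) ∧ ∫ x in ball u ρ, mkk A u x ≤ ε := by
  have hint := integrableOn_mkk hu
  obtain ⟨k, hk⟩ := ((tail_tendsto hint).eventually (gt_mem_nhds hε)).exists
  have h2 : 1 / ((k : ℝ) + 1) ≤ 1 := by
    rw [div_le_one (by positivity)]
    have : (0 : ℝ) ≤ k := Nat.cast_nonneg k
    linarith
  exact ⟨1 / ((k : ℝ) + 1), by positivity, h2, hint.mono_set (ball_subset_ball h2), hk.le⟩

end Vale.Agent.P097.H337
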