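import Mathlib

/-! # P097 / row A5.DISC1, part B: the Cauchy integral of a small Lipschitz function -/

set_option linter.all false

open Set Metric Filter Topology MeasureTheory Complex
open scoped ENNReal ComplexConjugate

namespace Vale.Agent.P097.H337

/-- a Lipschitz function with compact support, at most `r` at the origin, small Marcinkiewicz
integral at scale `r` -/
structure Fk (f : ℝ → ℝ) (L r ε : ℝ) : Prop where
  r0 : 0 < r
  lip : ∀ x y, |f x - f y| ≤ |x - y|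
  nn : ∀ x, 0 ≤ f x
  f0 : f 0 ≤ r
  supp : ∀ x, L ≤ |x| → f x = 0
  small : ∫ x, f x / (x ^ 2 + r ^ 2) ≤ ε

/-- the (rotated) Cauchy integral -/
noncomputable def Sk (f : ℝ → ℝ) (w : ℂ) : ℂ := -I * ∫ x : ℝ, (f x : ℂ) / ((x : ℂ) - w)

variable {f : ℝ → ℝ} {L r ε : ℝ}

theorem Fk.le_abs (hf : Fk f L r ε) (x : ℝ) : f x ≤ |x| + r := by
  have h := (abs_le.1 (hf.lip x 0)).2
  rw [sub_zero] at h
  linarith [hf.f0]

theorem Fk.cont (hf : Fk f L r ε) : Continuous f := by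
  refine (LipschitzWith.of_dist_le_mul (K := 1) fun x y => ?_).continuous
  rw [Real.dist_eq, Real.dist_eq]
  simpa using hf.lip x y

theorem Fk.comp (hf : Fk f L r ε) : HasCompactSupport f := by
  refine HasCompactSupport.intro (isCompact_closedBall (0 : ℝ) L) fun x hx => hf.supp x ?_
  rw [mem_closedBall, dist_zero_right, Real.norm_eq_abs, not_le] at hx
  exact hx.le

theorem Fk.int (hf : Fk f L r ε) : Integrable (fun x => f x / (x ^ 2 + r ^ 2)) := by
  have hr := hf.r0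
  refine Continuous.integrable_of_hasCompactSupport ?_ ?_
  · exact hf.cont.div (by fun_prop) (fun x => by positivity)
  · refine HasCompactSupport.intro (isCompact_closedBall (0 : ℝ) L) fun x hx => ?_
    rw [mem_closedBall, dist_zero_right, Real.norm_eq_abs, not_le] at hx
    rw [hf.supp x hx.le]
    simp

theorem sub_ne {w : ℂ} (hw : 0 < w.im) (x : ℝ) : (x : ℂ) - w ≠ 0 := by
  intro h
  have := congrArg Complex.im h
  simp at this
  linarith

theorem normSq_sub (w : ℂ) (x : ℝ) : Complex.normSq ((x : ℂ) - w) = (x - w.re) ^ 2 + w.im ^ 2 := by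
  rw [Complex.normSq_apply]
  simp
  ring

theorem ker_re (w : ℂ) (x : ℝ) : (1 / ((x : ℂ) - w)).re = (x - w.re) / ((x - w.re) ^ 2 + w.im ^ 2) := by
  rw [one_div, Complex.inv_re, normSq_sub]
  simp

theorem ker_im (w : ℂ) (x : ℝ) : (1 / ((x : ℂ) - w)).im = w.im / ((x - w.re) ^ 2 + w.im ^ 2) := by
  rw [one_div, Complex.inv_im, normSq_sub]
  simp

theorem Fk.integrable (hf : Fk f L r ε) {w : ℂ} (hw : 0 < w.im) :
    Integrable (fun x : ℝ => (f x : ℂ) / ((x : ℂ) - w)) := by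
  refine Continuous.integrable_of_hasCompactSupport ?_ ?_
  · exact (continuous_ofReal.comp hf.cont).div (by fun_prop) (fun x => sub_ne hw x)
  · refine HasCompactSupport.intro (isCompact_closedBall (0 : ℝ) L) fun x hx => ?_
    rw [mem_closedBall, dist_zero_right, Real.norm_eq_abs, not_le] at hx
    rw [hf.supp x hx.le]
    simp

theorem Fk.int_re (hf : Fk f L r ε) {w : ℂ} (hw : 0 < w.im) :
    (Sk f w).re = ∫ x, f x * (w.im / ((x - w.re) ^ 2 + w.im ^ 2)) := by
  have h1 := hf.integrable hw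
  have h2 : (∫ x : ℝ, (f x : ℂ) / ((x : ℂ) - w)).im = ∫ x : ℝ, ((f x : ℂ) / ((x : ℂ) - w)).im :=
    (Complex.imCLM.integral_comp_comm h1).symm
  have h3 : (Sk f w).re = (∫ x : ℝ, (f x : ℂ) / ((x : ℂ) - w)).im := by
    simp [Sk]
  rw [h3, h2]
  congr 1
  ext x
  rw [div_eq_mul_one_div, Complex.im_ofReal_mul, ker_im]

theorem Fk.int_im (hf : Fk f L r ε) {w : ℂ} (hw : 0 < w.im) :
    (Sk f w).im = -∫ x, f x * ((x - w.re) / ((x - w.re) ^ 2 + w.im ^ 2)) := by
  have h1 := hf.integrable hw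
  have h2 : (∫ x : ℝ, (f x : ℂ) / ((x : ℂ) - w)).re = ∫ x : ℝ, ((f x : ℂ) / ((x : ℂ) - w)).re :=
    (Complex.reCLM.integral_comp_comm h1).symm
  have h3 : (Sk f w).im = -(∫ x : ℝ, (f x : ℂ) / ((x : ℂ) - w)).re := by
    simp [Sk]
  rw [h3, h2]
  congr 2
  ext x
  rw [div_eq_mul_one_div, Complex.re_ofReal_mul, ker_re]

theorem Fk.integrable_re (hf : Fk f L r ε) {w : ℂ} (hw : 0 < w.im) :
    Integrable (fun x : ℝ => f x * (w.im / ((x - w.re) ^ 2 + w.im ^ 2))) := by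
  have h1 := (hf.integrable hw).im
  refine h1.congr (Eventually.of_forall fun x => ?_)
  change ((f x : ℂ) / ((x : ℂ) - w)).im = _
  rw [div_eq_mul_one_div, Complex.im_ofReal_mul, ker_im]

theorem Fk.integrable_im (hf : Fk f L r ε) {w : ℂ} (hw : 0 < w.im) :
    Integrable (fun x : ℝ => f x * ((x - w.re) / ((x - w.re) ^ 2 + w.im ^ 2))) := by
  have h1 := (hf.integrable hw).re
  refine h1.congr (Eventually.of_forall fun x => ?_)
  change ((f x : ℂ) / ((x : ℂ) - w)).re = _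
  rw [div_eq_mul_one_div, Complex.re_ofReal_mul, ker_re]

theorem Fk.re_nonneg (hf : Fk f L r ε) {w : ℂ} (hw : 0 < w.im) : 0 ≤ (Sk f w).re := by
  rw [hf.int_re hw]
  exact integral_nonneg fun x => mul_nonneg (hf.nn x) (by positivity)

/-- lower bound: `Re S (a + i y) ≥ f a - y` -/
theorem Fk.re_lower (hf : Fk f L r ε) {w : ℂ} (hw : 0 < w.im) : f w.re - w.im ≤ (Sk f w).re := by
  rcases le_or_gt (f w.re) w.im with h | h
  · exact (by linarith : f w.re - w.im ≤ 0).trans (hf.re_nonneg hw)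
  set a := w.re with ha
  set y := w.im with hy
  have h1 : ∫ x in Icc (a - y) (a + y), (f a - y) * (1 / (2 * y)) ≤
      ∫ x in Icc (a - y) (a + y), f x * (y / ((x - a) ^ 2 + y ^ 2)) := by
    refine setIntegral_mono_on (integrableOn_const (by rw [Real.volume_Icc]; exact ENNReal.ofReal_ne_top)) (hf.integrable_re hw).integrableOn measurableSet_Icc ?_
    intro x hx
    have e1 : |x - a| ≤ y := abs_le.2 ⟨by linarith [hx.1], by linarith [hx.2]⟩
    have e2 : f a - y ≤ f x := by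
      have := (abs_le.1 (hf.lip a x)).2
      rw [abs_sub_comm] at this
      linarith
    have e3 : (x - a) ^ 2 ≤ y ^ 2 := by
      rw [← sq_abs (x - a)]
      exact pow_le_pow_left₀ (abs_nonneg _) e1 2
    have e4 : 1 / (2 * y) ≤ y / ((x - a) ^ 2 + y ^ 2) := by
      rw [div_le_div_iff₀ (by positivity) (by positivity)]
      nlinarith
    exact mul_le_mul e2 e4 (by positivity) (hf.nn x)
  have h2 : ∫ x in Icc (a - y) (a + y), (f a - y) * (1 / (2 * y)) = f a - y := by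
    rw [setIntegral_const, smul_eq_mul, Real.volume_real_Icc_of_le (by linarith)]
    field_simp
    ring
  rw [hf.int_re hw]
  rw [h2] at h1
  refine h1.trans (setIntegral_le_integral (hf.integrable_re hw) (Eventually.of_forall fun x => ?_))
  exact mul_nonneg (hf.nn x) (by positivity)

theorem Fk.eps_nonneg (hf : Fk f L r ε) : 0 ≤ ε :=
  (integral_nonneg fun x => div_nonneg (hf.nn x) (by positivity)).trans hf.small

theorem norm_sub_sq (w : ℂ) (x : ℝ) : ‖(x : ℂ) - w‖ ^ 2 = (x - w.re) ^ 2 + w.im ^ 2 := by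
  rw [← Complex.normSq_eq_norm_sq, normSq_sub]

/-- upper bound of the real part at points with `|x - w|² ≥ c² (x² + r²)` -/
theorem Fk.re_upper (hf : Fk f L r ε) {w : ℂ} (hw : 0 < w.im) {c : ℝ} (hc : 0 < c)
    (h : ∀ x : ℝ, c ^ 2 * (x ^ 2 + r ^ 2) ≤ ‖(x : ℂ) - w‖ ^ 2) :
    (Sk f w).re ≤ w.im * (ε / c ^ 2) := by
  have hr := hf.r0
  rw [hf.int_re hw]
  have h1 : ∫ x, f x * (w.im / ((x - w.re) ^ 2 + w.im ^ 2)) ≤
      ∫ x, (w.im / c ^ 2) * (f x / (x ^ 2 + r ^ 2)) := by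
    refine integral_mono (hf.integrable_re hw) (hf.int.const_mul _) fun x => ?_
    simp only
    have e1 := h x
    rw [norm_sub_sq] at e1
    have hx2 : 0 < x ^ 2 + r ^ 2 := by positivity
    have e2 : w.im / ((x - w.re) ^ 2 + w.im ^ 2) ≤ w.im / (c ^ 2 * (x ^ 2 + r ^ 2)) :=
      div_le_div_of_nonneg_left hw.le (by positivity) e1
    calc f x * (w.im / ((x - w.re) ^ 2 + w.im ^ 2)) ≤ f x * (w.im / (c ^ 2 * (x ^ 2 + r ^ 2))) :=
          mul_le_mul_of_nonneg_left e2 (hf.nn x)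
      _ = (w.im / c ^ 2) * (f x / (x ^ 2 + r ^ 2)) := by field_simp
  refine h1.trans ?_
  rw [integral_const_mul]
  calc w.im / c ^ 2 * ∫ x, f x / (x ^ 2 + r ^ 2) ≤ w.im / c ^ 2 * ε :=
        mul_le_mul_of_nonneg_left hf.small (by positivity)
    _ = _ := by ring

/-- difference of two values -/
theorem Fk.sub_upper (hf : Fk f L r ε) {w w₀ : ℂ} (hw : 0 < w.im) (hw₀ : 0 < w₀.im) {c c₀ : ℝ}
    (hc : 0 < c) (hc₀ : 0 < c₀)
    (h : ∀ x : ℝ, c ^ 2 * (x ^ 2 + r ^ 2) ≤ ‖(x : ℂ) - w‖ ^ 2)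
    (h₀ : ∀ x : ℝ, c₀ ^ 2 * (x ^ 2 + r ^ 2) ≤ ‖(x : ℂ) - w₀‖ ^ 2) :
    ‖Sk f w - Sk f w₀‖ ≤ ‖w - w₀‖ * (ε / (c * c₀)) := by
  have hr := hf.r0
  have e0 : Sk f w - Sk f w₀ = -I * ∫ x : ℝ, ((f x : ℂ) / ((x : ℂ) - w) -
      (f x : ℂ) / ((x : ℂ) - w₀)) := by
    rw [integral_sub (hf.integrable hw) (hf.integrable hw₀), Sk, Sk]
    ring
  rw [e0, norm_mul, norm_neg, Complex.norm_I, one_mul]
  have h1 : ‖∫ x : ℝ, ((f x : ℂ) / ((x : ℂ) - w) - (f x : ℂ) / ((x : ℂ) - w₀))‖ ≤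
      ∫ x, (‖w - w₀‖ / (c * c₀)) * (f x / (x ^ 2 + r ^ 2)) := by
    refine norm_integral_le_of_norm_le (hf.int.const_mul _) (Eventually.of_forall fun x => ?_)
    have hx2 : 0 < x ^ 2 + r ^ 2 := by positivity
    have n1 := sub_ne hw x
    have n2 := sub_ne hw₀ x
    have e1 : (f x : ℂ) / ((x : ℂ) - w) - (f x : ℂ) / ((x : ℂ) - w₀) =
        (f x : ℂ) * ((w - w₀) / (((x : ℂ) - w) * ((x : ℂ) - w₀))) := by
      field_simp
      ring
    rw [e1, norm_mul, norm_div, norm_mul, Complex.norm_real, Real.norm_eq_abs,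
      abs_of_nonneg (hf.nn x)]
    have e2 : (c * c₀) * (x ^ 2 + r ^ 2) ≤ ‖(x : ℂ) - w‖ * ‖(x : ℂ) - w₀‖ := by
      have e3 := mul_le_mul (h x) (h₀ x) (by positivity) (by positivity)
      have e4 : ((c * c₀) * (x ^ 2 + r ^ 2)) ^ 2 ≤ (‖(x : ℂ) - w‖ * ‖(x : ℂ) - w₀‖) ^ 2 := by
        calc ((c * c₀) * (x ^ 2 + r ^ 2)) ^ 2 =
            c ^ 2 * (x ^ 2 + r ^ 2) * (c₀ ^ 2 * (x ^ 2 + r ^ 2)) := by ring
          _ ≤ _ := e3
          _ = _ := by ring
      exact (pow_le_pow_iff_left₀ (by positivity) (by positivity) two_ne_zero).1 e4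
    have e3 : ‖w - w₀‖ / (‖(x : ℂ) - w‖ * ‖(x : ℂ) - w₀‖) ≤
        ‖w - w₀‖ / ((c * c₀) * (x ^ 2 + r ^ 2)) :=
      div_le_div_of_nonneg_left (norm_nonneg _) (by positivity) e2
    refine (mul_le_mul_of_nonneg_left e3 (hf.nn x)).trans (le_of_eq ?_)
    field_simp
  refine h1.trans ?_
  rw [integral_const_mul]
  calc ‖w - w₀‖ / (c * c₀) * ∫ x, f x / (x ^ 2 + r ^ 2) ≤ ‖w - w₀‖ / (c * c₀) * ε :=
        mul_le_mul_of_nonneg_left hf.small (by positivity)
    _ = _ := by ring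

/-- holomorphy -/
theorem Fk.diff (hf : Fk f L r ε) : DifferentiableOn ℂ (Sk f) {w : ℂ | 0 < w.im} := by
  intro w hw
  refine DifferentiableAt.differentiableWithinAt ?_
  have hw0 : 0 < w.im := hw
  unfold Sk
  refine DifferentiableAt.const_mul ?_ _
  have hs : ball w (w.im / 2) ∈ 𝓝 w := ball_mem_nhds _ (by positivity)
  have him : ∀ v ∈ ball w (w.im / 2), w.im / 2 < v.im := by
    intro v hv
    have h1 := (Complex.abs_im_le_norm (v - w)).trans_lt (mem_ball_iff_norm.1 hv)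
    have h2 := (abs_lt.1 h1).1
    rw [Complex.sub_im] at h2
    linarith
  have key := hasDerivAt_integral_of_dominated_loc_of_deriv_le (μ := volume) (𝕜 := ℂ)
    (F := fun v (x : ℝ) => (f x : ℂ) / ((x : ℂ) - v))
    (F' := fun v (x : ℝ) => (f x : ℂ) / ((x : ℂ) - v) ^ 2) (x₀ := w)
    (bound := fun x => f x * (4 / w.im ^ 2)) hs ?_ (hf.integrable hw0) ?_ ?_ ?_ ?_
  · exact key.2.differentiableAt
  · filter_upwards [hs] with v hv
    exact (hf.integrable (lt_trans (by positivity) (him v hv))).aestronglyMeasurable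
  · refine Continuous.aestronglyMeasurable ?_
    exact (continuous_ofReal.comp hf.cont).div (by fun_prop) (fun x => pow_ne_zero 2 (sub_ne hw0 x))
  · refine Eventually.of_forall fun x v hv => ?_
    rw [norm_div, norm_pow, Complex.norm_real, Real.norm_eq_abs, abs_of_nonneg (hf.nn x),
      div_eq_mul_one_div]
    refine mul_le_mul_of_nonneg_left ?_ (hf.nn x)
    have h1 : w.im / 2 ≤ ‖(x : ℂ) - v‖ := by
      have h2 := Complex.abs_im_le_norm ((x : ℂ) - v)
      rw [Complex.sub_im, Complex.ofReal_im, zero_sub, abs_neg] at h2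
      exact (him v hv).le.trans ((le_abs_self _).trans h2)
    have h3 : (w.im / 2) ^ 2 ≤ ‖(x : ℂ) - v‖ ^ 2 := pow_le_pow_left₀ (by positivity) h1 2
    have h4 : 1 / ‖(x : ℂ) - v‖ ^ 2 ≤ 1 / (w.im / 2) ^ 2 :=
      one_div_le_one_div_of_le (by positivity) h3
    refine h4.trans (le_of_eq ?_)
    field_simp
    norm_num
  · refine Integrable.mul_const ?_ _
    exact hf.cont.integrable_of_hasCompactSupport hf.comp
  · refine Eventually.of_forall fun x v hv => ?_
    have hv0 : (x : ℂ) - v ≠ 0 := sub_ne (lt_trans (by positivity) (him v hv)) x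
    have h1 : HasDerivAt (fun v : ℂ => (x : ℂ) - v) (-1) v := by
      simpa using (hasDerivAt_id v).const_sub (x : ℂ)
    have h2 := (hasDerivAt_const v (f x : ℂ)).div h1 hv0
    refine h2.congr_deriv ?_
    simp

end Vale.Agent.P097.H337
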