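import Vale.Agent.P097.H337.DiscB

/-! # P097 / row A5.DISC1, part C: the lateral bound -/

set_option linter.all false

open Set Metric Filter Topology MeasureTheory Complex
open scoped ENNReal ComplexConjugate

namespace Vale.Agent.P097.H337

variable {f : ℝ → ℝ} {L r ε : ℝ}

theorem integrable_poisson (a : ℝ) {y : ℝ} (hy : 0 < y) :
    Integrable (fun x : ℝ => y / ((x - a) ^ 2 + y ^ 2)) := by
  have h1 : Integrable (fun x : ℝ => (1 + (x / y) ^ 2)⁻¹) :=
    integrable_inv_one_add_sq.comp_div hy.ne'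
  have h2 := (h1.comp_sub_right a).const_mul (1 / y)
  refine h2.congr (Eventually.of_forall fun x => ?_)
  simp only
  field_simp
  ring

theorem integral_poisson (a : ℝ) {y : ℝ} (hy : 0 < y) :
    ∫ x : ℝ, y / ((x - a) ^ 2 + y ^ 2) = Real.pi := by
  have h2 : ∀ x : ℝ, y / ((x - a) ^ 2 + y ^ 2) = (1 / y) * (1 + ((x - a) / y) ^ 2)⁻¹ := by
    intro x
    field_simp
    ring
  simp only [h2]
  rw [integral_const_mul, integral_sub_right_eq_self (fun x : ℝ => (1 + (x / y) ^ 2)⁻¹) a,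
    Measure.integral_comp_div (fun x : ℝ => (1 + x ^ 2)⁻¹) y, integral_univ_inv_one_add_sq,
    abs_of_pos hy, smul_eq_mul]
  field_simp

theorem odd_zero (a : ℝ) {y : ℝ} (hy : 0 < y) (c : ℝ) :
    ∫ x in Icc (a - c) (a + c), (x - a) / ((x - a) ^ 2 + y ^ 2) = 0 := by
  rcases le_or_gt 0 c with hc | hc
  · rw [integral_Icc_eq_integral_Ioc, ← intervalIntegral.integral_of_le (by linarith)]
    have h1 : ∫ x in (a - c)..(a + c), (x - a) / ((x - a) ^ 2 + y ^ 2) =
        ∫ x in (-c)..c, x / (x ^ 2 + y ^ 2) := by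
      have := intervalIntegral.integral_comp_sub_right (a := a - c) (b := a + c)
        (fun x : ℝ => x / (x ^ 2 + y ^ 2)) a
      rw [this]
      congr 1 <;> ring
    rw [h1]
    have h2 : ∫ x in (-c)..c, x / (x ^ 2 + y ^ 2) = -∫ x in (-c)..c, x / (x ^ 2 + y ^ 2) := by
      have := intervalIntegral.integral_comp_neg (a := -c) (b := c)
        (fun x : ℝ => x / (x ^ 2 + y ^ 2))
      rw [neg_neg] at this
      calc ∫ x in (-c)..c, x / (x ^ 2 + y ^ 2) = ∫ x in (-c)..c, -x / ((-x) ^ 2 + y ^ 2) := this.symm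
        _ = ∫ x in (-c)..c, -(x / (x ^ 2 + y ^ 2)) := by
            congr 1
            ext x
            rw [neg_sq, neg_div]
        _ = _ := intervalIntegral.integral_neg
    linarith
  · rw [Icc_eq_empty (by linarith)]
    simp

theorem norm_re_im {w : ℂ} {D : ℝ} (hwD : ‖w‖ ≤ D) : |w.re| ≤ D ∧ |w.im| ≤ D :=
  ⟨(Complex.abs_re_le_norm w).trans hwD, (Complex.abs_im_le_norm w).trans hwD⟩

theorem abs_outside {a D x : ℝ} (ha : |a| ≤ D) (hx : 2 * D < |x - a|) : 2 * |x| ≤ 3 * |x - a| := by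
  have h1 : |x| ≤ |x - a| + |a| := by
    have := abs_add_le (x - a) a
    rwa [sub_add_cancel] at this
  linarith

/-- real part -/
theorem Fk.re_lat (hf : Fk f L r ε) (hε : ε ≤ 1) {w : ℂ} (hw : 0 < w.im) {D : ℝ} (hwD : ‖w‖ ≤ D)
    (hrD : r ≤ D) : (Sk f w).re ≤ 13 * D := by
  obtain ⟨ha, hy⟩ := norm_re_im hwD
  rw [abs_of_pos hw] at hy
  have hr := hf.r0
  have hD : 0 < D := hw.trans_le hy
  rw [hf.int_re hw]
  set a := w.re with hadef
  set y := w.im with hydef
  have hi := hf.integrable_re hw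
  rw [← integral_add_compl (s := Icc (a - 2 * D) (a + 2 * D)) measurableSet_Icc hi]
  have h1 : ∫ x in Icc (a - 2 * D) (a + 2 * D), f x * (y / ((x - a) ^ 2 + y ^ 2)) ≤
      2 * D * Real.pi + 2 * D := by
    have hK := (integrable_poisson a hw).const_mul (2 * D)
    have hfin : volume (Icc (a - 2 * D) (a + 2 * D)) ≠ ∞ := by
      rw [Real.volume_Icc]; exact ENNReal.ofReal_ne_top
    have e1 : ∫ x in Icc (a - 2 * D) (a + 2 * D), f x * (y / ((x - a) ^ 2 + y ^ 2)) ≤
        ∫ x in Icc (a - 2 * D) (a + 2 * D), (2 * D * (y / ((x - a) ^ 2 + y ^ 2)) + 1 / 2) := by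
      refine setIntegral_mono_on hi.integrableOn
        (hK.integrableOn.add (integrableOn_const hfin)) measurableSet_Icc ?_
      intro x hx
      have f1 : f x ≤ 2 * D + |x - a| := by
        have h2 := (abs_le.1 (hf.lip x a)).2
        have h3 := hf.le_abs a
        linarith
      have f2 : |x - a| * (y / ((x - a) ^ 2 + y ^ 2)) ≤ 1 / 2 := by
        rw [← sq_abs (x - a), mul_div_assoc', div_le_div_iff₀ (by positivity) (by norm_num)]
        nlinarith [sq_nonneg (|x - a| - y)]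
      calc f x * (y / ((x - a) ^ 2 + y ^ 2)) ≤ (2 * D + |x - a|) * (y / ((x - a) ^ 2 + y ^ 2)) :=
            mul_le_mul_of_nonneg_right f1 (by positivity)
        _ = 2 * D * (y / ((x - a) ^ 2 + y ^ 2)) + |x - a| * (y / ((x - a) ^ 2 + y ^ 2)) := by ring
        _ ≤ _ := by linarith
    refine e1.trans ?_
    rw [integral_add hK.integrableOn (integrableOn_const hfin), setIntegral_const, smul_eq_mul,
      Real.volume_real_Icc_of_le (by linarith)]
    have e2 : ∫ x in Icc (a - 2 * D) (a + 2 * D), 2 * D * (y / ((x - a) ^ 2 + y ^ 2)) ≤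
        2 * D * Real.pi := by
      refine (setIntegral_le_integral hK (Eventually.of_forall fun x => by positivity)).trans ?_
      rw [integral_const_mul, integral_poisson a hw]
    linarith
  have h2 : ∫ x in (Icc (a - 2 * D) (a + 2 * D))ᶜ, f x * (y / ((x - a) ^ 2 + y ^ 2)) ≤
      9 / 2 * D := by
    have e1 : ∫ x in (Icc (a - 2 * D) (a + 2 * D))ᶜ, f x * (y / ((x - a) ^ 2 + y ^ 2)) ≤
        ∫ x in (Icc (a - 2 * D) (a + 2 * D))ᶜ, (9 / 2 * D) * (f x / (x ^ 2 + r ^ 2)) := by
      refine setIntegral_mono_on hi.integrableOn (hf.int.const_mul _).integrableOn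
        measurableSet_Icc.compl ?_
      intro x hx
      have hx1 : 2 * D < |x - a| := by
        by_contra hcon
        rw [not_lt] at hcon
        obtain ⟨g1, g2⟩ := abs_le.1 hcon
        exact hx ⟨by linarith, by linarith⟩
      have g3 := abs_outside ha hx1
      have g4 : 4 * x ^ 2 ≤ 9 * ((x - a) ^ 2) := by
        have := pow_le_pow_left₀ (by positivity) g3 2
        rw [mul_pow, mul_pow, sq_abs, sq_abs] at this
        linarith
      have g6 : r ^ 2 ≤ x ^ 2 := by
        have g7 : D ≤ |x| := by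
          have := abs_add_le x (-a)
          rw [← sub_eq_add_neg, abs_neg] at this
          linarith
        rw [← sq_abs x]
        exact pow_le_pow_left₀ hr.le (hrD.trans g7) 2
      have hx2 : 0 < x ^ 2 + r ^ 2 := by positivity
      have g5 : y / ((x - a) ^ 2 + y ^ 2) ≤ 9 / 2 * D / (x ^ 2 + r ^ 2) := by
        rw [div_le_div_iff₀ (by positivity) hx2]
        have g8 : y * (x ^ 2 + r ^ 2) ≤ D * (x ^ 2 + r ^ 2) := mul_le_mul_of_nonneg_right hy hx2.le
        have g9 : D * (x ^ 2 + r ^ 2) ≤ D * (9 / 2 * ((x - a) ^ 2 + y ^ 2)) := by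
          refine mul_le_mul_of_nonneg_left ?_ hD.le
          nlinarith [sq_nonneg y]
        linarith
      calc f x * (y / ((x - a) ^ 2 + y ^ 2)) ≤ f x * (9 / 2 * D / (x ^ 2 + r ^ 2)) :=
            mul_le_mul_of_nonneg_left g5 (hf.nn x)
        _ = _ := by ring
    refine e1.trans ?_
    rw [integral_const_mul]
    have e2 : ∫ x in (Icc (a - 2 * D) (a + 2 * D))ᶜ, f x / (x ^ 2 + r ^ 2) ≤ 1 := by
      refine (setIntegral_le_integral hf.int (Eventually.of_forall fun x =>
        div_nonneg (hf.nn x) (by positivity))).trans (hf.small.trans hε)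
    nlinarith
  have hpi := Real.pi_lt_d2
  nlinarith

/-- imaginary part -/
theorem Fk.im_lat (hf : Fk f L r ε) (hε : ε ≤ 1) {w : ℂ} (hw : 0 < w.im) {D : ℝ}
    (hwD : ‖w‖ ≤ D) (hrD : r ≤ D) : |(Sk f w).im - (Sk f (r * I)).im| ≤ 16 * D := by
  obtain ⟨ha, hy⟩ := norm_re_im hwD
  have hr := hf.r0
  rw [abs_of_pos hw] at hy
  have hD : 0 < D := hw.trans_le hy
  have hw0 : 0 < ((r : ℂ) * I).im := by simpa using hr
  have hi := hf.integrable_im hw
  have hi0 := hf.integrable_im hw0
  have r0 : ((r : ℂ) * I).re = 0 := by simp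
  have r1 : ((r : ℂ) * I).im = r := by simp
  rw [hf.int_im hw, hf.int_im hw0, neg_sub_neg, abs_sub_comm]
  rw [r0, r1] at hi0 ⊢
  simp only [sub_zero] at hi0 ⊢
  set a := w.re with hadef
  set y := w.im with hydef
  set J := Icc (a - 2 * D) (a + 2 * D) with hJ
  have hfin : volume J < ∞ := by rw [hJ, Real.volume_Icc]; exact ENNReal.ofReal_lt_top
  have hvol : volume.real J = 4 * D := by
    rw [hJ, Real.volume_real_Icc_of_le (by linarith)]; ring
  have e1 : ∫ x, f x * ((x - a) / ((x - a) ^ 2 + y ^ 2)) =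
      (∫ x in J, f x * ((x - a) / ((x - a) ^ 2 + y ^ 2))) +
      ∫ x in Jᶜ, f x * ((x - a) / ((x - a) ^ 2 + y ^ 2)) :=
    (integral_add_compl measurableSet_Icc hi).symm
  have e2 : ∫ x, f x * (x / (x ^ 2 + r ^ 2)) =
      (∫ x in J, f x * (x / (x ^ 2 + r ^ 2))) + ∫ x in Jᶜ, f x * (x / (x ^ 2 + r ^ 2)) :=
    (integral_add_compl measurableSet_Icc hi0).symm
  -- the part over J
  have hc1 : Continuous fun x : ℝ => (x - a) / ((x - a) ^ 2 + y ^ 2) :=
    (by fun_prop : Continuous fun x : ℝ => x - a).div (by fun_prop) (fun x => by positivity)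
  have b1 : |∫ x in J, f x * ((x - a) / ((x - a) ^ 2 + y ^ 2))| ≤ 4 * D := by
    have g1 : ∫ x in J, f x * ((x - a) / ((x - a) ^ 2 + y ^ 2)) =
        ∫ x in J, (f x - f a) * ((x - a) / ((x - a) ^ 2 + y ^ 2)) := by
      have g2 : IntegrableOn (fun x => f a * ((x - a) / ((x - a) ^ 2 + y ^ 2))) J :=
        (continuous_const.mul hc1).integrableOn_Icc
      have g3 := integral_sub hi.integrableOn g2
      rw [integral_const_mul, odd_zero a hw, mul_zero, sub_zero] at g3
      rw [← g3]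
      congr 1
      ext x
      ring
    rw [g1, ← Real.norm_eq_abs]
    refine (norm_setIntegral_le_of_norm_le_const (C := 1) hfin fun x hx => ?_).trans ?_
    · rw [Real.norm_eq_abs, abs_mul, abs_div, abs_of_nonneg (by positivity : (0:ℝ) ≤ (x - a) ^ 2 + y ^ 2)]
      have g4 := hf.lip x a
      rw [mul_div_assoc', div_le_one (by positivity)]
      have g5 : |f x - f a| * |x - a| ≤ |x - a| * |x - a| :=
        mul_le_mul_of_nonneg_right g4 (abs_nonneg _)
      rw [abs_mul_abs_self] at g5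
      nlinarith [sq_nonneg y]
    · rw [hvol, one_mul]
  have b2 : |∫ x in J, f x * (x / (x ^ 2 + r ^ 2))| ≤ 6 * D := by
    rw [← Real.norm_eq_abs]
    refine (norm_setIntegral_le_of_norm_le_const (C := 3 / 2) hfin fun x hx => ?_).trans ?_
    · rw [Real.norm_eq_abs, abs_mul, abs_div, abs_of_nonneg (by positivity : (0:ℝ) ≤ x ^ 2 + r ^ 2),
        abs_of_nonneg (hf.nn x)]
      have g4 := hf.le_abs x
      rw [mul_div_assoc', div_le_iff₀ (by positivity)]
      have g5 : f x * |x| ≤ (|x| + r) * |x| := mul_le_mul_of_nonneg_right g4 (abs_nonneg _)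
      have g6 : |x| * |x| = x ^ 2 := by rw [abs_mul_abs_self]; ring
      nlinarith [sq_nonneg (|x| - r)]
    · rw [hvol]; linarith
  have b3 : |(∫ x in Jᶜ, f x * ((x - a) / ((x - a) ^ 2 + y ^ 2))) -
      ∫ x in Jᶜ, f x * (x / (x ^ 2 + r ^ 2))| ≤ 6 * D := by
    rw [← integral_sub hi.integrableOn hi0.integrableOn, ← Real.norm_eq_abs]
    have g1 : ‖∫ x in Jᶜ, (f x * ((x - a) / ((x - a) ^ 2 + y ^ 2)) - f x * (x / (x ^ 2 + r ^ 2)))‖ ≤
        ∫ x in Jᶜ, (6 * D) * (f x / (x ^ 2 + r ^ 2)) := by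
      refine norm_integral_le_of_norm_le (hf.int.const_mul _).integrableOn ?_
      refine (ae_restrict_iff' measurableSet_Icc.compl).2 (Eventually.of_forall fun x hx => ?_)
      have hx1 : 2 * D < |x - a| := by
        by_contra hcon
        rw [not_lt] at hcon
        obtain ⟨g1, g2⟩ := abs_le.1 hcon
        exact hx ⟨by linarith, by linarith⟩
      have g3 := abs_outside ha hx1
      have g7 : D ≤ |x| := by
        have := abs_add_le x (-a)
        rw [← sub_eq_add_neg, abs_neg] at this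
        linarith
      have hxp : 0 < |x| := hD.trans_le g7
      have g6 : r ^ 2 ≤ x ^ 2 := by
        rw [← sq_abs x]
        exact pow_le_pow_left₀ hr.le (hrD.trans g7) 2
      have n1 := sub_ne hw x
      have n2 := sub_ne hw0 x
      have k1 : (x - a) / ((x - a) ^ 2 + y ^ 2) - x / (x ^ 2 + r ^ 2) =
          (1 / ((x : ℂ) - w) - 1 / ((x : ℂ) - r * I)).re := by
        rw [Complex.sub_re, ker_re, ker_re, r0, r1, sub_zero]
      have k2 : 1 / ((x : ℂ) - w) - 1 / ((x : ℂ) - r * I) =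
          (w - r * I) / (((x : ℂ) - w) * ((x : ℂ) - r * I)) := by
        field_simp
        ring
      have k3 : |(1 / ((x : ℂ) - w) - 1 / ((x : ℂ) - r * I)).re| ≤
          ‖w - r * I‖ / (‖(x : ℂ) - w‖ * ‖(x : ℂ) - r * I‖) := by
        rw [k2]
        refine (Complex.abs_re_le_norm _).trans ?_
        rw [norm_div, norm_mul]
      have k4 : ‖w - r * I‖ ≤ 2 * D := by
        refine (norm_sub_le _ _).trans ?_
        rw [norm_mul, Complex.norm_I, mul_one, Complex.norm_real, Real.norm_eq_abs,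
          abs_of_pos hr]
        linarith
      have k5 : 2 / 3 * |x| ≤ ‖(x : ℂ) - w‖ := by
        have := Complex.abs_re_le_norm ((x : ℂ) - w)
        rw [Complex.sub_re, Complex.ofReal_re] at this
        linarith
      have k6 : |x| ≤ ‖(x : ℂ) - r * I‖ := by
        have := Complex.abs_re_le_norm ((x : ℂ) - r * I)
        rw [Complex.sub_re, Complex.ofReal_re, r0, sub_zero] at this
        exact this
      have k7 : (2 / 3 * |x|) * |x| ≤ ‖(x : ℂ) - w‖ * ‖(x : ℂ) - r * I‖ :=
        mul_le_mul k5 k6 (abs_nonneg _) (norm_nonneg _)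
      have k9 : 1 / 3 * (x ^ 2 + r ^ 2) ≤ (2 / 3 * |x|) * |x| := by
        have : (2 / 3 * |x|) * |x| = 2 / 3 * x ^ 2 := by rw [← sq_abs x]; ring
        rw [this]; linarith
      have k8 : ‖w - r * I‖ / (‖(x : ℂ) - w‖ * ‖(x : ℂ) - r * I‖) ≤
          (2 * D) / (1 / 3 * (x ^ 2 + r ^ 2)) :=
        div_le_div₀ (by positivity) k4 (by positivity) (k9.trans k7)
      rw [← mul_sub, Real.norm_eq_abs, abs_mul, abs_of_nonneg (hf.nn x), k1]
      refine (mul_le_mul_of_nonneg_left (k3.trans k8) (hf.nn x)).trans (le_of_eq ?_)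
      field_simp
      ring
    refine g1.trans ?_
    rw [integral_const_mul]
    have g2 : ∫ x in Jᶜ, f x / (x ^ 2 + r ^ 2) ≤ 1 :=
      (setIntegral_le_integral hf.int (Eventually.of_forall fun x =>
        div_nonneg (hf.nn x) (by positivity))).trans (hf.small.trans hε)
    nlinarith
  rw [e1, e2]
  have b1' := abs_le.1 b1
  have b2' := abs_le.1 b2
  have b3' := abs_le.1 b3
  rw [abs_le]
  constructor <;> linarith [b1'.1, b1'.2, b2'.1, b2'.2, b3'.1, b3'.2]

/-- **lateral bound** -/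
theorem Fk.lat (hf : Fk f L r ε) (hε : ε ≤ 1) {w : ℂ} (hw : 0 < w.im) {D : ℝ}
    (hwD : ‖w‖ ≤ D) (hrD : r ≤ D) :
    ‖Sk f w - ((Sk f (r * I)).im : ℂ) * I‖ ≤ 29 * D := by
  refine (Complex.norm_le_abs_re_add_abs_im _).trans ?_
  have h1 := hf.re_lat hε hw hwD hrD
  have h2 := hf.re_nonneg hw
  have h3 := hf.im_lat hε hw hwD hrD
  have e1 : (Sk f w - ((Sk f (r * I)).im : ℂ) * I).re = (Sk f w).re := by simp
  have e2 : (Sk f w - ((Sk f (r * I)).im : ℂ) * I).im = (Sk f w).im - (Sk f (r * I)).im := by simp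
  rw [e1, e2, abs_of_nonneg h2]
  linarith

end Vale.Agent.P097.H337
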