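import Vale.Agent.P097.H337.DiscA
import Vale.Agent.P097.H337.DiscC

/-! # P097 / row A5.DISC1: one-label discs -/

set_option linter.all false

open Set Metric Filter Topology MeasureTheory Complex
open scoped ENNReal ComplexConjugate

namespace Vale.Agent.P097.H337

/-! ### the cut distance function -/

/-- the distance to `A`, cut at distance `2ρ` of `u`, centred at `u` -/
noncomputable def cd (A : Set ℝ) (u ρ x : ℝ) : ℝ := min (infDist (u + x) A) (max 0 (2 * ρ - |x|))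

theorem cd_lip (A : Set ℝ) (u ρ : ℝ) (x y : ℝ) : |cd A u ρ x - cd A u ρ y| ≤ |x - y| := by
  refine (abs_min_sub_min_le_max _ _ _ _).trans (max_le ?_ ?_)
  · have := (lipschitz_infDist_pt A).dist_le_mul (u + x) (u + y)
    rw [Real.dist_eq, Real.dist_eq, NNReal.coe_one, one_mul, add_sub_add_left_eq_sub] at this
    exact this
  · refine (abs_max_sub_max_le_max _ _ _ _).trans (max_le ?_ ?_)
    · rw [sub_self, abs_zero]; exact abs_nonneg _
    · rw [sub_sub_sub_cancel_left, abs_sub_comm]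
      exact abs_abs_sub_abs_le_abs_sub x y

theorem cd_nonneg (A : Set ℝ) (u ρ x : ℝ) : 0 ≤ cd A u ρ x := le_min infDist_nonneg (le_max_left _ _)

theorem cd_supp (A : Set ℝ) (u ρ : ℝ) {x : ℝ} (hx : 2 * ρ ≤ |x|) : cd A u ρ x = 0 := by
  have h1 : max 0 (2 * ρ - |x|) = 0 := max_eq_left (by linarith)
  rw [cd, h1]
  exact min_eq_right infDist_nonneg

theorem cd_cont (A : Set ℝ) (u ρ : ℝ) : Continuous (cd A u ρ) := by
  refine (LipschitzWith.of_dist_le_mul (K := 1) fun x y => ?_).continuous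
  rw [Real.dist_eq, Real.dist_eq]
  simpa using cd_lip A u ρ x y

/-- the Marcinkiewicz integral at scale `r` -/
noncomputable def mkr (A : Set ℝ) (u r x : ℝ) : ℝ := infDist x A / ((x - u) ^ 2 + r ^ 2)

theorem mkr_nonneg (A : Set ℝ) (u r x : ℝ) : 0 ≤ mkr A u r x :=
  div_nonneg infDist_nonneg (by positivity)

theorem mkr_cont (A : Set ℝ) (u : ℝ) {r : ℝ} (hr : 0 < r) : Continuous (mkr A u r) :=
  (continuous_infDist_pt A).div (by fun_prop) (fun x => by positivity)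

theorem small_cd {A : Set ℝ} {u ρ r ε : ℝ} (hr : 0 < r)
    (hs : ∫ x in ball u (2 * ρ), mkr A u r x ≤ ε) : ∫ x, cd A u ρ x / (x ^ 2 + r ^ 2) ≤ ε := by
  have hi : IntegrableOn (mkr A u r) (ball u (2 * ρ)) :=
    ((mkr_cont A u hr).integrableOn_Icc (a := u - 2 * ρ) (b := u + 2 * ρ)).mono_set (by
      rw [Real.ball_eq_Ioo]; exact Ioo_subset_Icc_self)
  set G : ℝ → ℝ := (ball u (2 * ρ)).indicator (mkr A u r) with hG
  have hGi : Integrable G := (integrable_indicator_iff measurableSet_ball).2 hi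
  have hGu : Integrable (fun x => G (u + x)) := hGi.comp_add_left u
  have hG0 : ∀ x, 0 ≤ G x := fun x => indicator_nonneg (fun y _ => mkr_nonneg A u r y) x
  have hle : ∀ x, cd A u ρ x / (x ^ 2 + r ^ 2) ≤ G (u + x) := by
    intro x
    rcases le_or_gt (2 * ρ) |x| with h | h
    · rw [cd_supp A u ρ h, zero_div]; exact hG0 _
    · have hm : u + x ∈ ball u (2 * ρ) := by
        rw [mem_ball, Real.dist_eq, add_sub_cancel_left]; exact h
      rw [hG, indicator_of_mem hm, mkr, add_sub_cancel_left]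
      exact div_le_div_of_nonneg_right (min_le_left _ _) (by positivity)
  have hint : Integrable (fun x => cd A u ρ x / (x ^ 2 + r ^ 2)) := by
    refine hGu.mono' ((cd_cont A u ρ).div (by fun_prop)
      (fun x => by positivity)).aestronglyMeasurable (Eventually.of_forall fun x => ?_)
    rw [Real.norm_eq_abs, abs_of_nonneg (div_nonneg (cd_nonneg A u ρ x) (by positivity))]
    exact hle x
  calc ∫ x, cd A u ρ x / (x ^ 2 + r ^ 2) ≤ ∫ x, G (u + x) := integral_mono hint hGu hle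
    _ = ∫ x, G x := integral_add_left_eq_self G u
    _ = ∫ x in ball u (2 * ρ), mkr A u r x := integral_indicator measurableSet_ball
    _ ≤ ε := hs

/-- a small integral at scale `r` forces `f 0 ≤ r` -/
theorem zero_le_of_small {f : ℝ → ℝ} {r ε : ℝ} (hr : 0 < r) (hlip : ∀ x y, |f x - f y| ≤ |x - y|)
    (hnn : ∀ x, 0 ≤ f x) (hint : Integrable (fun x => f x / (x ^ 2 + r ^ 2)))
    (hs : ∫ x, f x / (x ^ 2 + r ^ 2) ≤ ε) (hε : ε ≤ 1 / 4) : f 0 ≤ r := by
  by_contra hcon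
  rw [not_le] at hcon
  set s := f 0 with hs0
  have hs1 : 0 < s := hr.trans hcon
  have h1 : ∫ x in Icc (-(s / 2)) (s / 2), (2 / (5 * s)) ≤
      ∫ x in Icc (-(s / 2)) (s / 2), f x / (x ^ 2 + r ^ 2) := by
    refine setIntegral_mono_on (integrableOn_const (by
      rw [Real.volume_Icc]; exact ENNReal.ofReal_ne_top)) hint.integrableOn measurableSet_Icc ?_
    intro x hx
    have e1 : |x| ≤ s / 2 := abs_le.2 hx
    have e2 : s / 2 ≤ f x := by
      have := (abs_le.1 (hlip 0 x)).2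
      rw [zero_sub, abs_neg] at this
      linarith
    have e3 : x ^ 2 ≤ (s / 2) ^ 2 := by
      rw [← sq_abs x]; exact pow_le_pow_left₀ (abs_nonneg _) e1 2
    have e4 : r ^ 2 ≤ s ^ 2 := pow_le_pow_left₀ hr.le hcon.le 2
    rw [div_le_div_iff₀ (by positivity) (by positivity)]
    nlinarith
  rw [setIntegral_const, smul_eq_mul, Real.volume_real_Icc_of_le (by linarith)] at h1
  have h2 : (s / 2 - -(s / 2)) * (2 / (5 * s)) = 2 / 5 := by field_simp; ring
  rw [h2] at h1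
  have h3 := setIntegral_le_integral (s := Icc (-(s / 2)) (s / 2)) hint
    (Eventually.of_forall fun x => div_nonneg (hnn x) (by positivity))
  linarith

theorem fk_cd {A : Set ℝ} {u ρ r ε : ℝ} (hr : 0 < r) (hε : ε ≤ 1 / 4)
    (hs : ∫ x in ball u (2 * ρ), mkr A u r x ≤ ε) : Fk (cd A u ρ) (2 * ρ) r ε := by
  have h1 := small_cd hr hs
  refine ⟨hr, cd_lip A u ρ, cd_nonneg A u ρ, ?_, fun x hx => cd_supp A u ρ hx, h1⟩
  refine zero_le_of_small hr (cd_lip A u ρ) (cd_nonneg A u ρ) ?_ h1 hε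
  refine Continuous.integrable_of_hasCompactSupport ((cd_cont A u ρ).div (by fun_prop)
    (fun x => by positivity)) ?_
  refine HasCompactSupport.intro (isCompact_closedBall (0 : ℝ) (2 * ρ)) fun x hx => ?_
  rw [mem_closedBall, dist_zero_right, Real.norm_eq_abs, not_le] at hx
  rw [cd_supp A u ρ hx.le]
  simp

theorem cd_eq {A : Set ℝ} {u ρ r x : ℝ} (h0 : cd A u ρ 0 ≤ r) (hrρ : r ≤ ρ) (hρ : 0 < ρ)
    (hx : |x - u| ≤ ρ / 2) : cd A u ρ (x - u) = infDist x A := by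
  have h2 : infDist u A ≤ r := by
    rw [cd, add_zero, abs_zero, sub_zero, max_eq_right (by linarith)] at h0
    rcases min_le_iff.1 h0 with h | h
    · exact h
    · linarith
  have h1 : infDist x A ≤ |x - u| + r := by
    have := (lipschitz_infDist_pt A).dist_le_mul x u
    rw [Real.dist_eq, Real.dist_eq, NNReal.coe_one, one_mul] at this
    have := (abs_le.1 this).2
    linarith
  rw [cd, add_sub_cancel]
  refine min_eq_left ((h1.trans ?_).trans (le_max_right _ _))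
  linarith

/-! ### the gap part -/

/-- the conclusion of the gap part -/
structure GapD (A : Set ℝ) (u K ε C ρ r : ℝ) (Ψ : ℂ → ℂ) (β δ : ℝ) : Prop where
  d0 : 0 < δ
  dr : δ ≤ r / 2
  diff : DifferentiableOn ℂ Ψ {w : ℂ | -δ < w.im}
  pos : ∀ w : ℂ, 0 ≤ w.im → 0 ≤ (Ψ w).re
  bd : ∀ x : ℝ, |x - u| ≤ ρ → K * infDist x A ≤ (Ψ x).re
  tgt : ∀ w : ℂ, |w.re - u| ≤ C * r → r / C ≤ w.im → w.im ≤ C * r → ‖Ψ w - β * I‖ ≤ ε * r
  lat : ∀ w : ℂ, 0 ≤ w.im → ‖Ψ w - β * I‖ ≤ 30 * K * (r + ‖w - u‖)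

theorem target_cone {C r a y : ℝ} (hC : 1 ≤ C) (hr : 0 < r) (ha : |a| ≤ C * r) (hy : r / C ≤ y)
    (x : ℝ) : (1 / (3 * C ^ 2)) ^ 2 * (x ^ 2 + r ^ 2) ≤ ‖(x : ℂ) - (a + y * I)‖ ^ 2 := by
  have hC0 : 0 < C := by linarith
  have hy0 : 0 < y := (div_pos hr hC0).trans_le hy
  have e0 : ‖(x : ℂ) - (a + y * I)‖ ^ 2 = (x - a) ^ 2 + y ^ 2 := by
    rw [norm_sub_sq]; simp
  rw [e0]
  have hC2 : 1 ≤ C ^ 2 := one_le_pow₀ hC
  rcases le_or_gt |x| (2 * C * r) with h | h
  · have h1 : x ^ 2 ≤ (2 * C * r) ^ 2 := by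
      rw [← sq_abs x]; exact pow_le_pow_left₀ (abs_nonneg _) h 2
    have h2 : (r / C) ^ 2 ≤ y ^ 2 := pow_le_pow_left₀ (by positivity) hy 2
    have h3 : (1 / (3 * C ^ 2)) ^ 2 * (x ^ 2 + r ^ 2) ≤
        (1 / (3 * C ^ 2)) ^ 2 * (5 * C ^ 2 * r ^ 2) := by
      refine mul_le_mul_of_nonneg_left ?_ (by positivity)
      nlinarith [mul_le_mul_of_nonneg_right hC2 (sq_nonneg r)]
    have h4 : (1 / (3 * C ^ 2)) ^ 2 * (5 * C ^ 2 * r ^ 2) = 5 / 9 * (r / C) ^ 2 := by
      field_simp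
      ring
    nlinarith [sq_nonneg (x - a), sq_nonneg (r / C)]
  · have h2 : |x| - |a| ≤ |x - a| := abs_sub_abs_le_abs_sub x a
    have h3 : |x| / 2 ≤ |x - a| := by linarith
    have h5 : (|x| / 2) ^ 2 ≤ (x - a) ^ 2 := by
      rw [← sq_abs (x - a)]; exact pow_le_pow_left₀ (by positivity) h3 2
    rw [div_pow, sq_abs] at h5
    have h6 : (2 * r) ^ 2 ≤ x ^ 2 := by
      rw [← sq_abs x]
      refine pow_le_pow_left₀ (by positivity) ?_ 2
      nlinarith
    have h4 : (1 / (3 * C ^ 2)) ^ 2 ≤ 1 / 9 := by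
      have : 1 / (3 * C ^ 2) ≤ 1 / 3 := one_div_le_one_div_of_le (by norm_num) (by linarith)
      have := pow_le_pow_left₀ (by positivity) this 2
      linarith
    have h7 : (1 / (3 * C ^ 2)) ^ 2 * (x ^ 2 + r ^ 2) ≤ 1 / 9 * (x ^ 2 + r ^ 2) :=
      mul_le_mul_of_nonneg_right h4 (by positivity)
    nlinarith [sq_nonneg y]

/-- **the gap part of the disc**, deterministic form: any centre `u` (not necessarily in `A`), any
scale `r` at which the Marcinkiewicz integral is small -/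
theorem gap_disc_det {K ε C : ℝ} (hK : 0 ≤ K) (hε : 0 < ε) (hC : 1 ≤ C) :
    ∃ ε₁ > 0, ∀ (A : Set ℝ) (u ρ r : ℝ), 0 < r → r ≤ ρ →
      ∫ x in ball u (2 * ρ), mkr A u r x ≤ ε₁ → ∀ δ₀ > 0, ∃ (Ψ : ℂ → ℂ) (β δ : ℝ), δ ≤ δ₀ ∧
      GapD A u K ε C (ρ / 2) r Ψ β δ := by
  have hC0 : 0 < C := by linarith
  set ε₁ : ℝ := min (1 / 4) (ε / (20 * (K + 1) * C ^ 3)) with hε₁
  have he1 : 0 < ε₁ := lt_min (by norm_num) (by positivity)
  have he2 : ε₁ ≤ 1 / 4 := min_le_left _ _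
  have he3 : ε₁ ≤ ε / (20 * (K + 1) * C ^ 3) := min_le_right _ _
  refine ⟨ε₁, he1, fun A u ρ r hr hrρ hs δ₀ hδ₀ => ?_⟩
  have hρ : 0 < ρ := hr.trans_le hrρ
  have hf : Fk (cd A u ρ) (2 * ρ) r ε₁ := fk_cd hr he2 hs
  have hcd : ∀ x : ℝ, |x - u| ≤ ρ / 2 → cd A u ρ (x - u) = infDist x A := fun x hx =>
    cd_eq hf.f0 hrρ hρ hx
  set f := cd A u ρ with hfdef
  set δ : ℝ := min δ₀ (min (r / 2) (ε * r / (2 * (K + 1)))) with hδ
  have hd0 : 0 < δ := lt_min hδ₀ (lt_min (by positivity) (by positivity))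
  have hd1 : δ ≤ δ₀ := min_le_left _ _
  have hd2 : δ ≤ r / 2 := (min_le_right _ _).trans (min_le_left _ _)
  have hd3 : δ ≤ ε * r / (2 * (K + 1)) := (min_le_right _ _).trans (min_le_right _ _)
  have hKδ : K * δ ≤ ε * r / 2 := by
    rw [le_div_iff₀ (by positivity)] at hd3
    nlinarith
  set sh : ℂ → ℂ := fun w => w - u + δ * I with hsh
  have him : ∀ w : ℂ, (sh w).im = w.im + δ := by intro w; simp [hsh]
  have hre : ∀ w : ℂ, (sh w).re = w.re - u := by intro w; simp [hsh]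
  have hΨre : ∀ w : ℂ, ((K : ℂ) * Sk f (sh w) + (K * δ : ℝ)).re = K * (Sk f (sh w)).re + K * δ := by
    intro w
    simp
  refine ⟨fun w => (K : ℂ) * Sk f (sh w) + (K * δ : ℝ), K * (Sk f (r * I)).im, δ, hd1,
    hd0, hd2, ?_, ?_, ?_, ?_, ?_⟩
  · -- differentiable
    have h1 : DifferentiableOn ℂ (fun w => Sk f (sh w)) {w : ℂ | -δ < w.im} := by
      refine hf.diff.comp (f := sh) ?_ ?_
      · exact ((differentiable_id.sub_const _).add_const _).differentiableOn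
      · intro w hw
        have : -δ < w.im := hw
        change 0 < (sh w).im
        rw [him]; linarith
    exact (h1.const_mul _).add_const _
  · intro w hw
    rw [hΨre]
    have h1 := hf.re_nonneg (w := sh w) (by rw [him]; linarith)
    positivity
  · intro x hx
    rw [hΨre]
    have h1 := hf.re_lower (w := sh (x : ℂ)) (by rw [him]; simpa using hd0)
    rw [him, hre, Complex.ofReal_im, Complex.ofReal_re, zero_add, hcd x hx] at h1
    nlinarith
  · intro w h1 h2 h3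
    have hwim : 0 < w.im := (div_pos hr hC0).trans_le h2
    have hsw : sh w = ((w.re - u : ℝ) : ℂ) + ((w.im + δ : ℝ) : ℂ) * I := by
      apply Complex.ext
      · rw [hre]; simp
      · rw [him]; simp
    have hw0 : 0 < ((r : ℂ) * I).im := by simpa using hr
    have hc0 : ∀ x : ℝ, (1 : ℝ) ^ 2 * (x ^ 2 + r ^ 2) ≤ ‖(x : ℂ) - (r : ℂ) * I‖ ^ 2 := by
      intro x
      rw [norm_sub_sq]
      simp
    have hcw : ∀ x : ℝ, (1 / (3 * C ^ 2)) ^ 2 * (x ^ 2 + r ^ 2) ≤ ‖(x : ℂ) - sh w‖ ^ 2 := by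
      intro x
      rw [hsw]
      exact target_cone hC hr h1 (h2.trans (by linarith)) x
    have e1 := hf.sub_upper (w := sh w) (w₀ := (r : ℂ) * I) (by rw [him]; linarith) hw0
      (by positivity) one_pos hcw hc0
    have e2 := hf.re_upper hw0 one_pos hc0
    have r1 : ((r : ℂ) * I).im = r := by simp
    rw [r1, one_pow, div_one] at e2
    have e3 : ‖sh w - (r : ℂ) * I‖ ≤ 3 * C * r := by
      refine (Complex.norm_le_abs_re_add_abs_im _).trans ?_
      rw [Complex.sub_re, Complex.sub_im, hre, him, r1]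
      have r0 : ((r : ℂ) * I).re = 0 := by simp
      rw [r0, sub_zero]
      have hCr : r ≤ C * r := le_mul_of_one_le_left hr.le hC
      have e4 : |w.im + δ - r| ≤ 2 * C * r := by
        rw [abs_le]
        constructor <;> linarith
      linarith
    have e5 : ‖Sk f (sh w) - ((Sk f (r * I)).im : ℂ) * I‖ ≤ 10 * C ^ 3 * ε₁ * r := by
      have e6 : Sk f (sh w) - ((Sk f (r * I)).im : ℂ) * I =
          (Sk f (sh w) - Sk f (r * I)) + ((Sk f (r * I)).re : ℂ) := by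
        have := Complex.re_add_im (Sk f (r * I))
        linear_combination (-1 : ℂ) * this
      rw [e6]
      refine (norm_add_le _ _).trans ?_
      rw [Complex.norm_real, Real.norm_eq_abs, abs_of_nonneg (hf.re_nonneg hw0)]
      have e7 : ‖sh w - (r : ℂ) * I‖ * (ε₁ / (1 / (3 * C ^ 2) * 1)) ≤ 9 * C ^ 3 * ε₁ * r := by
        calc ‖sh w - (r : ℂ) * I‖ * (ε₁ / (1 / (3 * C ^ 2) * 1))
            ≤ (3 * C * r) * (ε₁ / (1 / (3 * C ^ 2) * 1)) :=
              mul_le_mul_of_nonneg_right e3 (by positivity)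
          _ = 9 * C ^ 3 * ε₁ * r := by field_simp; ring
      have e8 : r * ε₁ ≤ C ^ 3 * ε₁ * r := by
        have : (1 : ℝ) ≤ C ^ 3 := one_le_pow₀ hC
        nlinarith [mul_pos hr he1]
      linarith
    have e9 : (K : ℂ) * Sk f (sh w) + (K * δ : ℝ) - ((K * (Sk f (r * I)).im : ℝ) : ℂ) * I =
        (K : ℂ) * (Sk f (sh w) - ((Sk f (r * I)).im : ℂ) * I) + (K * δ : ℝ) := by
      push_cast
      ring
    rw [e9]
    refine (norm_add_le _ _).trans ?_
    rw [norm_mul, Complex.norm_real, Complex.norm_real, Real.norm_eq_abs, Real.norm_eq_abs,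
      abs_of_nonneg hK, abs_of_nonneg (mul_nonneg hK hd0.le)]
    have e10 : K * (10 * C ^ 3 * ε₁ * r) ≤ ε * r / 2 := by
      rw [le_div_iff₀ (by positivity)] at he3
      have : 0 < C ^ 3 := by positivity
      have e11 : 10 * C ^ 3 * ε₁ * K ≤ ε / 2 := by
        have : 10 * C ^ 3 * ε₁ * K ≤ 10 * C ^ 3 * ε₁ * (K + 1) :=
          mul_le_mul_of_nonneg_left (by linarith) (by positivity)
        linarith
      nlinarith
    have e12 := mul_le_mul_of_nonneg_left e5 hK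
    linarith
  · intro w hw
    have e9 : (K : ℂ) * Sk f (sh w) + (K * δ : ℝ) - ((K * (Sk f (r * I)).im : ℝ) : ℂ) * I =
        (K : ℂ) * (Sk f (sh w) - ((Sk f (r * I)).im : ℂ) * I) + (K * δ : ℝ) := by
      push_cast
      ring
    rw [e9]
    refine (norm_add_le _ _).trans ?_
    rw [norm_mul, Complex.norm_real, Complex.norm_real, Real.norm_eq_abs, Real.norm_eq_abs,
      abs_of_nonneg hK, abs_of_nonneg (mul_nonneg hK hd0.le)]
    have h1 : ‖sh w‖ ≤ r + ‖w - u‖ := by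
      rw [hsh]
      refine (norm_add_le _ _).trans ?_
      rw [norm_mul, Complex.norm_I, mul_one, Complex.norm_real, Real.norm_eq_abs,
        abs_of_pos hd0]
      linarith
    have h2 := hf.lat (by linarith) (w := sh w) (D := r + ‖w - u‖) (by rw [him]; linarith) h1
      (by linarith [norm_nonneg (w - (u : ℂ))])
    have h3 := mul_le_mul_of_nonneg_left h2 hK
    have h4 : K * δ ≤ K * (r + ‖w - u‖) :=
      mul_le_mul_of_nonneg_left (by linarith [norm_nonneg (w - (u : ℂ))]) hK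
    linarith

/-- the integral at scale `r` is bounded by the Marcinkiewicz integral -/
theorem mkr_le_mkk (A : Set ℝ) {u : ℝ} (hu : u ∈ A) {r : ℝ} (hr : 0 < r) (x : ℝ) :
    mkr A u r x ≤ mkk A u x := by
  rcases eq_or_ne x u with rfl | hx
  · rw [mkr, mkk, infDist_zero_of_mem hu, zero_div, zero_div]
  · have : 0 < (x - u) ^ 2 := by
      have : x - u ≠ 0 := sub_ne_zero.2 hx
      positivity
    exact div_le_div_of_nonneg_left infDist_nonneg this (by nlinarith [sq_nonneg r])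

theorem mkr_small {A : Set ℝ} {u : ℝ} (hu : u ∈ A) {ρ ε r : ℝ} (hr : 0 < r)
    (hi : IntegrableOn (mkk A u) (ball u ρ)) (hs : ∫ x in ball u ρ, mkk A u x ≤ ε) :
    ∫ x in ball u ρ, mkr A u r x ≤ ε := by
  refine le_trans ?_ hs
  refine setIntegral_mono_on ?_ hi measurableSet_ball fun x _ => mkr_le_mkk A hu hr x
  exact ((mkr_cont A u hr).integrableOn_Icc (a := u - ρ) (b := u + ρ)).mono_set (by
      rw [Real.ball_eq_Ioo]; exact Ioo_subset_Icc_self)

/-- **the gap part of the disc**, at a Marcinkiewicz point of `A` -/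
theorem gap_disc {A : Set ℝ} {u : ℝ} (hu : u ∈ A)
    (hm : ∀ n : ℕ, ∫⁻ x in Icc (-(n : ℝ)) n, ENNReal.ofReal (mkk A u x) < ∞)
    {K ε C : ℝ} (hK : 0 ≤ K) (hε : 0 < ε) (hC : 1 ≤ C) :
    ∃ ρ > 0, ρ ≤ 1 ∧ ∀ r : ℝ, 0 < r → r ≤ ρ → ∀ δ₀ > 0, ∃ (Ψ : ℂ → ℂ) (β δ : ℝ), δ ≤ δ₀ ∧
      GapD A u K ε C ρ r Ψ β δ := by
  obtain ⟨ε₁, h1, h2⟩ := gap_disc_det hK hε hC
  obtain ⟨ρ₁, hρ₁, hρ1, hi, hs⟩ := marc_tail hm h1
  have h2ρ : 2 * (ρ₁ / 2) = ρ₁ := by ring
  refine ⟨ρ₁ / 4, by positivity, by linarith, fun r hr hrρ δ₀ hδ₀ => ?_⟩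
  have h3 := mkr_small hu hr hi hs
  obtain ⟨Ψ, β, δ, h4, h5⟩ := h2 A u (ρ₁ / 2) r hr (by linarith) (by rwa [h2ρ]) δ₀ hδ₀
  have : ρ₁ / 2 / 2 = ρ₁ / 4 := by ring
  rw [this] at h5
  exact ⟨Ψ, β, δ, h4, h5⟩

end Vale.Agent.P097.H337
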