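import Vale.Agent.P097.H337.DiscD

/-! # P097 / row A5.DISC1: the summable profile, and the final statements -/

set_option linter.all false

open Set Metric Filter Topology MeasureTheory Complex
open scoped ENNReal ComplexConjugate

namespace Vale.Agent.P097.H337

/-! ### the profile `z / (M + log z)` -/

theorem cos_add_mul_sin {φ : ℝ} (h : |φ| ≤ Real.pi / 2) : 1 ≤ Real.cos φ + φ * Real.sin φ := by
  have h1 := Real.one_sub_sq_div_two_le_cos (x := φ)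
  have h2 : φ * Real.sin φ = |φ| * Real.sin |φ| := by
    rcases abs_cases φ with ⟨e, _⟩ | ⟨e, _⟩
    · rw [e]
    · rw [e, Real.sin_neg]; ring
  have h3 := Real.mul_le_sin (abs_nonneg φ) h
  have h4 : 1 / 2 ≤ 2 / Real.pi := by
    rw [div_le_div_iff₀ (by norm_num) Real.pi_pos]
    linarith [Real.pi_lt_four]
  have h5 : 1 / 2 * |φ| ≤ Real.sin |φ| := (mul_le_mul_of_nonneg_right h4 (abs_nonneg _)).trans h3
  have h6 : |φ| * (1 / 2 * |φ|) ≤ |φ| * Real.sin |φ| := mul_le_mul_of_nonneg_left h5 (abs_nonneg _)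
  have h7 : |φ| * (1 / 2 * |φ|) = φ ^ 2 / 2 := by rw [← sq_abs φ]; ring
  rw [h2]
  linarith

theorem prof_re {M : ℝ} {z : ℂ} (hM : 2 ≤ M) (hz : 0 < z.re) (h1 : 1 ≤ ‖z‖) :
    ‖z‖ / (2 * (M + Real.log ‖z‖) ^ 2) ≤ (z / (M + Complex.log z)).re := by
  have hz0 : z ≠ 0 := by intro h; rw [h] at hz; simp at hz
  have hn : 0 < ‖z‖ := by linarith
  set L := Real.log ‖z‖ with hL
  set φ := Complex.arg z with hφ
  have hL0 : 0 ≤ L := Real.log_nonneg h1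
  have hφ1 : |φ| < Real.pi / 2 := Complex.abs_arg_lt_pi_div_two_iff.2 (Or.inl hz)
  have r1 : ((M : ℂ) + Complex.log z).re = M + L := by simp [Complex.log_re, hL]
  have r2 : ((M : ℂ) + Complex.log z).im = φ := by simp [Complex.log_im, hφ]
  have r3 : Complex.normSq ((M : ℂ) + Complex.log z) = (M + L) ^ 2 + φ ^ 2 := by
    rw [Complex.normSq_apply, r1, r2]; ring
  have r4 : z.re = ‖z‖ * Real.cos φ := (Complex.norm_mul_cos_arg z).symm
  have r5 : z.im = ‖z‖ * Real.sin φ := (Complex.norm_mul_sin_arg z).symm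
  have hN : 0 < (M + L) ^ 2 + φ ^ 2 := by
    have : 0 < M + L := by linarith
    positivity
  have hval : (z / (M + Complex.log z)).re =
      ‖z‖ * ((M + L) * Real.cos φ + φ * Real.sin φ) / ((M + L) ^ 2 + φ ^ 2) := by
    rw [Complex.div_re, r1, r2, r3]
    rw [r4, r5, Complex.norm_mul_cos_arg, Complex.norm_mul_sin_arg]
    rw [r4, r5]
    ring
  rw [hval]
  have hcos : 0 ≤ Real.cos φ := Real.cos_nonneg_of_mem_Icc ⟨by linarith [(abs_lt.1 hφ1).1], by linarith [(abs_lt.1 hφ1).2]⟩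
  have hnum : 1 ≤ (M + L) * Real.cos φ + φ * Real.sin φ := by
    have := cos_add_mul_sin hφ1.le
    nlinarith
  have hφ2 : φ ^ 2 ≤ (M + L) ^ 2 := by
    rw [← sq_abs φ]
    refine pow_le_pow_left₀ (abs_nonneg _) ?_ 2
    linarith [Real.pi_lt_four]
  calc ‖z‖ / (2 * (M + L) ^ 2) ≤ ‖z‖ / ((M + L) ^ 2 + φ ^ 2) :=
        div_le_div_of_nonneg_left hn.le hN (by linarith)
    _ ≤ ‖z‖ * ((M + L) * Real.cos φ + φ * Real.sin φ) / ((M + L) ^ 2 + φ ^ 2) := by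
        refine div_le_div_of_nonneg_right ?_ hN.le
        nlinarith

theorem prof_ne {M : ℝ} {z : ℂ} (hM : 2 ≤ M) (h1 : 1 / 2 ≤ ‖z‖) : (M : ℂ) + Complex.log z ≠ 0 := by
  intro h
  have h2 := congrArg Complex.re h
  rw [Complex.add_re, Complex.ofReal_re, Complex.log_re, Complex.zero_re] at h2
  have h3 : Real.log (1 / 2) ≤ Real.log ‖z‖ := Real.log_le_log (by norm_num) h1
  rw [one_div, Real.log_inv] at h3
  linarith [Real.log_two_lt_d9]

theorem prof_norm {M : ℝ} {z : ℂ} (hM : 2 ≤ M) (h1 : 1 ≤ ‖z‖) :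
    ‖z / (M + Complex.log z)‖ ≤ ‖z‖ / M := by
  rw [norm_div]
  refine div_le_div_of_nonneg_left (norm_nonneg _) (by linarith) ?_
  have h2 := Complex.re_le_norm ((M : ℂ) + Complex.log z)
  rw [Complex.add_re, Complex.ofReal_re, Complex.log_re] at h2
  linarith [Real.log_nonneg h1]

/-- the profile part of the disc at scale `r` -/
noncomputable def pf (u r M : ℝ) (w : ℂ) : ℂ :=
  r * ((1 - I * (w - u) / r) / (M + Complex.log (1 - I * (w - u) / r)))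

theorem pf_z_re {u r : ℝ} (hr : 0 < r) (w : ℂ) : (1 - I * (w - u) / r).re = 1 + w.im / r := by
  have : 1 - I * (w - u) / r = 1 - ((r⁻¹ : ℝ) : ℂ) * (I * (w - u)) := by
    push_cast
    field_simp
  rw [this, Complex.sub_re, Complex.re_ofReal_mul]
  simp
  ring

theorem pf_z_im {u r : ℝ} (hr : 0 < r) (w : ℂ) : (1 - I * (w - u) / r).im = -((w.re - u) / r) := by
  have : 1 - I * (w - u) / r = 1 - ((r⁻¹ : ℝ) : ℂ) * (I * (w - u)) := by
    push_cast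
    field_simp
  rw [this, Complex.sub_im, Complex.im_ofReal_mul]
  simp
  ring

theorem pf_z_norm_le {u r : ℝ} (hr : 0 < r) (w : ℂ) : r * ‖1 - I * (w - u) / r‖ ≤ r + ‖w - u‖ := by
  have h1 : ‖1 - I * (w - u) / r‖ ≤ 1 + ‖w - u‖ / r := by
    refine (norm_sub_le _ _).trans ?_
    rw [norm_one, norm_div, norm_mul, Complex.norm_I, one_mul, Complex.norm_real,
      Real.norm_eq_abs, abs_of_pos hr]
  calc r * ‖1 - I * (w - u) / r‖ ≤ r * (1 + ‖w - u‖ / r) := mul_le_mul_of_nonneg_left h1 hr.le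
    _ = _ := by field_simp

theorem pf_z_one_le {u r : ℝ} (hr : 0 < r) {w : ℂ} (hw : 0 ≤ w.im) : 1 ≤ ‖1 - I * (w - u) / r‖ := by
  refine le_trans ?_ (Complex.re_le_norm _)
  rw [pf_z_re hr]
  have : 0 ≤ w.im / r := div_nonneg hw hr.le
  linarith

theorem pf_norm {u r M : ℝ} (hr : 0 < r) (hM : 2 ≤ M) {w : ℂ} (hw : 0 ≤ w.im) :
    ‖pf u r M w‖ ≤ (r + ‖w - u‖) / M := by
  rw [pf, norm_mul, Complex.norm_real, Real.norm_eq_abs, abs_of_pos hr]
  have h1 := prof_norm hM (pf_z_one_le (u := u) hr hw)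
  have h2 := mul_le_mul_of_nonneg_left h1 hr.le
  refine h2.trans ?_
  rw [mul_div_assoc']
  exact div_le_div_of_nonneg_right (pf_z_norm_le hr w) (by linarith)

theorem pf_re_nonneg {u r M : ℝ} (hr : 0 < r) (hM : 2 ≤ M) {w : ℂ} (hw : 0 ≤ w.im) :
    0 ≤ (pf u r M w).re := by
  have h0 : 0 < (1 - I * (w - u) / r).re := by
    rw [pf_z_re hr]
    have : 0 ≤ w.im / r := div_nonneg hw hr.le
    linarith
  have h1 := prof_re hM h0 (pf_z_one_le (u := u) hr hw)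
  rw [pf, Complex.re_ofReal_mul]
  refine mul_nonneg hr.le (le_trans ?_ h1)
  positivity

/-- lower bound on the real axis -/
theorem pf_bd {u r M : ℝ} (hr : 0 < r) (hM : 2 ≤ M) (x : ℝ) :
    (r + |x - u|) / (4 * (M + Real.log (1 + |x - u| / r)) ^ 2) ≤ (pf u r M (x : ℂ)).re := by
  have hx0 : (0 : ℝ) ≤ ((x : ℂ)).im := by simp
  set z : ℂ := 1 - I * ((x : ℂ) - u) / r with hz
  have h0 : 0 < z.re := by
    rw [hz, pf_z_re hr]; simp
  have h1n : 1 ≤ ‖z‖ := pf_z_one_le hr hx0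
  have h1 := prof_re hM h0 h1n
  rw [pf, ← hz, Complex.re_ofReal_mul]
  have h2 : ‖z‖ ≤ 1 + |x - u| / r := by
    have h3 := pf_z_norm_le (u := u) hr (x : ℂ)
    rw [← hz, ← Complex.ofReal_sub, Complex.norm_real, Real.norm_eq_abs] at h3
    have : ‖z‖ ≤ (r + |x - u|) / r := by rw [le_div_iff₀ hr]; linarith
    refine this.trans (le_of_eq ?_)
    field_simp
  have h4 : (1 + |x - u| / r) / 2 ≤ ‖z‖ := by
    have e1 := Complex.abs_im_le_norm z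
    rw [hz, pf_z_im hr, Complex.ofReal_re, abs_neg, abs_div, abs_of_pos hr, ← hz] at e1
    linarith
  have hlog : Real.log ‖z‖ ≤ Real.log (1 + |x - u| / r) :=
    Real.log_le_log (by linarith) h2
  have hlog0 : 0 ≤ Real.log ‖z‖ := Real.log_nonneg h1n
  have h5 : (2 * (M + Real.log ‖z‖) ^ 2) ≤ 2 * (M + Real.log (1 + |x - u| / r)) ^ 2 := by
    have : (M + Real.log ‖z‖) ^ 2 ≤ (M + Real.log (1 + |x - u| / r)) ^ 2 :=
      pow_le_pow_left₀ (by linarith) (by linarith) 2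
    linarith
  have h6 : (1 + |x - u| / r) / 2 / (2 * (M + Real.log (1 + |x - u| / r)) ^ 2) ≤
      ‖z‖ / (2 * (M + Real.log ‖z‖) ^ 2) := by
    have hp : 0 < M + Real.log ‖z‖ := by linarith
    exact div_le_div₀ (norm_nonneg _) h4 (by positivity) h5
  have h7 := mul_le_mul_of_nonneg_left (h6.trans h1) hr.le
  refine le_trans (le_of_eq ?_) h7
  field_simp
  ring

theorem pf_diff {u r M : ℝ} (hr : 0 < r) (hM : 2 ≤ M) :
    DifferentiableOn ℂ (pf u r M) {w : ℂ | -(r / 2) < w.im} := by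
  intro w hw
  have hw' : -(r / 2) < w.im := hw
  refine DifferentiableAt.differentiableWithinAt ?_
  unfold pf
  have hz : 1 / 2 < (1 - I * (w - u) / r).re := by
    rw [pf_z_re hr]
    have : -(1 / 2) < w.im / r := by
      rw [lt_div_iff₀ hr]; linarith
    linarith
  have h1 : DifferentiableAt ℂ (fun w : ℂ => 1 - I * (w - u) / r) w := by fun_prop
  have hsl : (1 - I * (w - u) / r) ∈ Complex.slitPlane := by
    left; linarith
  have h2 := h1.clog hsl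
  have h3 : (M : ℂ) + Complex.log (1 - I * (w - u) / r) ≠ 0 :=
    prof_ne hM (hz.le.trans (Complex.re_le_norm _))
  exact (h1.div ((differentiableAt_const _).add h2) h3).const_mul _

/-! ### the final statements -/

/-- **the one-label disc** at the scale `r` over the centre `u` -/
structure Disc1 (A : Set ℝ) (u K ε C ρ M r : ℝ) (Ψ : ℂ → ℂ) (β δ : ℝ) : Prop where
  d0 : 0 < δ
  diff : DifferentiableOn ℂ Ψ {w : ℂ | -δ < w.im}
  pos : ∀ w : ℂ, 0 ≤ w.im → 0 ≤ (Ψ w).re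
  bd : ∀ x : ℝ, |x - u| ≤ ρ → K * infDist x A +
    (r + |x - u|) / (4 * (M + Real.log (1 + |x - u| / r)) ^ 2) ≤ (Ψ x).re
  tgt : ∀ w : ℂ, |w.re - u| ≤ C * r → r / C ≤ w.im → w.im ≤ C * r → ‖Ψ w - β * I‖ ≤ ε * r
  lat : ∀ w : ℂ, 0 ≤ w.im → ‖Ψ w - β * I‖ ≤ (30 * K + 1) * (r + ‖w - u‖)

theorem disc1_of {A : Set ℝ} {u K ε C ρ r δ₀ : ℝ} (hr : 0 < r) (hε : 0 < ε) (hC : 1 ≤ C) {M : ℝ}
    (hM : 2 ≤ M) (hM2 : 3 * C / M ≤ ε / 2) {Ψ : ℂ → ℂ} {β δ : ℝ}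
    (h : GapD A u K (ε / 2) C ρ r Ψ β δ) :
    Disc1 A u K ε C ρ M r (fun w => Ψ w + pf u r M w) β δ := by
  have hpos : ∀ w : ℂ, 0 ≤ w.im → 0 ≤ (Ψ w + pf u r M w).re := fun w hw => by
    rw [Complex.add_re]
    exact add_nonneg (h.pos w hw) (pf_re_nonneg hr hM hw)
  have hnn : ∀ w : ℂ, Ψ w + pf u r M w - β * I = (Ψ w - β * I) + pf u r M w := fun w => by ring
  refine ⟨h.d0, ?_, hpos, ?_, ?_, ?_⟩
  · refine h.diff.add ((pf_diff hr hM).mono fun w hw => ?_)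
    have : -δ < w.im := hw
    have := h.dr
    change -(r / 2) < w.im
    linarith
  · intro x hx
    rw [Complex.add_re]
    exact add_le_add (h.bd x hx) (pf_bd hr hM x)
  · intro w h1 h2 h3
    have hC0 : 0 < C := by linarith
    have hw : 0 ≤ w.im := (div_pos hr hC0).le.trans h2
    rw [hnn]
    refine (norm_add_le _ _).trans ?_
    have e1 := h.tgt w h1 h2 h3
    have e2 := pf_norm (u := u) hr hM hw
    have e3 : ‖w - u‖ ≤ 2 * C * r := by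
      refine (Complex.norm_le_abs_re_add_abs_im _).trans ?_
      rw [Complex.sub_re, Complex.sub_im, Complex.ofReal_re, Complex.ofReal_im, sub_zero,
        abs_of_nonneg hw]
      linarith
    have e4 : (r + ‖w - u‖) / M ≤ 3 * C / M * r := by
      have e5 : r + ‖w - u‖ ≤ 3 * C * r := by nlinarith
      calc (r + ‖w - u‖) / M ≤ 3 * C * r / M := div_le_div_of_nonneg_right e5 (by linarith)
        _ = _ := by ring
    have e6 : 3 * C / M * r ≤ ε / 2 * r := mul_le_mul_of_nonneg_right hM2 hr.le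
    linarith
  · intro w hw
    rw [hnn]
    refine (norm_add_le _ _).trans ?_
    have e1 := h.lat w hw
    have e2 := pf_norm (u := u) hr hM hw
    have e3 : (r + ‖w - u‖) / M ≤ r + ‖w - u‖ := by
      refine div_le_self (by positivity) (by linarith)
    linarith

/-- **DISC1, deterministic**: any closed or not closed `A`, any centre `u` (in `A` or not), every
scale `r` with a small Marcinkiewicz integral `∫_{|x-u|<2ρ} dist(x,A)/((x-u)²+r²) dx ≤ ε₁` -/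
theorem disc1_det {K ε C : ℝ} (hK : 0 ≤ K) (hε : 0 < ε) (hC : 1 ≤ C) :
    ∃ ε₁ > 0, ∃ M ≥ 2, ∀ (A : Set ℝ) (u ρ r : ℝ), 0 < r → r ≤ ρ →
      ∫ x in ball u (2 * ρ), mkr A u r x ≤ ε₁ → ∀ δ₀ > 0, ∃ (Ψ : ℂ → ℂ) (β δ : ℝ), δ ≤ δ₀ ∧
      Disc1 A u K ε C (ρ / 2) M r Ψ β δ := by
  obtain ⟨ε₁, h1, h2⟩ := gap_disc_det hK (half_pos hε) hC
  have hM2 : 3 * C / (max 2 (6 * C / ε)) ≤ ε / 2 := by
    have h3 : 0 < max 2 (6 * C / ε) := lt_of_lt_of_le (by norm_num) (le_max_left _ _)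
    rw [div_le_iff₀ h3]
    have h4 : 6 * C / ε ≤ max 2 (6 * C / ε) := le_max_right _ _
    rw [div_le_iff₀ hε] at h4
    linarith
  refine ⟨ε₁, h1, max 2 (6 * C / ε), le_max_left _ _, fun A u ρ r hr hrρ hs δ₀ hδ₀ => ?_⟩
  obtain ⟨Ψ, β, δ, h4, h5⟩ := h2 A u ρ r hr hrρ hs δ₀ hδ₀
  exact ⟨_, β, δ, h4, disc1_of (δ₀ := δ₀) hr hε hC (le_max_left _ _) hM2 h5⟩

/-- **DISC1 at a Marcinkiewicz point** -/
theorem disc1_pt {A : Set ℝ} {u : ℝ} (hu : u ∈ A)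
    (hm : ∀ n : ℕ, ∫⁻ x in Icc (-(n : ℝ)) n, ENNReal.ofReal (mkk A u x) < ∞)
    {K ε C : ℝ} (hK : 0 ≤ K) (hε : 0 < ε) (hC : 1 ≤ C) :
    ∃ ρ > 0, ρ ≤ 1 ∧ ∃ M ≥ 2, ∀ r : ℝ, 0 < r → r ≤ ρ → ∀ δ₀ > 0, ∃ (Ψ : ℂ → ℂ) (β δ : ℝ),
      δ ≤ δ₀ ∧ Disc1 A u K ε C ρ M r Ψ β δ := by
  obtain ⟨ε₁, h1, M, hM, h2⟩ := disc1_det hK hε hC
  obtain ⟨ρ₁, hρ₁, hρ1, hi, hs⟩ := marc_tail hm h1
  have h2ρ : 2 * (ρ₁ / 2) = ρ₁ := by ring
  refine ⟨ρ₁ / 4, by positivity, by linarith, M, hM, fun r hr hrρ δ₀ hδ₀ => ?_⟩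
  have h3 := mkr_small hu hr hi hs
  obtain ⟨Ψ, β, δ, h4, h5⟩ := h2 A u (ρ₁ / 2) r hr (by linarith) (by rwa [h2ρ]) δ₀ hδ₀
  have : ρ₁ / 2 / 2 = ρ₁ / 4 := by ring
  rw [this] at h5
  exact ⟨Ψ, β, δ, h4, h5⟩

/-- **DISC1**: at almost every point `u` of the closed set `A` -/
theorem disc1 {A : Set ℝ} (hA : IsClosed A) : ∀ᵐ u : ℝ, u ∈ A → ∀ K ≥ 0, ∀ ε > 0, ∀ C ≥ 1,
    ∃ ρ > 0, ρ ≤ 1 ∧ ∃ M ≥ 2, ∀ r : ℝ, 0 < r → r ≤ ρ → ∀ δ₀ > 0, ∃ (Ψ : ℂ → ℂ) (β δ : ℝ),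
      δ ≤ δ₀ ∧ Disc1 A u K ε C ρ M r Ψ β δ := by
  filter_upwards [marc A hA] with u hu huA K hK ε hε C hC
  exact disc1_pt huA (hu huA) hK hε hC

/-- the disc through a target: slope `m`, base point `c` real -/
theorem disc_target {Ψ : ℂ → ℂ} {u : ℝ} {s₁ w₁ : ℂ} (hw : 0 < w₁.im) :
    ∃ c m : ℝ, s₁ = c + m * (w₁ - u) - I * Ψ w₁ ∧ m = (s₁.im + (Ψ w₁).re) / w₁.im := by
  refine ⟨s₁.re - (s₁.im + (Ψ w₁).re) / w₁.im * (w₁.re - u) - (Ψ w₁).im,
    (s₁.im + (Ψ w₁).re) / w₁.im, ?_, rfl⟩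
  apply Complex.ext
  · simp
    ring
  · simp
    field_simp
    ring

end Vale.Agent.P097.H337
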