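import Vale.Agent.P097.H337.DiscE
import Vale.Agent.P097.H315.Marc

/-!
P097, row A5.DISC1: the core form of the one-label disc over 315's slope budget `Marc.Mz` of a
window of depth `r` at an arbitrary label `v` (the label need not lie in `A`).
-/

open MeasureTheory Set Filter Topology Metric Complex
open scoped ENNReal

namespace Vale.Agent.P097.H337

open H315.Marc

theorem mkr_le_Mz {A B : Set ℝ} {v r h η : ℝ} (hr : 0 < r) (hη : 0 ≤ η) (hB : ball v (2 * h) ⊆ B)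
    (hM : Mz A B v r ≤ ENNReal.ofReal η) : ∫ x in ball v (2 * h), mkr A v r x ≤ 2 * η := by
  have hnn : ∀ x, 0 ≤ mkr A v r x := fun x => by
    unfold mkr
    exact div_nonneg infDist_nonneg (by positivity)
  have hle : ∀ x, mkr A v r x ≤ 2 * (infDist x A / (r + |x - v|) ^ 2) := fun x => by
    unfold mkr
    have h1 : 0 < (r + |x - v|) ^ 2 := by positivity
    have h2 : 0 < (x - v) ^ 2 + r ^ 2 := by positivity
    rw [mul_div_assoc', div_le_div_iff₀ h2 h1]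
    have h3 : (r + |x - v|) ^ 2 ≤ 2 * ((x - v) ^ 2 + r ^ 2) := by
      have := sq_abs (x - v)
      nlinarith [sq_nonneg (r - |x - v|)]
    have h4 : 0 ≤ infDist x A := infDist_nonneg
    nlinarith
  have hl : ∫⁻ x in ball v (2 * h), ENNReal.ofReal (mkr A v r x) ≤ ENNReal.ofReal (2 * η) := by
    calc ∫⁻ x in ball v (2 * h), ENNReal.ofReal (mkr A v r x)
        ≤ ∫⁻ x in ball v (2 * h), 2 * ENNReal.ofReal (infDist x A / (r + |x - v|) ^ 2) := by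
          refine lintegral_mono fun x => ?_
          refine (ENNReal.ofReal_le_ofReal (hle x)).trans (le_of_eq ?_)
          rw [ENNReal.ofReal_mul (by norm_num)]
          norm_num
      _ = 2 * ∫⁻ x in ball v (2 * h), ENNReal.ofReal (infDist x A / (r + |x - v|) ^ 2) := by
          rw [lintegral_const_mul']
          norm_num
      _ ≤ 2 * Mz A B v r := by
          unfold Mz
          gcongr
      _ ≤ 2 * ENNReal.ofReal η := by gcongr
      _ = ENNReal.ofReal (2 * η) := by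
          rw [ENNReal.ofReal_mul (by norm_num)]
          norm_num
  rw [integral_eq_lintegral_of_nonneg_ae (Eventually.of_forall hnn)]
  · exact ENNReal.toReal_le_of_le_ofReal (by positivity) hl
  · refine (Continuous.aestronglyMeasurable ?_)
    unfold mkr
    refine (continuous_infDist_pt A).div (by fun_prop) fun x => ?_
    positivity

/-- **the core form of the one-label disc**: any label `v`, any depth `r ≤ h` with small slope
budget -/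
theorem disc_core {K ε C : ℝ} (hK : 0 ≤ K) (hε : 0 < ε) (hC : 1 ≤ C) :
    ∃ η > 0, ∃ M ≥ 2, ∀ (A B : Set ℝ) (v r h : ℝ), 0 < r → r ≤ h → ball v (2 * h) ⊆ B →
      Mz A B v r ≤ ENNReal.ofReal η → ∀ δ₀ > 0, ∃ (Ψ : ℂ → ℂ) (β δ : ℝ), δ ≤ δ₀ ∧
      Disc1 A v K ε C (h / 2) M r Ψ β δ := by
  obtain ⟨ε₁, h1, M, hM, h2⟩ := disc1_det hK hε hC
  refine ⟨ε₁ / 2, half_pos h1, M, hM, fun A B v r h hr hrh hB hz δ₀ hδ₀ => ?_⟩
  refine h2 A v h r hr hrh ?_ δ₀ hδ₀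
  have := mkr_le_Mz hr (half_pos h1).le hB hz
  linarith

/-- one Marcinkiewicz point, `M` not depending on the point -/
theorem disc1_pt_unif {K ε C : ℝ} (hK : 0 ≤ K) (hε : 0 < ε) (hC : 1 ≤ C) :
    ∃ M ≥ 2, ∀ (A : Set ℝ) (u : ℝ), u ∈ A →
      (∀ n : ℕ, ∫⁻ x in Icc (-(n : ℝ)) n, ENNReal.ofReal (mkk A u x) < ∞) →
      ∃ ρ > 0, ρ ≤ 1 ∧ ∀ r : ℝ, 0 < r → r ≤ ρ → ∀ δ₀ > 0, ∃ (Ψ : ℂ → ℂ) (β δ : ℝ),
        δ ≤ δ₀ ∧ Disc1 A u K ε C ρ M r Ψ β δ := by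
  obtain ⟨ε₁, h1, M, hM, h2⟩ := disc1_det hK hε hC
  refine ⟨M, hM, fun A u hu hm => ?_⟩
  obtain ⟨ρ₁, hρ₁, hρ1, hi, hs⟩ := marc_tail hm h1
  have h2ρ : 2 * (ρ₁ / 2) = ρ₁ := by ring
  refine ⟨ρ₁ / 4, by positivity, by linarith, fun r hr hrρ δ₀ hδ₀ => ?_⟩
  have h3 := mkr_small hu hr hi hs
  obtain ⟨Ψ, β, δ, h4, h5⟩ := h2 A u (ρ₁ / 2) r hr (by linarith) (by rwa [h2ρ]) δ₀ hδ₀
  have : ρ₁ / 2 / 2 = ρ₁ / 4 := by ring
  rw [this] at h5
  exact ⟨Ψ, β, δ, h4, h5⟩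

/-- **DISC1, uniform in the label**: `M` depends only on `K, ε, C`, `ρ` on the label -/
theorem disc1_unif {K ε C : ℝ} (hK : 0 ≤ K) (hε : 0 < ε) (hC : 1 ≤ C) :
    ∃ M ≥ 2, ∀ A : Set ℝ, IsClosed A → ∀ᵐ u : ℝ, u ∈ A →
      ∃ ρ > 0, ρ ≤ 1 ∧ ∀ r : ℝ, 0 < r → r ≤ ρ → ∀ δ₀ > 0, ∃ (Ψ : ℂ → ℂ) (β δ : ℝ),
        δ ≤ δ₀ ∧ Disc1 A u K ε C ρ M r Ψ β δ := by
  obtain ⟨M, hM, h⟩ := disc1_pt_unif hK hε hC
  refine ⟨M, hM, fun A hA => ?_⟩
  filter_upwards [marc A hA] with u hu huA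
  exact h A u huA (hu huA)

end Vale.Agent.P097.H337
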