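import Vale.Agent.P097.H337.DiscF

/-!
P097, T-DISC geometry, part 1: interior lower bounds of the real part of the one-label disc.
-/

open MeasureTheory Set Filter Topology Metric Complex

namespace Vale.Agent.P097.H337

/-- lower bound in the interior by a polynomial barrier -/
theorem re_low {f : ℂ → ℂ} {δ x L B : ℝ} (hδ : 0 < δ) (hf : DifferentiableOn ℂ f {w | -δ < w.im})
    (hpos : ∀ w : ℂ, 0 ≤ w.im → 0 ≤ (f w).re) (hL : 0 < L) (hB : 0 ≤ B)
    (hb : ∀ x' : ℝ, |x' - x| ≤ L → B ≤ (f x').re) {w : ℂ} (hw : w.re = x) (h0 : 0 ≤ w.im)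
    (h1 : w.im ≤ L / 4) : 9 / 16 * B ≤ (f w).re := by
  rcases h0.eq_or_lt with h0 | h0
  · have hwx : w = (x : ℂ) := by
      apply Complex.ext
      · simpa using hw
      · simpa using h0.symm
    rw [hwx]
    have := hb x (by simpa using hL.le)
    linarith
  set g : ℂ → ℂ := fun ζ => exp (-(f ζ) + B * (1 + 2 * I * (ζ - x) / L - (ζ - x) ^ 2 / L ^ 2))
    with hg
  set U : Set ℂ := {ζ : ℂ | ‖ζ - x‖ < L ∧ 0 < ζ.im} with hU
  have hUo : IsOpen U := by
    apply IsOpen.inter
    · exact isOpen_lt (by fun_prop : Continuous fun ζ : ℂ => ‖ζ - (x : ℂ)‖) continuous_const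
    · exact isOpen_lt continuous_const Complex.continuous_im
  have hUb : Bornology.IsBounded U := by
    refine (Metric.isBounded_ball (x := (x : ℂ)) (r := L)).subset fun ζ hζ => ?_
    rw [mem_ball, dist_eq_norm]
    exact hζ.1
  have hcl : closure U ⊆ {ζ : ℂ | ‖ζ - x‖ ≤ L ∧ 0 ≤ ζ.im} := by
    apply closure_minimal
    · rintro ζ ⟨a, b⟩
      exact ⟨a.le, b.le⟩
    · apply IsClosed.inter
      · exact isClosed_le (by fun_prop : Continuous fun ζ : ℂ => ‖ζ - (x : ℂ)‖) continuous_const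
      · exact isClosed_le continuous_const Complex.continuous_im
  have hfr : ∀ ζ ∈ frontier U, (‖ζ - x‖ = L ∧ 0 ≤ ζ.im) ∨ (‖ζ - x‖ ≤ L ∧ ζ.im = 0) := by
    intro ζ hζ
    rw [frontier, hUo.interior_eq] at hζ
    obtain ⟨a, b⟩ := hcl hζ.1
    have hn : ¬ (‖ζ - x‖ < L ∧ 0 < ζ.im) := hζ.2
    rcases a.eq_or_lt with a' | a'
    · exact Or.inl ⟨a', b⟩
    · refine Or.inr ⟨a, ?_⟩
      by_contra h
      exact hn ⟨a', lt_of_le_of_ne b (Ne.symm h)⟩
  have hgd : DifferentiableOn ℂ g {w : ℂ | -δ < w.im} := by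
    apply DifferentiableOn.cexp
    apply DifferentiableOn.add hf.neg
    fun_prop
  have hdc : DiffContOnCl ℂ g U := by
    have hs : closure U ⊆ {w : ℂ | -δ < w.im} := fun ζ hζ => by
      have := (hcl hζ).2
      show -δ < ζ.im
      linarith
    exact (hgd.mono hs).diffContOnCl
  have hre : ∀ ζ : ℂ, ‖g ζ‖ = Real.exp (-(f ζ).re + B * (1 - 2 * ζ.im / L -
      ((ζ.re - x) ^ 2 - ζ.im ^ 2) / L ^ 2)) := by
    intro ζ
    rw [hg]
    simp only [Complex.norm_exp]
    congr 1
    rw [Complex.add_re, Complex.neg_re, Complex.re_ofReal_mul]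
    congr 2
    have e1 : (2 * I * (ζ - x) / L : ℂ) = ((L⁻¹ : ℝ) : ℂ) * (2 * (I * (ζ - x))) := by
      push_cast
      field_simp
    have e2 : ((ζ - x) ^ 2 / L ^ 2 : ℂ) = (((L ^ 2)⁻¹ : ℝ) : ℂ) * (ζ - x) ^ 2 := by
      push_cast
      field_simp
    rw [e1, e2, Complex.sub_re, Complex.add_re, Complex.re_ofReal_mul, Complex.re_ofReal_mul]
    simp only [one_re, mul_re, re_ofNat, I_re, sub_re, ofReal_re, zero_mul, I_im, sub_im,
      ofReal_im, sub_zero, one_mul, zero_sub, im_ofNat, mul_im, zero_add, pow_two]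
    field_simp
    ring
  have hle : ∀ ζ ∈ frontier U, ‖g ζ‖ ≤ 1 := by
    intro ζ hζ
    rw [hre, Real.exp_le_one_iff]
    rcases hfr ζ hζ with ⟨a, b⟩ | ⟨a, b⟩
    · have hsq : (ζ.re - x) ^ 2 + ζ.im ^ 2 = L ^ 2 := by
        rw [← a, ← Complex.normSq_eq_norm_sq, Complex.normSq_apply]
        simp
        ring
      have e : 1 - 2 * ζ.im / L - ((ζ.re - x) ^ 2 - ζ.im ^ 2) / L ^ 2 =
          -(2 * (ζ.im / L) * (1 - ζ.im / L)) := by
        have : (ζ.re - x) ^ 2 = L ^ 2 - ζ.im ^ 2 := by linarith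
        rw [this]
        field_simp
        ring
      rw [e]
      have h2 : 0 ≤ ζ.im / L := div_nonneg b hL.le
      have h3 : ζ.im / L ≤ 1 := by
        rw [div_le_one hL]
        nlinarith [sq_nonneg (ζ.re - x)]
      have h4 := hpos ζ b
      have h5 : 0 ≤ B * (2 * (ζ.im / L) * (1 - ζ.im / L)) := by
        apply mul_nonneg hB
        apply mul_nonneg (by positivity)
        linarith
      linarith
    · have hζ' : ζ = ((ζ.re : ℝ) : ℂ) := by
        apply Complex.ext
        · simp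
        · simp [b]
      have h2 : |ζ.re - x| ≤ L := by
        have := Complex.abs_re_le_norm (ζ - x)
        simp only [sub_re, ofReal_re] at this
        linarith
      have h3 := hb ζ.re h2
      rw [← hζ'] at h3
      rw [b]
      have h4 : 0 ≤ B * ((ζ.re - x) ^ 2 / L ^ 2) := by positivity
      have e : B * (1 - 2 * 0 / L - ((ζ.re - x) ^ 2 - 0 ^ 2) / L ^ 2) =
          B - B * ((ζ.re - x) ^ 2 / L ^ 2) := by
        ring
      rw [e]
      linarith
  have hwU : w ∈ U := by
    refine ⟨?_, h0⟩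
    have e : w - x = (w.im : ℂ) * I := by
      apply Complex.ext
      · simp [hw]
      · simp
    rw [e, norm_mul, Complex.norm_I, mul_one, Complex.norm_real, Real.norm_eq_abs, abs_of_pos h0]
    linarith
  have hm := Complex.norm_le_of_forall_mem_frontier_norm_le hUb hdc hle (subset_closure hwU)
  rw [hre, Real.exp_le_one_iff, hw] at hm
  have h2 : 0 ≤ w.im / L := div_nonneg h0.le hL.le
  have h3 : w.im / L ≤ 1 / 4 := by
    rw [div_le_iff₀ hL]
    linarith
  have e : 1 - 2 * w.im / L - ((x - x) ^ 2 - w.im ^ 2) / L ^ 2 = (1 - w.im / L) ^ 2 := by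
    field_simp
    ring
  rw [e] at hm
  have h4 : 9 / 16 ≤ (1 - w.im / L) ^ 2 := by nlinarith
  nlinarith

/-- the profile (of the real part) -/
noncomputable def prf (v r M : ℝ) (w : ℂ) : ℝ :=
  (r + |w.re - v|) / (M + Real.log (1 + |w.re - v| / r)) ^ 2

theorem prf_den {v r M : ℝ} (hr : 0 < r) (hM : 2 ≤ M) (w : ℂ) :
    2 ≤ M + Real.log (1 + |w.re - v| / r) := by
  have : 0 ≤ Real.log (1 + |w.re - v| / r) := Real.log_nonneg (by
    have : 0 ≤ |w.re - v| / r := by positivity
    linarith)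
  linarith

theorem prf_pos {v r M : ℝ} (hr : 0 < r) (hM : 2 ≤ M) (w : ℂ) : 0 < prf v r M w := by
  have := prf_den (v := v) hr hM w
  unfold prf
  positivity

theorem prf_le {v r M : ℝ} (hr : 0 < r) (hM : 2 ≤ M) (w : ℂ) :
    prf v r M w ≤ (r + |w.re - v|) / 4 := by
  have h := prf_den (v := v) hr hM w
  unfold prf
  apply div_le_div_of_nonneg_left (by positivity) (by norm_num)
  nlinarith

theorem infDist_le_add {A : Set ℝ} (v x : ℝ) : infDist x A ≤ |x - v| + infDist v A := by
  have := infDist_le_infDist_add_dist (s := A) (x := x) (y := v)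
  rw [Real.dist_eq] at this
  linarith

theorem Disc1.lowA {A : Set ℝ} {v K ε C ρ M r : ℝ} {Ψ : ℂ → ℂ} {β δ : ℝ}
    (h : Disc1 A v K ε C ρ M r Ψ β δ) (hK : 0 ≤ K) (hr : 0 < r) {w : ℂ}
    (h0 : 0 ≤ w.im) (h1 : 8 * w.im ≤ infDist w.re A)
    (h2 : |w.re - v| + infDist w.re A / 2 ≤ ρ) : 9 / 32 * (K * infDist w.re A) ≤ (Ψ w).re := by
  rcases (infDist_nonneg (x := w.re) (s := A)).eq_or_lt with hd | hd
  · rw [← hd, mul_zero, mul_zero]
    exact h.pos w h0
  have := re_low (x := w.re) (L := infDist w.re A / 2) (B := K * infDist w.re A / 2) h.d0 h.diff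
    h.pos (by positivity) (by positivity) ?_ rfl h0 (by linarith)
  · linarith
  · intro x' hx'
    have h3 : |x' - v| ≤ ρ := by
      have := abs_sub_le x' w.re v
      linarith
    have h4 := h.bd x' h3
    have h5 : infDist w.re A ≤ |x' - w.re| + infDist x' A := by
      have := infDist_le_add (A := A) x' w.re
      rwa [abs_sub_comm] at this
    have h6 : 0 ≤ (r + |x' - v|) / (4 * (M + Real.log (1 + |x' - v| / r)) ^ 2) := by positivity
    have h7 : infDist w.re A / 2 ≤ infDist x' A := by linarith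
    have h8 := mul_le_mul_of_nonneg_left h7 hK
    linarith

theorem Disc1.lowB {A : Set ℝ} {v K ε C ρ M r : ℝ} {Ψ : ℂ → ℂ} {β δ : ℝ}
    (h : Disc1 A v K ε C ρ M r Ψ β δ) (hK : 0 ≤ K) (hr : 0 < r) (hM : 2 ≤ M) {w : ℂ}
    (h0 : 0 ≤ w.im) (h1 : 8 * w.im ≤ r + |w.re - v|)
    (h2 : |w.re - v| + (r + |w.re - v|) / 2 ≤ ρ) : prf v r M w / 24 ≤ (Ψ w).re := by
  have hden := prf_den (v := v) hr hM w
  have hp := prf_pos (v := v) hr hM w
  have := re_low (x := w.re) (L := (r + |w.re - v|) / 2) (B := 2 / 25 * prf v r M w) h.d0 h.diff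
    h.pos (by positivity) (by positivity) ?_ rfl h0 (by linarith)
  · linarith
  · intro x' hx'
    have a1 := abs_sub_le x' w.re v
    have a2 := abs_sub_le w.re x' v
    rw [abs_sub_comm w.re x'] at a2
    have h3 : |x' - v| ≤ ρ := by linarith
    have h4 := h.bd x' h3
    have h5 : 0 ≤ K * infDist x' A := mul_nonneg hK infDist_nonneg
    have h6 : (r + |w.re - v|) / 2 ≤ r + |x' - v| := by linarith
    have h7 : Real.log (1 + |x' - v| / r) ≤ 1 / 2 + Real.log (1 + |w.re - v| / r) := by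
      have b1 : 1 + |x' - v| / r ≤ 3 / 2 * (1 + |w.re - v| / r) := by
        have e1 : 1 + |x' - v| / r = (r + |x' - v|) / r := by field_simp
        have e2 : 3 / 2 * (1 + |w.re - v| / r) = (3 / 2 * (r + |w.re - v|)) / r := by field_simp
        rw [e1, e2]
        apply div_le_div_of_nonneg_right _ hr.le
        linarith
      have b2 : Real.log (1 + |x' - v| / r) ≤ Real.log (3 / 2 * (1 + |w.re - v| / r)) :=
        Real.log_le_log (by positivity) b1
      rw [Real.log_mul (by norm_num) (by positivity)] at b2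
      have b3 : Real.log (3 / 2 : ℝ) ≤ 1 / 2 := by
        have := Real.log_le_sub_one_of_pos (show (0 : ℝ) < 3 / 2 by norm_num)
        linarith
      linarith
    have h8 : 0 ≤ Real.log (1 + |x' - v| / r) := Real.log_nonneg (by
      have : 0 ≤ |x' - v| / r := by positivity
      linarith)
    have h9 : (M + Real.log (1 + |x' - v| / r)) ^ 2 ≤
        25 / 16 * (M + Real.log (1 + |w.re - v| / r)) ^ 2 := by
      have : M + Real.log (1 + |x' - v| / r) ≤ 5 / 4 * (M + Real.log (1 + |w.re - v| / r)) := by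
        have : 0 ≤ Real.log (1 + |w.re - v| / r) := Real.log_nonneg (by
          have : 0 ≤ |w.re - v| / r := by positivity
          linarith)
        linarith
      have h10 := pow_le_pow_left₀ (by linarith : 0 ≤ M + Real.log (1 + |x' - v| / r)) this 2
      refine h10.trans (le_of_eq ?_)
      ring
    have h10 : 2 / 25 * prf v r M w ≤
        (r + |x' - v|) / (4 * (M + Real.log (1 + |x' - v| / r)) ^ 2) := by
      unfold prf
      have hp1 : 0 < (M + Real.log (1 + |w.re - v| / r)) ^ 2 := by positivity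
      have hp2 : 0 < 4 * (M + Real.log (1 + |x' - v| / r)) ^ 2 := by positivity
      rw [mul_div_assoc', div_le_div_iff₀ hp1 hp2]
      have c1 : 2 / 25 * (r + |w.re - v|) * (4 * (M + Real.log (1 + |x' - v| / r)) ^ 2) ≤
          2 / 25 * (r + |w.re - v|) *
            (4 * (25 / 16 * (M + Real.log (1 + |w.re - v| / r)) ^ 2)) := by
        apply mul_le_mul_of_nonneg_left _ (by positivity)
        linarith
      refine c1.trans ?_
      have c2 : (r + |w.re - v|) / 2 * (M + Real.log (1 + |w.re - v| / r)) ^ 2 ≤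
          (r + |x' - v|) * (M + Real.log (1 + |w.re - v| / r)) ^ 2 :=
        mul_le_mul_of_nonneg_right h6 hp1.le
      refine le_trans (le_of_eq ?_) c2
      ring
    linarith

end Vale.Agent.P097.H337
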