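import Vale.Agent.P097.H337.GeoQ

/-!
P097, T-DISC geometry, part 4: the maximum principle on the discs (`geo_major'` of helper91).
-/

set_option linter.all false

open MeasureTheory Set Filter Topology Metric Complex
open scoped ENNReal

namespace Vale.Agent.P097.H337

open Vale.Agent.P097.H85 Vale.Agent.P097.H929 H315.Marc

theorem continuous_prf {v r M : ℝ} (hr : 0 < r) (hM : 2 ≤ M) : Continuous (prf v r M) := by
  unfold prf
  have hl : Continuous fun w : ℂ => Real.log (1 + |w.re - v| / r) := by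
    apply Continuous.log
    · fun_prop
    · intro w
      have : 0 ≤ |w.re - v| / r := by positivity
      linarith
  apply Continuous.div
  · fun_prop
  · exact (continuous_const.add hl).pow 2
  · intro w
    have := prf_den (v := v) hr hM w
    positivity

theorem continuous_phi {v r M ρ : ℝ} {A : Set ℝ} (hr : 0 < r) (hM : 2 ≤ M) :
    Continuous (phi v r M A ρ) := by
  unfold phi
  apply Continuous.add
  · apply (continuous_prf hr hM).add
    fun_prop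
  · exact (continuous_infDist_pt A).comp Complex.continuous_re

theorem phi_pos {v r M ρ : ℝ} {A : Set ℝ} (hr : 0 < r) (hM : 2 ≤ M) (hρ : 0 < ρ) (w : ℂ) :
    0 < phi v r M A ρ w := by
  have h1 := prf_pos (v := v) hr hM w
  have h2 : 0 ≤ (w.re - v) ^ 2 / ρ := by positivity
  have h3 : 0 ≤ infDist w.re A := infDist_nonneg
  unfold phi
  linarith

/-- on the outer circle the height is comparable with `ρ` -/
theorem arc_height {v r M ρ c₁ : ℝ} {A : Set ℝ} (hr : 0 < r) (hM : 2 ≤ M) (hρ : 0 < ρ)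
    (hc : 0 < c₁) {w : ℂ} (hw : ‖w - v‖ = ρ) (h : c₁ * phi v r M A ρ w ≤ w.im) :
    min (c₁ / 2) (1 / 2) * ρ ≤ w.im := by
  by_contra hcon
  push Not at hcon
  have h1 := prf_pos (v := v) hr hM w
  have h3 : 0 ≤ infDist w.re A := infDist_nonneg
  have h4 : c₁ * ((w.re - v) ^ 2 / ρ) ≤ w.im := by
    refine le_trans ?_ h
    apply mul_le_mul_of_nonneg_left _ hc.le
    unfold phi
    linarith
  have hphi := phi_pos (v := v) (A := A) hr hM hρ w
  have h0 : 0 < w.im := lt_of_lt_of_le (mul_pos hc hphi) h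
  have h5 : w.im < c₁ / 2 * ρ := hcon.trans_le (mul_le_mul_of_nonneg_right (min_le_left _ _) hρ.le)
  have h6 : w.im < 1 / 2 * ρ := hcon.trans_le (mul_le_mul_of_nonneg_right (min_le_right _ _) hρ.le)
  have h7 : (w.re - v) ^ 2 / ρ < ρ / 2 := by
    have : c₁ * ((w.re - v) ^ 2 / ρ) < c₁ * (ρ / 2) := by
      have e : c₁ * (ρ / 2) = c₁ / 2 * ρ := by ring
      rw [e]
      linarith
    exact lt_of_mul_lt_mul_left this hc.le
  rw [div_lt_iff₀ hρ] at h7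
  have h8 := sq_add_sq_sub (w := w) (v := v)
  rw [hw] at h8
  nlinarith

/-- **maximum principle on the disc** -/
theorem GD.major {Mk : Set (ℂ × ℂ)} {Ψ : ℂ → ℂ} {A : Set ℝ} {v x₁ r ρ M c₁ K' C' μ' : ℝ}
    {T : ℂ → ℂ} (G : GD Mk Ψ A v x₁ r ρ M c₁ K' C' μ' T) (hMo : IsOpen Mk) (hr : 0 < r)
    (hρ : 0 < ρ) (hrr : r ≤ ρ) (hM : 2 ≤ M) (hc : 0 < c₁) (hC' : 0 ≤ C') {w₁ : ℂ}
    (hw1 : ‖w₁ - v‖ < ρ) (hw2 : c₁ * phi v r M A ρ w₁ < w₁.im) {f : ℂ × ℂ → ℂ} {h : ℂ → ℂ}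
    (hf : DifferentiableOn ℂ f (Mk ∩ {z | ‖z.2 - v‖ < 2 * ρ}))
    (hh : DifferentiableOn ℂ h {w | 0 < w.im})
    (hlat : ∀ t w : ℂ, ‖w - v‖ ≤ ρ → w.im = c₁ * phi v r M A ρ w →
      K' * (w.im + infDist w.re A) ≤ (Ψ w - t).im → (Ψ w - t).im ≤ C' * (r + ‖w - v‖) →
      |(t - Ψ w).re - x₁| ≤ C' * (r + ‖w - v‖) → ‖f (t, w)‖ ≤ Real.exp (h w).re)
    (harc : ∀ t w : ℂ, ‖w - v‖ = ρ → min (c₁ / 2) (1 / 2) * ρ ≤ w.im →
      |(t - Ψ w).re - x₁| ≤ C' * (2 * ρ) → -(C' * (2 * ρ)) ≤ (t - Ψ w).im →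
      (t - Ψ w).im ≤ μ' * w.im → ‖f (t, w)‖ ≤ Real.exp (h w).re) :
    ‖f (T w₁, w₁)‖ ≤ Real.exp (h w₁).re := by
  have hφ := continuous_phi (v := v) (A := A) (ρ := ρ) hr hM
  set V : Set ℂ := {w : ℂ | ‖w - v‖ < ρ ∧ c₁ * phi v r M A ρ w < w.im} with hV
  have hn : Continuous fun w : ℂ => ‖w - v‖ := by fun_prop
  have hcφ : Continuous fun w : ℂ => c₁ * phi v r M A ρ w := continuous_const.mul hφ
  have hVo : IsOpen V := (isOpen_lt hn continuous_const).inter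
    (isOpen_lt hcφ Complex.continuous_im)
  have hVb : Bornology.IsBounded V := by
    refine (Metric.isBounded_ball (x := (v : ℂ)) (r := ρ)).subset fun ζ hζ => ?_
    rw [mem_ball, dist_eq_norm]
    exact hζ.1
  have hcl : closure V ⊆ {w : ℂ | ‖w - v‖ ≤ ρ ∧ c₁ * phi v r M A ρ w ≤ w.im} := by
    apply closure_minimal
    · rintro ζ ⟨a, b⟩
      exact ⟨a.le, b.le⟩
    · exact (isClosed_le hn continuous_const).inter (isClosed_le hcφ Complex.continuous_im)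
  have him : ∀ w ∈ closure V, 0 < w.im := fun w hw =>
    lt_of_lt_of_le (mul_pos hc (phi_pos hr hM hρ w)) (hcl hw).2
  have hfr : ∀ w ∈ frontier V, ‖w - v‖ = ρ ∨ w.im = c₁ * phi v r M A ρ w := by
    intro w hw
    rw [frontier, hVo.interior_eq] at hw
    obtain ⟨a, b⟩ := hcl hw.1
    have hnV : ¬ (‖w - v‖ < ρ ∧ c₁ * phi v r M A ρ w < w.im) := hw.2
    rcases a.eq_or_lt with a' | a'
    · exact Or.inl a'
    · refine Or.inr ?_
      by_contra hne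
      exact hnV ⟨a', lt_of_le_of_ne b (Ne.symm hne)⟩
  have hUo : IsOpen (Mk ∩ {z : ℂ × ℂ | ‖z.2 - v‖ < 2 * ρ}) :=
    hMo.inter (isOpen_lt (by fun_prop : Continuous fun z : ℂ × ℂ => ‖z.2 - v‖) continuous_const)
  set g : ℂ → ℂ := fun w => f (T w, w) * exp (-h w) with hg
  have hgd : ∀ w ∈ closure V, DifferentiableAt ℂ g w := by
    intro w hw
    have h0 := him w hw
    have h1 := (hcl hw).1
    have hT := G.dT w h1 h0
    have hfm : DifferentiableAt ℂ f (T w, w) := by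
      refine hf.differentiableAt (hUo.mem_nhds ⟨G.mem w h1 h0, ?_⟩)
      show ‖w - v‖ < 2 * ρ
      linarith
    have h2 : DifferentiableAt ℂ (fun w => f (T w, w)) w :=
      DifferentiableAt.comp (g := f) (f := fun w : ℂ => (T w, w)) w hfm
        (hT.prodMk differentiableAt_id)
    have ho : IsOpen {w : ℂ | 0 < w.im} := isOpen_lt continuous_const Complex.continuous_im
    have h3 : DifferentiableAt ℂ h w := hh.differentiableAt (ho.mem_nhds h0)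
    exact h2.mul (h3.neg.cexp)
  have hdc : DiffContOnCl ℂ g V :=
    ⟨fun w hw => (hgd w (subset_closure hw)).differentiableWithinAt,
      fun w hw => (hgd w hw).continuousAt.continuousWithinAt⟩
  have hgn : ∀ w, ‖f (T w, w)‖ ≤ Real.exp (h w).re → ‖g w‖ ≤ 1 := by
    intro w hw
    rw [hg]
    simp only [norm_mul, Complex.norm_exp, Complex.neg_re]
    have h1 := mul_le_mul_of_nonneg_right hw (Real.exp_pos (-(h w).re)).le
    rw [← Real.exp_add] at h1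
    simpa using h1
  have hle : ∀ w ∈ frontier V, ‖g w‖ ≤ 1 := by
    intro w hw
    have hwc := frontier_subset_closure hw
    have h0 := him w hwc
    obtain ⟨h1, h2⟩ := hcl hwc
    apply hgn
    rcases hfr w hw with h3 | h3
    · apply harc (T w) w h3 (arc_height hr hM hρ hc h3 h2)
      · refine (G.re w h1 h0).trans ?_
        apply mul_le_mul_of_nonneg_left _ hC'
        linarith
      · have h4 := G.im w h1 h0
        have h5 : C' * (r + ‖w - v‖) ≤ C' * (2 * ρ) := by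
          apply mul_le_mul_of_nonneg_left _ hC'
          linarith
        have e : (T w - Ψ w).im = -(Ψ w - T w).im := by simp
        rw [e]
        linarith
      · exact G.up w h1 h0
    · have hp := phi_pos (v := v) (A := A) hr hM hρ w
      apply hlat (T w) w h1 h3
      · apply G.lat w h1 h0
        have := mul_pos hc hp
        linarith
      · exact G.im w h1 h0
      · exact G.re w h1 h0
  have hw1V : w₁ ∈ V := ⟨hw1, hw2⟩
  have hm := Complex.norm_le_of_forall_mem_frontier_norm_le hVb hdc hle (subset_closure hw1V)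
  rw [hg] at hm
  simp only [norm_mul, Complex.norm_exp, Complex.neg_re] at hm
  have h1 := mul_le_mul_of_nonneg_right hm (Real.exp_pos (h w₁).re).le
  rw [mul_assoc, ← Real.exp_add] at h1
  simpa using h1

/-- **`geo_major'`**: free outer scale `ρ`, arbitrary real centre `v`, lateral boundary in the
cones over `A` -/
theorem geo_major' {Mk : Set (ℂ × ℂ)} {b m : ℝ} {Ψ : ℂ → ℂ} {A : Set ℝ} {P : ℝ → ℂ} {c k : ℝ → ℝ}
    (hM : RH b Mk) (hU : CmpU Mk b m Ψ A P c k) (hbm : b < m) {y₀ u₀ s' s₁ : ℝ} (hu0 : u₀ ∈ A)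
    (hR : RegB Mk b A P c y₀ u₀ s') (hs : s₁ < s') {X K' : ℝ} (hX : 1 ≤ X) (hK : 1 ≤ K') :
    ∃ η > 0, ∃ M ≥ 2, ∃ c₁ > 0, ∃ c₂ > 0, ∃ C' ≥ 1, ∃ τ > 0, τ ≤ 1 ∧ ∃ s₂ < s', ∃ ρ₁ > 0, ∃ d > 0,
      ∀ (B : Set ℝ) (v x₁ ρ r : ℝ), |v - u₀| < d → |x₁ - (y₀ - (P u₀).re)| < d →
      0 < ρ → ρ ≤ ρ₁ → 0 < r → r ≤ τ * ρ → infDist v A ≤ r → ball v (8 * ρ) ⊆ B →
      Mz A B v r ≤ ENNReal.ofReal η → ∀ t₁ w₁ : ℂ, ‖w₁ - v‖ ≤ X * r → r / X ≤ w₁.im →
      |(t₁ - Ψ w₁).re - x₁| ≤ X * r → -(X * r) ≤ (t₁ - Ψ w₁).im →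
      (t₁ - Ψ w₁).im ≤ (s₁ - k u₀) * w₁.im →
      (t₁, w₁) ∈ Mk ∧ ∀ (f : ℂ × ℂ → ℂ) (h : ℂ → ℂ),
        DifferentiableOn ℂ f (Mk ∩ {z | ‖z.2 - v‖ < 2 * ρ}) → DifferentiableOn ℂ h {w | 0 < w.im} →
        (∀ t w : ℂ, ‖w - v‖ ≤ ρ → w.im = c₁ * phi v r M A ρ w →
          K' * (w.im + infDist w.re A) ≤ (Ψ w - t).im → (Ψ w - t).im ≤ C' * (r + ‖w - v‖) →
          |(t - Ψ w).re - x₁| ≤ C' * (r + ‖w - v‖) → ‖f (t, w)‖ ≤ Real.exp (h w).re) →
        (∀ t w : ℂ, ‖w - v‖ = ρ → c₂ * ρ ≤ w.im →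
          |(t - Ψ w).re - x₁| ≤ C' * (2 * ρ) → -(C' * (2 * ρ)) ≤ (t - Ψ w).im →
          (t - Ψ w).im ≤ (s₂ - k u₀) * w.im → ‖f (t, w)‖ ≤ Real.exp (h w).re) →
        ‖f (t₁, w₁)‖ ≤ Real.exp (h w₁).re := by
  obtain ⟨η, hη, M, hM2, c₁, hc₁, C', hC', τ, hτ, hτ1, s₂, hs₂, ρ₁, hρ₁, d, hd, H⟩ :=
    geo_disc hM hU hbm hu0 hR hs hX hK
  refine ⟨η, hη, M, hM2, c₁, hc₁, min (c₁ / 2) (1 / 2), by positivity, C', hC', τ, hτ, hτ1, s₂, hs₂,
    ρ₁, hρ₁, d, hd, ?_⟩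
  intro B v x₁ ρ r hv hx hρ hρρ hr hrρ hvA hB hMz t₁ w₁ hw1 hw2 hs1 hs2 hs3
  obtain ⟨T, G, hT, h1, h2⟩ := H B v x₁ ρ r hv hx hρ hρρ hr hrρ hvA hB hMz t₁ w₁ hw1 hw2 hs1 hs2 hs3
  have h0 : 0 < w₁.im := lt_trans (mul_pos hc₁ (phi_pos hr hM2 hρ w₁)) h2
  have hrr : r ≤ ρ := by
    have := mul_le_mul_of_nonneg_right hτ1 hρ.le
    linarith
  refine ⟨?_, fun f h hf hh hlat harc => ?_⟩
  · have := G.mem w₁ h1.le h0
    rwa [hT] at this
  · have := G.major hM.dn.op hr hρ hrr hM2 hc₁ (by linarith) h1 h2 hf hh hlat harc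
    rwa [hT] at this

end Vale.Agent.P097.H337
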