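import Vale.Agent.P097.H337.GeoL
import Vale.Agent.P097.H560.Full

/-!
P097, T-DISC geometry, part 2: the discs through all targets of the wide cone at the scale `r`
over an arbitrary real label `v` with small slope budget, outer scale `ρ`, lateral boundary in the
two-sided cones over `A`.
-/

set_option linter.all false

open MeasureTheory Set Filter Topology Metric Complex
open scoped ENNReal

namespace Vale.Agent.P097.H337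

open Vale.Agent.P097.H85 Vale.Agent.P097.H929 H315.Marc

/-- height function of the lateral boundary -/
noncomputable def phi (v r M : ℝ) (A : Set ℝ) (ρ : ℝ) (w : ℂ) : ℝ :=
  prf v r M w + (w.re - v) ^ 2 / ρ + infDist w.re A

/-- straight coordinate of the disc -/
noncomputable def Sd (a m' κ v : ℝ) (Ψ₁ : ℂ → ℂ) (w : ℂ) : ℂ :=
  a + m' * (w - v) - I * (Ψ₁ w + κ * (w - v) ^ 2)

theorem Sd_re (a m' κ v : ℝ) (Ψ₁ : ℂ → ℂ) (w : ℂ) : (Sd a m' κ v Ψ₁ w).re =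
    a + m' * (w.re - v) + (Ψ₁ w).im + κ * (2 * (w.re - v) * w.im) := by
  simp only [Sd, pow_two, sub_re, add_re, ofReal_re, mul_re, ofReal_im, sub_im, I_re, I_im,
    add_im, mul_im]
  ring

theorem Sd_im (a m' κ v : ℝ) (Ψ₁ : ℂ → ℂ) (w : ℂ) : (Sd a m' κ v Ψ₁ w).im =
    m' * w.im - (Ψ₁ w).re - κ * ((w.re - v) ^ 2 - w.im ^ 2) := by
  simp only [Sd, pow_two, sub_re, add_re, ofReal_re, mul_re, ofReal_im, sub_im, I_re, I_im,
    add_im, mul_im]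
  ring

/-- the numerical inequality behind the lateral boundary -/
theorem lat_num {U η D p X2 K' K₀ mb κ₀ c₁ : ℝ} (hη : 0 ≤ η) (hD : 0 ≤ D) (hp : 0 ≤ p)
    (hX2 : 0 ≤ X2) (hK' : 1 ≤ K') (hmb : 0 ≤ mb) (hκ : 0 ≤ κ₀) (hκ1 : κ₀ ≤ 1) (hc : 0 < c₁)
    (h1 : 4 * c₁ * (9 * K' + mb + 1) ≤ 1 / 48) (h2 : 4 * c₁ * (9 * K' + mb + 1) ≤ κ₀ / 2)
    (hK₀ : 8 * (K' + 1) ≤ K₀) (hup : η ≤ 2 * c₁ * (p + X2 + D))
    (hA : 8 * η ≤ D → 9 / 32 * (K₀ * D) ≤ U) (hB : p / 24 ≤ U) :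
    K' * (η + D) + mb * η + κ₀ * η ≤ U + κ₀ * X2 := by
  set Q : ℝ := 4 * c₁ * (9 * K' + mb + 1) with hQ
  have hc1 : 40 * c₁ ≤ Q := by rw [hQ]; nlinarith
  rcases le_or_gt (8 * η) D with h | h
  · have hA' := hA h
    have e1 : (K' + mb + κ₀) * η ≤ (9 * K' + mb + 1) * η := by
      apply mul_le_mul_of_nonneg_right _ hη
      linarith
    have e2 : (9 * K' + mb + 1) * η ≤ (9 * K' + mb + 1) * (2 * c₁ * (p + X2 + D)) :=
      mul_le_mul_of_nonneg_left hup (by linarith)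
    have e3 : (9 * K' + mb + 1) * (2 * c₁ * (p + X2 + D)) = Q / 2 * p + Q / 2 * X2 + Q / 2 * D := by
      rw [hQ]; ring
    have e4 : Q / 2 * p ≤ 1 / 96 * p := mul_le_mul_of_nonneg_right (by linarith) hp
    have e5 : Q / 2 * X2 ≤ κ₀ / 4 * X2 := mul_le_mul_of_nonneg_right (by linarith) hX2
    have e6 : Q / 2 * D ≤ 1 / 96 * D := mul_le_mul_of_nonneg_right (by linarith) hD
    have e7 : 8 * (K' + 1) * D ≤ K₀ * D := mul_le_mul_of_nonneg_right hK₀ hD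
    have e8 : 0 ≤ κ₀ * X2 := mul_nonneg hκ hX2
    have e9 : 0 ≤ K' * D := mul_nonneg (by linarith) hD
    nlinarith
  · have d1 : D ≤ 16 * c₁ * (p + X2) + 16 * c₁ * D := by nlinarith
    have hc2 : 16 * c₁ ≤ 1 / 2 := by linarith
    have d2 : 16 * c₁ * D ≤ 1 / 2 * D := mul_le_mul_of_nonneg_right hc2 hD
    have d3 : 16 * c₁ * (p + X2) ≤ 1 / 2 * (p + X2) :=
      mul_le_mul_of_nonneg_right hc2 (by linarith)
    have d4 : D ≤ p + X2 := by linarith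
    have d5 : η ≤ 4 * c₁ * (p + X2) := by nlinarith
    have e1 : K' * (η + D) + mb * η + κ₀ * η ≤ (9 * K' + mb + 1) * η := by
      have : K' * D ≤ K' * (8 * η) := mul_le_mul_of_nonneg_left h.le (by linarith)
      nlinarith
    have e2 : (9 * K' + mb + 1) * η ≤ (9 * K' + mb + 1) * (4 * c₁ * (p + X2)) :=
      mul_le_mul_of_nonneg_left d5 (by linarith)
    have e3 : (9 * K' + mb + 1) * (4 * c₁ * (p + X2)) = Q * p + Q * X2 := by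
      rw [hQ]; ring
    have e4 : Q * p ≤ 1 / 48 * p := mul_le_mul_of_nonneg_right h1 hp
    have e5 : Q * X2 ≤ κ₀ / 2 * X2 := mul_le_mul_of_nonneg_right h2 hX2
    have e8 : 0 ≤ κ₀ * X2 := mul_nonneg hκ hX2
    linarith

/-- **the disc**: outer scale `ρ`, scale `r`, centre `v` -/
structure GD (Mk : Set (ℂ × ℂ)) (Ψ : ℂ → ℂ) (A : Set ℝ) (v x₁ r ρ M c₁ K' C' μ' : ℝ) (T : ℂ → ℂ) :
    Prop where
  dT : ∀ w : ℂ, ‖w - v‖ ≤ ρ → 0 < w.im → DifferentiableAt ℂ T w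
  mem : ∀ w : ℂ, ‖w - v‖ ≤ ρ → 0 < w.im → (T w, w) ∈ Mk
  re : ∀ w : ℂ, ‖w - v‖ ≤ ρ → 0 < w.im → |(T w - Ψ w).re - x₁| ≤ C' * (r + ‖w - v‖)
  im : ∀ w : ℂ, ‖w - v‖ ≤ ρ → 0 < w.im → (Ψ w - T w).im ≤ C' * (r + ‖w - v‖)
  up : ∀ w : ℂ, ‖w - v‖ ≤ ρ → 0 < w.im → (T w - Ψ w).im ≤ μ' * w.im
  lat : ∀ w : ℂ, ‖w - v‖ ≤ ρ → 0 < w.im → w.im ≤ 2 * c₁ * phi v r M A ρ w →
    K' * (w.im + infDist w.re A) ≤ (Ψ w - T w).im

theorem re_le_norm_sub {w : ℂ} {v : ℝ} : |w.re - v| ≤ ‖w - v‖ := by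
  have := Complex.abs_re_le_norm (w - v)
  simpa only [sub_re, ofReal_re] using this

theorem im_le_norm_sub {w : ℂ} {v : ℝ} : w.im ≤ ‖w - v‖ := by
  have := Complex.abs_im_le_norm (w - v)
  simp only [sub_im, ofReal_im, sub_zero] at this
  exact (le_abs_self _).trans this

theorem sq_add_sq_sub {w : ℂ} {v : ℝ} : (w.re - v) ^ 2 + w.im ^ 2 = ‖w - v‖ ^ 2 := by
  rw [← Complex.normSq_eq_norm_sq, Complex.normSq_apply]
  simp
  ring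

/-- the slope and the base point of the disc through the target -/
theorem disc_solve {Ψ₁ : ℂ → ℂ} {v X r ε γ μ κ κ₀ τ : ℝ} (hr : 0 < r) (hX : 1 ≤ X)
    (hκ0 : 0 < κ) (hκ : 0 < κ₀) (hκ1 : κ₀ ≤ 1) (hκr : κ * r ≤ κ₀ * τ) (hτ0 : 0 < τ)
    (hε0 : 0 ≤ ε) (hε : ε * X ≤ γ / 4) (hτ : κ₀ * X ^ 3 * τ ≤ γ / 4) (hτ1 : X * τ ≤ 1)
    (hγ : 0 < γ) {σ₁ w₁ : ℂ}
    (hw1 : ‖w₁ - v‖ ≤ X * r) (hw2 : r / X ≤ w₁.im) (ht1 : |(Ψ₁ w₁).re| ≤ ε * r)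
    (hpos1 : 0 ≤ (Ψ₁ w₁).re)
    (hs2 : -(X * r) ≤ σ₁.im) (hs3 : σ₁.im ≤ (μ - γ) * w₁.im) :
    ∃ a m' : ℝ, Sd a m' κ v Ψ₁ w₁ = σ₁ ∧ |m'| ≤ |μ| + X ^ 2 + 1 ∧ m' ≤ μ - γ / 2 ∧
      a = σ₁.re - m' * (w₁.re - v) - (Ψ₁ w₁).im - κ * (2 * (w₁.re - v) * w₁.im) := by
  have hX0 : 0 < X := by linarith
  have hw0 : 0 < w₁.im := (div_pos hr hX0).trans_le hw2
  have hrX : r ≤ X * w₁.im := by
    rw [div_le_iff₀ hX0] at hw2
    linarith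
  have hreX : |w₁.re - v| ≤ X * r := re_le_norm_sub.trans hw1
  have himX : w₁.im ≤ X * r := im_le_norm_sub.trans hw1
  obtain ⟨m', hm'⟩ : ∃ m' : ℝ, m' = (σ₁.im + (Ψ₁ w₁).re +
    κ * ((w₁.re - v) ^ 2 - w₁.im ^ 2)) / w₁.im := ⟨_, rfl⟩
  have hm'e : m' * w₁.im = σ₁.im + (Ψ₁ w₁).re + κ * ((w₁.re - v) ^ 2 - w₁.im ^ 2) := by
    rw [hm']; field_simp
  have hm'1 : m' ≤ μ - γ / 2 := by
    rw [hm', div_le_iff₀ hw0]
    have b1 : (Ψ₁ w₁).re ≤ γ / 4 * w₁.im := by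
      have := le_abs_self (Ψ₁ w₁).re
      have b2 : ε * r ≤ ε * (X * w₁.im) := mul_le_mul_of_nonneg_left hrX hε0
      have b3 : ε * X * w₁.im ≤ γ / 4 * w₁.im := mul_le_mul_of_nonneg_right hε hw0.le
      linarith
    have b2 : κ * ((w₁.re - v) ^ 2 - w₁.im ^ 2) ≤ γ / 4 * w₁.im := by
      have c1 : (w₁.re - v) ^ 2 ≤ (X * r) ^ 2 := by
        rw [← sq_abs]
        exact pow_le_pow_left₀ (abs_nonneg _) hreX 2
      have c2 : κ * ((w₁.re - v) ^ 2 - w₁.im ^ 2) ≤ κ * (X * r) ^ 2 := by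
        apply mul_le_mul_of_nonneg_left _ hκ0.le
        have := sq_nonneg w₁.im
        linarith
      have c3 : κ * (X * r) ^ 2 = (κ * r) * (X ^ 2 * r) := by ring
      have c4 : (κ * r) * (X ^ 2 * r) ≤ (κ₀ * τ) * (X ^ 2 * (X * w₁.im)) := by
        apply mul_le_mul hκr _ (by positivity) (by positivity)
        exact mul_le_mul_of_nonneg_left hrX (by positivity)
      have c5 : (κ₀ * τ) * (X ^ 2 * (X * w₁.im)) = κ₀ * X ^ 3 * τ * w₁.im := by ring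
      have c6 : κ₀ * X ^ 3 * τ * w₁.im ≤ γ / 4 * w₁.im := mul_le_mul_of_nonneg_right hτ hw0.le
      linarith
    linarith
  have hm'2 : -(X ^ 2 + 1) ≤ m' := by
    rw [hm', le_div_iff₀ hw0]
    have b1 : X * r ≤ X * (X * w₁.im) := mul_le_mul_of_nonneg_left hrX hX0.le
    have b2 : κ * w₁.im ^ 2 ≤ w₁.im := by
      have c1 : κ * w₁.im ^ 2 = (κ * w₁.im) * w₁.im := by ring
      rw [c1]
      have c2 : κ * w₁.im ≤ 1 := by
        have d1 : κ * w₁.im ≤ κ * (X * r) := mul_le_mul_of_nonneg_left himX hκ0.le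
        have d2 : κ * (X * r) = X * (κ * r) := by ring
        have d3 : X * (κ * r) ≤ X * (κ₀ * τ) := mul_le_mul_of_nonneg_left hκr hX0.le
        have d4 : X * (κ₀ * τ) = κ₀ * (X * τ) := by ring
        have d5 : κ₀ * (X * τ) ≤ 1 * 1 := mul_le_mul hκ1 hτ1 (by positivity) (by norm_num)
        linarith
      have := mul_le_mul_of_nonneg_right c2 hw0.le
      linarith
    have b3 : 0 ≤ κ * (w₁.re - v) ^ 2 := by positivity
    have e1 : -(X ^ 2 + 1) * w₁.im = -(X * (X * w₁.im)) - w₁.im := by ring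
    have e2 : κ * ((w₁.re - v) ^ 2 - w₁.im ^ 2) = κ * (w₁.re - v) ^ 2 - κ * w₁.im ^ 2 := by ring
    rw [e1, e2]
    linarith
  refine ⟨σ₁.re - m' * (w₁.re - v) - (Ψ₁ w₁).im - κ * (2 * (w₁.re - v) * w₁.im), m', ?_, ?_,
    hm'1, rfl⟩
  · apply Complex.ext
    · rw [Sd_re]; ring
    · rw [Sd_im, hm'e]; ring
  · rw [abs_le]
    have := le_abs_self μ
    have := neg_abs_le μ
    have := abs_nonneg μ
    have := sq_nonneg X
    constructor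
    · linarith
    · linarith

theorem kap_sq {κ κ₀ ρ x : ℝ} (hκ0 : 0 < κ) (hκ1 : κ₀ ≤ 1) (hκρ : κ * ρ = κ₀) (hx : 0 ≤ x)
    (hxρ : x ≤ ρ) {y : ℝ} (hy : y ≤ x ^ 2) : κ * y ≤ x := by
  have c2 : κ * y ≤ κ * (x * ρ) := by
    apply mul_le_mul_of_nonneg_left _ hκ0.le
    have := mul_le_mul_of_nonneg_left hxρ hx
    nlinarith
  have c3 : κ * (x * ρ) = κ₀ * x := by rw [← hκρ]; ring
  have := mul_le_mul_of_nonneg_right hκ1 hx
  linarith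

theorem two_mul_abs_le {a b n : ℝ} (h : a ^ 2 + b ^ 2 = n ^ 2) : |2 * a * b| ≤ n ^ 2 := by
  rw [abs_le]
  constructor <;> nlinarith [sq_nonneg (a + b), sq_nonneg (a - b)]

theorem sd_re_bd {A : Set ℝ} {v K₀ ε X ρ M r β δ : ℝ} {Ψ₁ : ℂ → ℂ}
    (h : Disc1 A v K₀ ε X (2 * ρ) M r Ψ₁ β δ) (hr : 0 < r) (hX : 1 ≤ X) (hK₀ : 0 ≤ K₀)
    (hε1 : ε ≤ 1) {κ κ₀ mb : ℝ} (hκ0 : 0 < κ) (hκ1 : κ₀ ≤ 1) (hκρ : κ * ρ = κ₀)
    (hmb : 0 ≤ mb) (hrr : r ≤ ρ) (hXr : X * r ≤ ρ) {σ₁ w₁ : ℂ} {x₁ : ℝ}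
    (hw1 : ‖w₁ - v‖ ≤ X * r) (hw2 : r / X ≤ w₁.im) (hs1 : |σ₁.re - x₁| ≤ X * r) {a m' : ℝ}
    (hm : |m'| ≤ mb)
    (ha : a = σ₁.re - m' * (w₁.re - v) - (Ψ₁ w₁).im - κ * (2 * (w₁.re - v) * w₁.im)) {w : ℂ}
    (hw : ‖w - v‖ ≤ ρ) (hw0 : 0 < w.im) :
    |(Sd a m' κ v Ψ₁ w).re - x₁| ≤
      (2 * X + mb * (X + 1) + (30 * K₀ + 1) + 2) * (r + ‖w - v‖) := by
  have hX0 : 0 < X := by linarith
  have hreX : |w₁.re - v| ≤ X * r := re_le_norm_sub.trans hw1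
  have himX : w₁.im ≤ X * r := im_le_norm_sub.trans hw1
  have htgt := h.tgt w₁ hreX hw2 himX
  have n0 := norm_nonneg (w - v)
  rw [Sd_re, ha]
  have e : σ₁.re - m' * (w₁.re - v) - (Ψ₁ w₁).im - κ * (2 * (w₁.re - v) * w₁.im) +
      m' * (w.re - v) + (Ψ₁ w).im + κ * (2 * (w.re - v) * w.im) - x₁ =
      (σ₁.re - x₁) + m' * (w.re - v) - m' * (w₁.re - v) + ((Ψ₁ w).im - β) - ((Ψ₁ w₁).im - β) +
      κ * (2 * (w.re - v) * w.im) - κ * (2 * (w₁.re - v) * w₁.im) := by ring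
  rw [e]
  have b1 : |m' * (w.re - v)| ≤ mb * ‖w - v‖ := by
    rw [abs_mul]; exact mul_le_mul hm re_le_norm_sub (abs_nonneg _) hmb
  have b2 : |m' * (w₁.re - v)| ≤ mb * (X * r) := by
    rw [abs_mul]; exact mul_le_mul hm hreX (abs_nonneg _) hmb
  have b3 : |(Ψ₁ w).im - β| ≤ (30 * K₀ + 1) * (r + ‖w - v‖) := by
    have := (Complex.abs_im_le_norm (Ψ₁ w - β * I)).trans (h.lat w hw0.le)
    simpa using this
  have b4 : |(Ψ₁ w₁).im - β| ≤ r := by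
    have := (Complex.abs_im_le_norm (Ψ₁ w₁ - β * I)).trans htgt
    have h2 : |(Ψ₁ w₁).im - β| ≤ ε * r := by simpa using this
    have := mul_le_mul_of_nonneg_right hε1 hr.le
    linarith
  have b5 : |κ * (2 * (w.re - v) * w.im)| ≤ ‖w - v‖ := by
    rw [abs_mul, abs_of_pos hκ0]
    exact kap_sq hκ0 hκ1 hκρ n0 hw (two_mul_abs_le sq_add_sq_sub)
  have b6 : |κ * (2 * (w₁.re - v) * w₁.im)| ≤ X * r := by
    rw [abs_mul, abs_of_pos hκ0]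
    have := kap_sq hκ0 hκ1 hκρ (norm_nonneg _) (hw1.trans hXr)
      (two_mul_abs_le (sq_add_sq_sub (w := w₁) (v := v)))
    linarith
  have t1 := abs_le.1 hs1
  have t2 := abs_le.1 b1
  have t3 := abs_le.1 b2
  have t4 := abs_le.1 b3
  have t5 := abs_le.1 b4
  have t6 := abs_le.1 b5
  have t7 := abs_le.1 b6
  have hsum : X * r + mb * ‖w - v‖ + mb * (X * r) + (30 * K₀ + 1) * (r + ‖w - v‖) + r +
      ‖w - v‖ + X * r ≤ (2 * X + mb * (X + 1) + (30 * K₀ + 1) + 2) * (r + ‖w - v‖) := by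
    have q1 : 0 ≤ X * ‖w - v‖ := by positivity
    have q2 : 0 ≤ mb * (X * ‖w - v‖) := by positivity
    have q4 : 0 ≤ mb * r := by positivity
    have e : (2 * X + mb * (X + 1) + (30 * K₀ + 1) + 2) * (r + ‖w - v‖) =
      2 * (X * r) + 2 * (X * ‖w - v‖) + mb * (X * r) + mb * (X * ‖w - v‖) + mb * r + mb * ‖w - v‖ +
        (30 * K₀ + 1) * (r + ‖w - v‖) + 2 * r + 2 * ‖w - v‖ := by ring
    rw [e]
    linarith
  rw [abs_le]
  constructor <;> linarith [t1.1, t1.2, t2.1, t2.2, t3.1, t3.2, t4.1, t4.2, t5.1, t5.2, t6.1,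
    t6.2, t7.1, t7.2]

theorem sd_im_bd {A : Set ℝ} {v K₀ ε X ρ M r β δ : ℝ} {Ψ₁ : ℂ → ℂ}
    (h : Disc1 A v K₀ ε X (2 * ρ) M r Ψ₁ β δ) (hr : 0 < r) (hX : 1 ≤ X) (hK₀ : 0 ≤ K₀)
    {κ κ₀ mb : ℝ} (hκ0 : 0 < κ) (hκ1 : κ₀ ≤ 1) (hκρ : κ * ρ = κ₀)
    (hmb : 0 ≤ mb) {a m' : ℝ} (hm : |m'| ≤ mb) {w : ℂ}
    (hw : ‖w - v‖ ≤ ρ) (hw0 : 0 < w.im) :
    -(Sd a m' κ v Ψ₁ w).im ≤
      (2 * X + mb * (X + 1) + (30 * K₀ + 1) + 2) * (r + ‖w - v‖) := by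
  have hX0 : 0 < X := by linarith
  have n0 := norm_nonneg (w - v)
  rw [Sd_im]
  have b1 : -(m' * w.im) ≤ mb * ‖w - v‖ := by
    have c1 := (abs_le.1 hm).1
    have c2 : -(m' * w.im) ≤ mb * w.im := by
      have := mul_le_mul_of_nonneg_right c1 hw0.le
      linarith
    exact c2.trans (mul_le_mul_of_nonneg_left im_le_norm_sub hmb)
  have b3 : (Ψ₁ w).re ≤ (30 * K₀ + 1) * (r + ‖w - v‖) := by
    have := (Complex.abs_re_le_norm (Ψ₁ w - β * I)).trans (h.lat w hw0.le)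
    have h2 : |(Ψ₁ w).re| ≤ (30 * K₀ + 1) * (r + ‖w - v‖) := by simpa using this
    exact (le_abs_self _).trans h2
  have b5 : κ * ((w.re - v) ^ 2 - w.im ^ 2) ≤ ‖w - v‖ := by
    apply kap_sq hκ0 hκ1 hκρ n0 hw
    have := sq_add_sq_sub (w := w) (v := v)
    have := sq_nonneg w.im
    linarith
  have hsum : mb * ‖w - v‖ + (30 * K₀ + 1) * (r + ‖w - v‖) + ‖w - v‖ ≤
      (2 * X + mb * (X + 1) + (30 * K₀ + 1) + 2) * (r + ‖w - v‖) := by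
    have q1 : 0 ≤ X * ‖w - v‖ := by positivity
    have q2 : 0 ≤ mb * (X * ‖w - v‖) := by positivity
    have q3 : 0 ≤ mb * (X * r) := by positivity
    have q4 : 0 ≤ mb * r := by positivity
    have q5 : 0 ≤ X * r := by positivity
    have e : (2 * X + mb * (X + 1) + (30 * K₀ + 1) + 2) * (r + ‖w - v‖) =
      2 * (X * r) + 2 * (X * ‖w - v‖) + mb * (X * r) + mb * (X * ‖w - v‖) + mb * r + mb * ‖w - v‖ +
        (30 * K₀ + 1) * (r + ‖w - v‖) + 2 * r + 2 * ‖w - v‖ := by ring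
    rw [e]
    linarith
  linarith

theorem sd_up {Ψ₁ : ℂ → ℂ} {v ρ κ κ₀ μ γ a m' : ℝ} (hκ0 : 0 < κ) (hκρ : κ * ρ = κ₀)
    (hκγ : κ₀ ≤ γ / 4) (hm : m' ≤ μ - γ / 2) {w : ℂ}
    (hw : ‖w - v‖ ≤ ρ) (hw0 : 0 < w.im) (hp : 0 ≤ (Ψ₁ w).re) :
    (Sd a m' κ v Ψ₁ w).im ≤ (μ - γ / 4) * w.im := by
  rw [Sd_im]
  have b1 : m' * w.im ≤ (μ - γ / 2) * w.im := mul_le_mul_of_nonneg_right hm hw0.le
  have b3 : κ * w.im ^ 2 ≤ γ / 4 * w.im := by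
    have c1 : κ * w.im ^ 2 ≤ κ * (ρ * w.im) := by
      apply mul_le_mul_of_nonneg_left _ hκ0.le
      have := mul_le_mul_of_nonneg_right ((im_le_norm_sub (v := v)).trans hw) hw0.le
      rw [pow_two]
      exact this
    have c2 : κ * (ρ * w.im) = κ₀ * w.im := by rw [← hκρ]; ring
    have c3 : κ₀ * w.im ≤ γ / 4 * w.im := mul_le_mul_of_nonneg_right hκγ hw0.le
    linarith
  have b4 : 0 ≤ κ * (w.re - v) ^ 2 := by positivity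
  have e : κ * ((w.re - v) ^ 2 - w.im ^ 2) = κ * (w.re - v) ^ 2 - κ * w.im ^ 2 := by ring
  have e2 : (μ - γ / 4) * w.im = (μ - γ / 2) * w.im + γ / 4 * w.im := by ring
  rw [e, e2]
  linarith

theorem sd_lat {A : Set ℝ} {v K₀ ε X ρ M r β δ : ℝ} {Ψ₁ : ℂ → ℂ}
    (h : Disc1 A v K₀ ε X (2 * ρ) M r Ψ₁ β δ) (hM : 2 ≤ M) (hr : 0 < r) (hρ : 0 < ρ) (hrr : r ≤ ρ)
    {K' κ κ₀ c₁ mb : ℝ} (hK' : 1 ≤ K') (hκ0 : 0 < κ) (hκ : 0 < κ₀) (hκ1 : κ₀ ≤ 1)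
    (hκd : κ = κ₀ / ρ) (hκρ : κ * ρ = κ₀) (hmb : 0 ≤ mb)
    (hc : 0 < c₁) (h1 : 4 * c₁ * (9 * K' + mb + 1) ≤ 1 / 48)
    (h2 : 4 * c₁ * (9 * K' + mb + 1) ≤ κ₀ / 2)
    (hK₀ : 8 * (K' + 1) ≤ K₀) (hvA : infDist v A ≤ r) {a m' : ℝ} (hm : |m'| ≤ mb) {w : ℂ}
    (hw : ‖w - v‖ ≤ ρ) (hw0 : 0 < w.im) (hlat : w.im ≤ 2 * c₁ * phi v r M A ρ w) :
    K' * (w.im + infDist w.re A) ≤ -(Sd a m' κ v Ψ₁ w).im := by
  have hwre : |w.re - v| ≤ ‖w - v‖ := re_le_norm_sub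
  have hwim : w.im ≤ ‖w - v‖ := im_le_norm_sub
  rw [Sd_im]
  have hD0 : 0 ≤ infDist w.re A := infDist_nonneg
  have hD1 : infDist w.re A ≤ |w.re - v| + r := by
    have := infDist_le_add (A := A) v w.re
    linarith
  have hp0 := prf_pos (v := v) hr hM w
  have hp1 := prf_le (v := v) hr hM w
  have hX20 : 0 ≤ (w.re - v) ^ 2 / ρ := by positivity
  have hX21 : (w.re - v) ^ 2 / ρ ≤ |w.re - v| := by
    rw [div_le_iff₀ hρ, ← sq_abs, pow_two]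
    exact mul_le_mul_of_nonneg_left (hwre.trans hw) (abs_nonneg _)
  have hK00 : 0 ≤ K₀ := by linarith
  have hc36 : 36 * c₁ ≤ 1 := by
    have : 4 * c₁ * 9 ≤ 4 * c₁ * (9 * K' + mb + 1) := by
      apply mul_le_mul_of_nonneg_left _ (by positivity)
      linarith
    linarith
  have hη8 : 8 * w.im ≤ r + |w.re - v| := by
    have c1 : phi v r M A ρ w ≤ 9 / 4 * (r + |w.re - v|) := by
      unfold phi
      have := abs_nonneg (w.re - v)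
      linarith
    have c2 : 2 * c₁ * phi v r M A ρ w ≤ 2 * c₁ * (9 / 4 * (r + |w.re - v|)) :=
      mul_le_mul_of_nonneg_left c1 (by positivity)
    have c3 : 0 ≤ r + |w.re - v| := by positivity
    have c4 : 36 * c₁ * (r + |w.re - v|) ≤ 1 * (r + |w.re - v|) :=
      mul_le_mul_of_nonneg_right hc36 c3
    linarith
  have hB := h.lowB hK00 hr hM hw0.le hη8 (by linarith)
  have hA : 8 * w.im ≤ infDist w.re A → 9 / 32 * (K₀ * infDist w.re A) ≤ (Ψ₁ w).re :=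
    fun h8 => h.lowA hK00 hr hw0.le h8 (by linarith)
  have hn := lat_num (mb := mb) hw0.le hD0 hp0.le hX20 hK' hmb hκ.le hκ1 hc h1 h2 hK₀ hlat
    hA hB
  have b1 : m' * w.im ≤ mb * w.im :=
    mul_le_mul_of_nonneg_right ((le_abs_self _).trans hm) hw0.le
  have b3 : κ * w.im ^ 2 ≤ κ₀ * w.im := by
    have c1 : κ * w.im ^ 2 ≤ κ * (ρ * w.im) := by
      apply mul_le_mul_of_nonneg_left _ hκ0.le
      have := mul_le_mul_of_nonneg_right (hwim.trans hw) hw0.le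
      rw [pow_two]
      exact this
    have c2 : κ * (ρ * w.im) = κ₀ * w.im := by rw [← hκρ]; ring
    linarith
  have b4 : κ * (w.re - v) ^ 2 = κ₀ * ((w.re - v) ^ 2 / ρ) := by
    rw [hκd]; ring
  have e : κ * ((w.re - v) ^ 2 - w.im ^ 2) = κ * (w.re - v) ^ 2 - κ * w.im ^ 2 := by ring
  rw [e]
  linarith

end Vale.Agent.P097.H337
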