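import Vale.Agent.P097.H337.GeoP

/-!
P097, T-DISC geometry, part 3: existence of the discs in the domain of `L_k`, and the maximum
principle on them.
-/

set_option linter.all false

open MeasureTheory Set Filter Topology Metric Complex
open scoped ENNReal

namespace Vale.Agent.P097.H337

open Vale.Agent.P097.H85 Vale.Agent.P097.H929 H315.Marc

theorem isOpen_rect (u ρ : ℝ) : IsOpen {w : ℂ | |w.re - u| < ρ ∧ 0 < w.im ∧ w.im < ρ} := by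
  apply IsOpen.inter
  · exact isOpen_lt (by fun_prop : Continuous fun w : ℂ => |w.re - u|) continuous_const
  · apply IsOpen.inter
    · exact isOpen_lt continuous_const Complex.continuous_im
    · exact isOpen_lt Complex.continuous_im continuous_const

theorem phi_tgt {v r M ρ X : ℝ} {A : Set ℝ} (hr : 0 < r) (hM : 2 ≤ M) (hX : 1 ≤ X) (hρ : 0 < ρ)
    (hXr : X * r ≤ ρ) (hvA : infDist v A ≤ r) {w₁ : ℂ} (hw1 : ‖w₁ - v‖ ≤ X * r) :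
    phi v r M A ρ w₁ ≤ (3 * X + 2) * r := by
  have hre : |w₁.re - v| ≤ X * r := re_le_norm_sub.trans hw1
  have h1 := prf_le (v := v) hr hM w₁
  have h2 : (w₁.re - v) ^ 2 / ρ ≤ |w₁.re - v| := by
    rw [div_le_iff₀ hρ, ← sq_abs, pow_two]
    exact mul_le_mul_of_nonneg_left (hre.trans hXr) (abs_nonneg _)
  have h3 := infDist_le_add (A := A) v w₁.re
  unfold phi
  have : 0 ≤ X * r := by positivity
  have e : (3 * X + 2) * r = 3 * (X * r) + 2 * r := by ring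
  rw [e]
  linarith

theorem diff_Sd {Ψ₁ : ℂ → ℂ} {w : ℂ} (h : DifferentiableAt ℂ Ψ₁ w) (a m' κ v : ℝ) :
    DifferentiableAt ℂ (Sd a m' κ v Ψ₁) w := by
  have e : Sd a m' κ v Ψ₁ = fun w : ℂ => ((a : ℂ) + m' * (w - v) - I * (κ * (w - v) ^ 2)) -
      I * Ψ₁ w := by
    funext w
    unfold Sd
    ring
  rw [e]
  apply DifferentiableAt.sub
  · fun_prop
  · exact h.const_mul I

/-- membership of the disc in the domain -/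
theorem disc_gd {Mk : Set (ℂ × ℂ)} {b m : ℝ} {Ψ Ψ₁ : ℂ → ℂ} {A : Set ℝ} {u₀ x₀ x₁ μ μ' d d₁ ρc C' v ρ ρ₁ r
    M c₁ K' a m' κ δ : ℝ} (hd₁ : d ≤ d₁ / 4) (hdc : d ≤ ρc / 4) (hC' : 1 ≤ C')
    (hol : DifferentiableOn ℂ Ψ {w | |w.re - u₀| < ρc ∧ 0 < w.im ∧ w.im < ρc})
    (bdd : ∀ w : ℂ, |w.re - u₀| < ρc → 0 < w.im → w.im < ρc → m ≤ (Ψ w).im)
    (hwide : ∀ t w : ℂ, |w.re - u₀| < d₁ → 0 < w.im → w.im < d₁ →
      |(t - Ψ w).re - x₀| < d₁ → b < t.im → t.im < (Ψ w).im + μ * w.im → (t, w) ∈ Mk)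
    (hbm : b < m) (hμ : μ' < μ) (hρ₁1 : ρ₁ ≤ d) (hρ₁2 : C' * (2 * ρ₁) ≤ (m - b) / 2)
    (hρ₁3 : C' * (2 * ρ₁) ≤ d₁ / 4) (hv : |v - u₀| < d) (hx : |x₁ - x₀| < d) (hr : 0 < r)
    (hrr : r ≤ ρ) (hρρ : ρ ≤ ρ₁) (hδ : 0 < δ) (hΨ₁ : DifferentiableOn ℂ Ψ₁ {w : ℂ | -δ < w.im})
    (hre : ∀ w : ℂ, ‖w - v‖ ≤ ρ → 0 < w.im →
      |(Sd a m' κ v Ψ₁ w).re - x₁| ≤ C' * (r + ‖w - v‖))
    (him : ∀ w : ℂ, ‖w - v‖ ≤ ρ → 0 < w.im →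
      -(Sd a m' κ v Ψ₁ w).im ≤ C' * (r + ‖w - v‖))
    (hup : ∀ w : ℂ, ‖w - v‖ ≤ ρ → 0 < w.im → (Sd a m' κ v Ψ₁ w).im ≤ μ' * w.im)
    (hlat : ∀ w : ℂ, ‖w - v‖ ≤ ρ → 0 < w.im → w.im ≤ 2 * c₁ * phi v r M A ρ w →
      K' * (w.im + infDist w.re A) ≤ -(Sd a m' κ v Ψ₁ w).im) :
    GD Mk Ψ A v x₁ r ρ M c₁ K' C' μ' (fun w => Ψ w + Sd a m' κ v Ψ₁ w) := by
  have hC'2 : ∀ w : ℂ, ‖w - v‖ ≤ ρ → C' * (r + ‖w - v‖) ≤ C' * (2 * ρ₁) := fun w hw => by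
    apply mul_le_mul_of_nonneg_left _ (by linarith)
    linarith
  have hbox : ∀ w : ℂ, ‖w - v‖ ≤ ρ → 0 < w.im → |w.re - u₀| < 3 * d ∧ w.im < 3 * d := by
    intro w hw hw0'
    have h3 : |w.re - v| ≤ ‖w - v‖ := re_le_norm_sub
    have h4 : w.im ≤ ‖w - v‖ := im_le_norm_sub
    have h5 := abs_sub_le w.re v u₀
    constructor <;> linarith
  have e1 : ∀ w, Ψ w + Sd a m' κ v Ψ₁ w - Ψ w = Sd a m' κ v Ψ₁ w := fun w => by ring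
  have e2 : ∀ w, Ψ w - (Ψ w + Sd a m' κ v Ψ₁ w) = -Sd a m' κ v Ψ₁ w := fun w => by ring
  refine ⟨?_, ?_, ?_, ?_, ?_, ?_⟩
  · intro w hw hw0'
    obtain ⟨q1, q2⟩ := hbox w hw hw0'
    apply DifferentiableAt.add
    · refine hol.differentiableAt ((isOpen_rect u₀ ρc).mem_nhds ⟨?_, hw0', ?_⟩)
      · linarith
      · linarith
    · apply diff_Sd
      have ho : IsOpen {w : ℂ | -δ < w.im} := isOpen_lt continuous_const Complex.continuous_im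
      refine hΨ₁.differentiableAt (ho.mem_nhds ?_)
      show -δ < w.im
      linarith
  · intro w hw hw0'
    obtain ⟨q1, q2⟩ := hbox w hw hw0'
    refine hwide _ w (by linarith) hw0' (by linarith) ?_ ?_ ?_
    · rw [e1]
      have h3 := hre w hw hw0'
      have h4 := hC'2 w hw
      have h5 := abs_sub_le (Sd a m' κ v Ψ₁ w).re x₁ x₀
      linarith
    · have h3 := him w hw hw0'
      have h4 := hC'2 w hw
      have h5 := bdd w (by linarith) hw0' (by linarith)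
      rw [Complex.add_im]
      linarith
    · have h3 := hup w hw hw0'
      rw [Complex.add_im]
      have h4 : μ' * w.im < μ * w.im := mul_lt_mul_of_pos_right hμ hw0'
      linarith
  · intro w hw hw0'
    simp only [e1]
    exact hre w hw hw0'
  · intro w hw hw0'
    simp only [e2, Complex.neg_im]
    exact him w hw hw0'
  · intro w hw hw0'
    simp only [e1]
    exact hup w hw hw0'
  · intro w hw hw0' hl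
    simp only [e2, Complex.neg_im]
    exact hlat w hw hw0' hl

/-- existence of the disc in straight coordinates through the target `σ₁` -/
theorem disc_ex {A B : Set ℝ} {v ρ r η M K' X γ μ κ₀ mb ε K₀ τ c₁ : ℝ} (hX : 1 ≤ X)
    (hcore : ∀ (A B : Set ℝ) (v r h : ℝ), 0 < r → r ≤ h → ball v (2 * h) ⊆ B →
      Mz A B v r ≤ ENNReal.ofReal η → ∀ δ₀ > 0, ∃ (Ψ : ℂ → ℂ) (β δ : ℝ), δ ≤ δ₀ ∧
      Disc1 A v K₀ ε X (h / 2) M r Ψ β δ) (hM2 : 2 ≤ M) (hγ : 0 < γ) (hκ : 0 < κ₀)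
    (hκ1 : κ₀ ≤ 1) (hκγ : κ₀ ≤ γ / 4) (hmbd : mb = |μ| + X ^ 2 + 1) (hε0 : 0 < ε) (hε1 : ε ≤ 1)
    (hεX : ε * X ≤ γ / 4) (hK₀d : K₀ = 8 * (K' + 1)) (hK : 1 ≤ K') (hτ0 : 0 < τ)
    (hτX3 : X ^ 3 * τ ≤ 1) (hτX : X * τ ≤ 1 / 2) (hτ1 : τ ≤ 1 / 2) (hc₁ : 0 < c₁)
    (h1 : 4 * c₁ * (9 * K' + mb + 1) ≤ 1 / 48) (h2 : 4 * c₁ * (9 * K' + mb + 1) ≤ κ₀ / 2)
    (hρ : 0 < ρ) (hr : 0 < r) (hrρ : r ≤ τ * ρ) (hvA : infDist v A ≤ r)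
    (hB : ball v (8 * ρ) ⊆ B) (hMz : Mz A B v r ≤ ENNReal.ofReal η) {σ₁ w₁ : ℂ} {x₁ : ℝ}
    (hw1 : ‖w₁ - v‖ ≤ X * r) (hw2 : r / X ≤ w₁.im) (hs1 : |σ₁.re - x₁| ≤ X * r)
    (hs2 : -(X * r) ≤ σ₁.im) (hs3 : σ₁.im ≤ (μ - γ) * w₁.im) :
    ∃ (a m' κ δ : ℝ) (Ψ₁ : ℂ → ℂ), 0 < δ ∧ DifferentiableOn ℂ Ψ₁ {w : ℂ | -δ < w.im} ∧
      Sd a m' κ v Ψ₁ w₁ = σ₁ ∧
      (∀ w : ℂ, ‖w - v‖ ≤ ρ → 0 < w.im →
      |(Sd a m' κ v Ψ₁ w).re - x₁| ≤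
        (2 * X + mb * (X + 1) + (30 * K₀ + 1) + 2) * (r + ‖w - v‖)) ∧
      (∀ w : ℂ, ‖w - v‖ ≤ ρ → 0 < w.im → -(Sd a m' κ v Ψ₁ w).im ≤
        (2 * X + mb * (X + 1) + (30 * K₀ + 1) + 2) * (r + ‖w - v‖)) ∧
      (∀ w : ℂ, ‖w - v‖ ≤ ρ → 0 < w.im → (Sd a m' κ v Ψ₁ w).im ≤ (μ - γ / 4) * w.im) ∧
      (∀ w : ℂ, ‖w - v‖ ≤ ρ → 0 < w.im → w.im ≤ 2 * c₁ * phi v r M A ρ w →
      K' * (w.im + infDist w.re A) ≤ -(Sd a m' κ v Ψ₁ w).im) := by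
  have hX0 : 0 < X := by linarith
  have hmb : 0 ≤ mb := by rw [hmbd]; positivity
  have hK₀0 : 0 ≤ K₀ := by rw [hK₀d]; linarith
  have hrr : r ≤ ρ := by
    have := mul_le_mul_of_nonneg_right hτ1 hρ.le
    linarith
  have hXr : X * r ≤ ρ := by
    have h3 : X * r ≤ X * (τ * ρ) := mul_le_mul_of_nonneg_left hrρ hX0.le
    have h4 : X * (τ * ρ) = (X * τ) * ρ := by ring
    have h5 := mul_le_mul_of_nonneg_right hτX hρ.le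
    linarith
  have hw0 : 0 < w₁.im := (div_pos hr hX0).trans_le hw2
  obtain ⟨Ψ₁, β, δ, -, hD⟩ := hcore A B v r (4 * ρ) hr (by linarith)
    (by
      have e : 2 * (4 * ρ) = 8 * ρ := by ring
      rw [e]
      exact hB) hMz 1 one_pos
  have e2 : 4 * ρ / 2 = 2 * ρ := by ring
  rw [e2] at hD
  obtain ⟨κ, hκd'⟩ : ∃ κ : ℝ, κ = κ₀ / ρ := ⟨_, rfl⟩
  have hκ0 : 0 < κ := by rw [hκd']; exact div_pos hκ hρ
  have hκρ : κ * ρ = κ₀ := by rw [hκd']; field_simp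
  have hκr : κ * r ≤ κ₀ * τ := by
    have e : κ₀ * τ = κ * (τ * ρ) := by rw [← hκρ]; ring
    rw [e]
    exact mul_le_mul_of_nonneg_left hrρ hκ0.le
  have htgt := hD.tgt w₁ (re_le_norm_sub.trans hw1) hw2 (im_le_norm_sub.trans hw1)
  have ht1 : |(Ψ₁ w₁).re| ≤ ε * r := by
    have := (Complex.abs_re_le_norm (Ψ₁ w₁ - β * I)).trans htgt
    simpa using this
  have hτ3 : κ₀ * X ^ 3 * τ ≤ γ / 4 := by
    have e : κ₀ * X ^ 3 * τ = κ₀ * (X ^ 3 * τ) := by ring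
    rw [e]
    have := mul_le_mul_of_nonneg_left hτX3 hκ.le
    linarith
  obtain ⟨a, m', hsol, hm1, hm2, ha⟩ := disc_solve (γ := γ) (μ := μ) (κ := κ) (κ₀ := κ₀)
    (τ := τ) hr hX hκ0 hκ hκ1 hκr hτ0 hε0.le hεX hτ3 (hτX.trans (by norm_num)) hγ hw1 hw2 ht1
    (hD.pos w₁ hw0.le) hs2 hs3
  rw [← hmbd] at hm1
  refine ⟨a, m', κ, δ, Ψ₁, hD.d0, hD.diff, hsol, fun w hw hw0' => ?_, fun w hw hw0' => ?_,
    fun w hw hw0' => ?_, fun w hw hw0' hl => ?_⟩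
  · exact sd_re_bd hD hr hX hK₀0 hε1 hκ0 hκ1 hκρ hmb hrr hXr hw1 hw2 hs1 hm1 ha hw hw0'
  · exact sd_im_bd hD hr hX hK₀0 hκ0 hκ1 hκρ hmb hm1 hw hw0'
  · exact sd_up hκ0 hκρ hκγ hm2 hw hw0' (hD.pos w hw0'.le)
  · exact sd_lat hD hM2 hr hρ hrr hK hκ0 hκ hκ1 hκd' hκρ hmb hc₁ h1 h2 hK₀d.ge hvA hm1 hw hw0' hl

/-- **the discs of T-DISC** -/
theorem geo_disc {Mk : Set (ℂ × ℂ)} {b m : ℝ} {Ψ : ℂ → ℂ} {A : Set ℝ} {P : ℝ → ℂ} {c k : ℝ → ℝ}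
    (hM : RH b Mk) (hU : CmpU Mk b m Ψ A P c k) (hbm : b < m) {y₀ u₀ s' s₁ : ℝ} (hu0 : u₀ ∈ A)
    (hR : RegB Mk b A P c y₀ u₀ s') (hs : s₁ < s') {X K' : ℝ} (hX : 1 ≤ X) (hK : 1 ≤ K') :
    ∃ η > 0, ∃ M ≥ 2, ∃ c₁ > 0, ∃ C' ≥ 1, ∃ τ > 0, τ ≤ 1 ∧ ∃ s₂ < s', ∃ ρ₁ > 0, ∃ d > 0,
      ∀ (B : Set ℝ) (v x₁ ρ r : ℝ), |v - u₀| < d → |x₁ - (y₀ - (P u₀).re)| < d →
      0 < ρ → ρ ≤ ρ₁ → 0 < r → r ≤ τ * ρ → infDist v A ≤ r → ball v (8 * ρ) ⊆ B →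
      Mz A B v r ≤ ENNReal.ofReal η → ∀ t₁ w₁ : ℂ, ‖w₁ - v‖ ≤ X * r → r / X ≤ w₁.im →
      |(t₁ - Ψ w₁).re - x₁| ≤ X * r → -(X * r) ≤ (t₁ - Ψ w₁).im →
      (t₁ - Ψ w₁).im ≤ (s₁ - k u₀) * w₁.im →
      ∃ T : ℂ → ℂ, GD Mk Ψ A v x₁ r ρ M c₁ K' C' (s₂ - k u₀) T ∧ T w₁ = t₁ ∧ ‖w₁ - v‖ < ρ ∧
        c₁ * phi v r M A ρ w₁ < w₁.im := by
  have hX0 : 0 < X := by linarith
  obtain ⟨γ, hγd⟩ : ∃ γ : ℝ, γ = (s' - s₁) / 2 := ⟨_, rfl⟩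
  have hγ : 0 < γ := by rw [hγd]; linarith
  obtain ⟨μ, hμd⟩ : ∃ μ : ℝ, μ = s' - k u₀ - γ := ⟨_, rfl⟩
  obtain ⟨κ₀, hκd⟩ : ∃ κ₀ : ℝ, κ₀ = min 1 (γ / 4) := ⟨_, rfl⟩
  have hκ : 0 < κ₀ := by rw [hκd]; positivity
  have hκ1 : κ₀ ≤ 1 := by rw [hκd]; exact min_le_left _ _
  have hκγ : κ₀ ≤ γ / 4 := by rw [hκd]; exact min_le_right _ _
  obtain ⟨mb, hmbd⟩ : ∃ mb : ℝ, mb = |μ| + X ^ 2 + 1 := ⟨_, rfl⟩
  have hmb : 0 ≤ mb := by rw [hmbd]; positivity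
  obtain ⟨ε, hεd⟩ : ∃ ε : ℝ, ε = min 1 (γ / (4 * X)) := ⟨_, rfl⟩
  have hε0 : 0 < ε := by rw [hεd]; positivity
  have hε1 : ε ≤ 1 := by rw [hεd]; exact min_le_left _ _
  have hεX : ε * X ≤ γ / 4 := by
    have : ε ≤ γ / (4 * X) := by rw [hεd]; exact min_le_right _ _
    have h2 := mul_le_mul_of_nonneg_right this hX0.le
    have e : γ / (4 * X) * X = γ / 4 := by field_simp
    linarith
  obtain ⟨K₀, hK₀d⟩ : ∃ K₀ : ℝ, K₀ = 8 * (K' + 1) := ⟨_, rfl⟩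
  have hK₀0 : 0 ≤ K₀ := by rw [hK₀d]; linarith
  obtain ⟨τ, hτd⟩ : ∃ τ : ℝ, τ = 1 / (2 * X ^ 3) := ⟨_, rfl⟩
  have hτ0 : 0 < τ := by rw [hτd]; positivity
  have hX3 : X ≤ X ^ 3 := by
    have : 1 ≤ X ^ 2 := by nlinarith
    nlinarith
  have hτX3 : X ^ 3 * τ = 1 / 2 := by rw [hτd]; field_simp
  have hτX : X * τ ≤ 1 / 2 := by
    rw [← hτX3]
    exact mul_le_mul_of_nonneg_right hX3 hτ0.le
  have hτ1 : τ ≤ 1 / 2 := by nlinarith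
  obtain ⟨Q₀, hQ₀d⟩ : ∃ Q₀ : ℝ, Q₀ = 4 * (9 * K' + mb + 1) := ⟨_, rfl⟩
  have hQ₀ : 0 < Q₀ := by rw [hQ₀d]; linarith
  obtain ⟨c₁, hc₁d⟩ : ∃ c₁ : ℝ, c₁ = min (min (1 / 48) (κ₀ / 2) / Q₀) (1 / (2 * X * (3 * X + 2))) :=
    ⟨_, rfl⟩
  have hc₁ : 0 < c₁ := by
    rw [hc₁d]
    have : 0 < 3 * X + 2 := by linarith
    positivity
  have hc₁Q : c₁ * Q₀ ≤ min (1 / 48) (κ₀ / 2) := by
    have : c₁ ≤ min (1 / 48) (κ₀ / 2) / Q₀ := by rw [hc₁d]; exact min_le_left _ _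
    rwa [le_div_iff₀ hQ₀] at this
  have hQe : 4 * c₁ * (9 * K' + mb + 1) = c₁ * Q₀ := by rw [hQ₀d]; ring
  have h1 : 4 * c₁ * (9 * K' + mb + 1) ≤ 1 / 48 := by
    rw [hQe]; exact hc₁Q.trans (min_le_left _ _)
  have h2 : 4 * c₁ * (9 * K' + mb + 1) ≤ κ₀ / 2 := by
    rw [hQe]; exact hc₁Q.trans (min_le_right _ _)
  have hc₁X : c₁ * (X * (3 * X + 2)) ≤ 1 / 2 := by
    have h3 : c₁ ≤ 1 / (2 * X * (3 * X + 2)) := by rw [hc₁d]; exact min_le_right _ _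
    have h4 : 0 < X * (3 * X + 2) := by positivity
    have h5 := mul_le_mul_of_nonneg_right h3 h4.le
    have e : 1 / (2 * X * (3 * X + 2)) * (X * (3 * X + 2)) = 1 / 2 := by field_simp
    linarith
  obtain ⟨C', hC'd⟩ : ∃ C' : ℝ, C' = 2 * X + mb * (X + 1) + (30 * K₀ + 1) + 2 := ⟨_, rfl⟩
  have hC'1 : 1 ≤ C' := by
    rw [hC'd]
    have : 0 ≤ mb * (X + 1) := by positivity
    linarith
  obtain ⟨η, hη, M, hM2, hcore⟩ := disc_core (K := K₀) (ε := ε) (C := X) hK₀0 hε0 hX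
  obtain ⟨d₁, hd₁, hwide⟩ := H560.wide_unif hM hU hbm hR hγ
  obtain ⟨ρc, hρc, hcmp⟩ := hU.cmp 1 one_pos 1 one_pos
  have hcm := hcmp u₀ hu0
  obtain ⟨d, hdd⟩ : ∃ d : ℝ, d = min d₁ ρc / 4 := ⟨_, rfl⟩
  have hd : 0 < d := by rw [hdd]; positivity
  have hdd₁ : d ≤ d₁ / 4 := by
    rw [hdd]; exact div_le_div_of_nonneg_right (min_le_left _ _) (by norm_num)
  have hddc : d ≤ ρc / 4 := by
    rw [hdd]; exact div_le_div_of_nonneg_right (min_le_right _ _) (by norm_num)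
  obtain ⟨ρ₁, hρ₁d⟩ : ∃ ρ₁ : ℝ, ρ₁ = min d (min ((m - b) / (4 * C')) (d₁ / (8 * C'))) := ⟨_, rfl⟩
  have hmb0 : 0 < m - b := by linarith
  have hρ₁ : 0 < ρ₁ := by rw [hρ₁d]; positivity
  have hρ₁1 : ρ₁ ≤ d := by rw [hρ₁d]; exact min_le_left _ _
  have hρ₁2 : C' * (2 * ρ₁) ≤ (m - b) / 2 := by
    have : ρ₁ ≤ (m - b) / (4 * C') := by
      rw [hρ₁d]; exact (min_le_right _ _).trans (min_le_left _ _)
    rw [le_div_iff₀ (by positivity)] at this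
    linarith
  have hρ₁3 : C' * (2 * ρ₁) ≤ d₁ / 4 := by
    have : ρ₁ ≤ d₁ / (8 * C') := by
      rw [hρ₁d]; exact (min_le_right _ _).trans (min_le_right _ _)
    rw [le_div_iff₀ (by positivity)] at this
    linarith
  refine ⟨η, hη, M, hM2, c₁, hc₁, C', hC'1, τ, hτ0, hτ1.trans (by norm_num), s' - 5 / 4 * γ,
    by linarith, ρ₁, hρ₁, d, hd, ?_⟩
  intro B v x₁ ρ r hv hx hρ hρρ hr hrρ hvA hB hMz t₁ w₁ hw1 hw2 hs1 hs2 hs3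
  have eμ : μ - γ = s₁ - k u₀ := by rw [hμd, hγd]; ring
  obtain ⟨a, m', κ, δ, Ψ₁, hδ, hΨ₁, hsol, hre, him, hup, hlat⟩ := disc_ex (A := A) (B := B) (v := v)
    (ρ := ρ) (r := r) (μ := μ) (x₁ := x₁) hX hcore hM2 hγ hκ hκ1 hκγ hmbd hε0 hε1 hεX hK₀d hK hτ0
    (hτX3.le.trans (by norm_num)) hτX hτ1 hc₁ h1 h2 hρ hr hrρ hvA hB hMz hw1 hw2 hs1 hs2
    (by rw [eμ]; exact hs3)
  have hrr : r ≤ ρ := by
    have := mul_le_mul_of_nonneg_right hτ1 hρ.le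
    linarith
  rw [← hC'd] at hre him
  have e2 : s' - 5 / 4 * γ - k u₀ = μ - γ / 4 := by rw [hμd]; ring
  have hX0r : 0 < X * r := mul_pos hX0 hr
  have hXr : X * r ≤ ρ / 2 := by
    have h3 : X * r ≤ X * (τ * ρ) := mul_le_mul_of_nonneg_left hrρ hX0.le
    have h4 : X * (τ * ρ) = (X * τ) * ρ := by ring
    have h5 := mul_le_mul_of_nonneg_right hτX hρ.le
    linarith
  have hw0 : 0 < w₁.im := (div_pos hr hX0).trans_le hw2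
  have hrX : r ≤ X * w₁.im := by
    rw [div_le_iff₀ hX0] at hw2
    linarith
  refine ⟨fun w => Ψ w + Sd a m' κ v Ψ₁ w, ?_, ?_, by linarith, ?_⟩
  · rw [e2]
    exact disc_gd hdd₁ hddc hC'1 hcm.hol hcm.bdd
      (fun t w a1 a2 a3 a4 a5 a6 => hwide u₀ hu0 (by simpa using hd₁) y₀ (by simpa using hd₁) t w
        a1 a2 a3 a4 a5 (by rw [← hμd]; exact a6)) hbm (by linarith) hρ₁1 hρ₁2 hρ₁3 hv hx hr hrr hρρ
      hδ hΨ₁ hre him hup hlat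
  · simp only [hsol]
    ring
  · have h3 := phi_tgt hr hM2 hX hρ (by linarith) hvA hw1
    have h4 : c₁ * phi v r M A ρ w₁ ≤ c₁ * ((3 * X + 2) * r) :=
      mul_le_mul_of_nonneg_left h3 hc₁.le
    have h5 : c₁ * ((3 * X + 2) * r) ≤ c₁ * ((3 * X + 2) * (X * w₁.im)) := by
      apply mul_le_mul_of_nonneg_left _ hc₁.le
      exact mul_le_mul_of_nonneg_left hrX (by linarith)
    have h6 : c₁ * ((3 * X + 2) * (X * w₁.im)) = c₁ * (X * (3 * X + 2)) * w₁.im := by ring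
    have h7 := mul_le_mul_of_nonneg_right hc₁X hw0.le
    linarith

end Vale.Agent.P097.H337
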