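import Vale.Agent.P097.H699.Montel

/-!
# P097, case [c] : a trivial place at every level (note of helper805)

`g` holomorphic and `1`-periodic near the top line `Im z = b`, with a (meromorphic) primitive `s` of
`g⁻²`, `s (z + 1) = s z + P`, `P > 0`.  If `‖g‖ u ≤ C` on the windows of size `δ`, then for small `u`
there is a window where `‖g‖ u ≤ ε`.
-/

set_option linter.all false

open Complex Metric Filter Topology Set

namespace Vale.Agent.P097.H337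

/-- the zeros of a non zero holomorphic function in a compact set are finite -/
theorem finite_zeros {U K : Set ℂ} {f : ℂ → ℂ} (hU : IsOpen U) (hc : IsPreconnected U)
    (hf : DifferentiableOn ℂ f U) (hK : IsCompact K) (hKU : K ⊆ U) {p : ℂ} (hp : p ∈ U)
    (hfp : f p ≠ 0) : {z ∈ K | f z = 0}.Finite := by
  by_contra hinf
  obtain ⟨x, hxK, hx⟩ := Set.Infinite.exists_accPt_of_subset_isCompact (s := {z ∈ K | f z = 0})
    hinf hK (fun z hz => hz.1)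
  have hfr : ∃ᶠ z in 𝓝[≠] x, f z = 0 := by
    have := accPt_iff_frequently.1 hx
    rw [frequently_nhdsWithin_iff]
    refine this.mono ?_
    rintro z ⟨hz, hz'⟩
    exact ⟨hz'.2, hz⟩
  have h0 := (hf.analyticOnNhd hU).eqOn_zero_of_preconnected_of_frequently_eq_zero hc (hKU hxK) hfr
  exact hfp (h0 hp)

/-- a non degenerate interval is not contained in a finite set -/
theorem exists_avoid {a b : ℝ} (hab : a < b) {S : Set ℝ} (hS : S.Finite) : ∃ y ∈ Icc a b, y ∉ S := by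
  by_contra h
  push Not at h
  exact (Icc_infinite hab) (hS.subset h)

/-- points of the rectangle -/
theorem rect_compact (a b c d : ℝ) : IsCompact {z : ℂ | z.re ∈ Icc a b ∧ z.im ∈ Icc c d} := by
  have h : IsCompact ((Icc a b) ×ℂ (Icc c d)) := isCompact_Icc.reProdIm isCompact_Icc
  refine h.of_isClosed_subset ?_ ?_
  · exact (isClosed_Icc.preimage continuous_re).inter (isClosed_Icc.preimage continuous_im)
  · intro z hz
    exact ⟨hz.1, hz.2⟩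

/-- one function -/
theorem free_one {U : Set ℂ} {f : ℂ → ℂ} (hU : IsOpen U) (hc : IsPreconnected U)
    (hf : DifferentiableOn ℂ f U) {a b c d : ℝ} (hab : a < b) (hcd : c < d)
    {a' b' : ℝ} (hab' : a' < b') (haa : a ≤ a') (hbb : b' ≤ b)
    (hR : {z : ℂ | z.re ∈ Icc a b ∧ z.im ∈ Icc c d} ⊆ U) {p : ℂ} (hp : p ∈ U) (hfp : f p ≠ 0) :
    ∃ y ∈ Icc c d, ∃ x ∈ Icc a' b', ∃ e > 0, (∀ s ∈ Icc a b, e ≤ ‖f (⟨s, y⟩ : ℂ)‖) ∧
      (∀ t ∈ Icc c d, e ≤ ‖f (⟨x, t⟩ : ℂ)‖) := by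
  set R : Set ℂ := {z : ℂ | z.re ∈ Icc a b ∧ z.im ∈ Icc c d} with hRdef
  have hRc : IsCompact R := rect_compact a b c d
  have hfin := finite_zeros hU hc hf hRc hR hp hfp
  obtain ⟨y, hy, hyS⟩ := exists_avoid hcd (hfin.image Complex.im)
  obtain ⟨x, hx, hxS⟩ := exists_avoid hab' (hfin.image Complex.re)
  have hx' : x ∈ Icc a b := ⟨haa.trans hx.1, hx.2.trans hbb⟩
  have hcont : ContinuousOn f U := hf.continuousOn
  -- the horizontal segment
  have A : ∃ e > 0, ∀ s ∈ Icc a b, e ≤ ‖f (⟨s, y⟩ : ℂ)‖ := by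
    have hK : IsCompact (R ∩ {z : ℂ | z.im = y}) :=
      hRc.inter_right (isClosed_singleton.preimage continuous_im)
    have hne : (R ∩ {z : ℂ | z.im = y}).Nonempty :=
      ⟨⟨a, y⟩, ⟨⟨le_refl _, hab.le⟩, hy⟩, rfl⟩
    obtain ⟨m, hm, hmin⟩ := hK.exists_isMinOn hne
      ((hcont.mono (inter_subset_left.trans hR)).norm)
    refine ⟨‖f m‖, ?_, fun s hs => hmin ⟨⟨hs, hy⟩, rfl⟩⟩
    refine norm_pos_iff.2 fun h0 => hyS ⟨m, ⟨hm.1, h0⟩, hm.2⟩
  have B : ∃ e > 0, ∀ t ∈ Icc c d, e ≤ ‖f (⟨x, t⟩ : ℂ)‖ := by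
    have hK : IsCompact (R ∩ {z : ℂ | z.re = x}) :=
      hRc.inter_right (isClosed_singleton.preimage continuous_re)
    have hne : (R ∩ {z : ℂ | z.re = x}).Nonempty :=
      ⟨⟨x, c⟩, ⟨hx', ⟨le_refl _, hcd.le⟩⟩, rfl⟩
    obtain ⟨m, hm, hmin⟩ := hK.exists_isMinOn hne
      ((hcont.mono (inter_subset_left.trans hR)).norm)
    refine ⟨‖f m‖, ?_, fun t ht => hmin ⟨⟨hx', ht⟩, rfl⟩⟩
    refine norm_pos_iff.2 fun h0 => hxS ⟨m, ⟨hm.1, h0⟩, hm.2⟩
  obtain ⟨e1, he1, A⟩ := A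
  obtain ⟨e2, he2, B⟩ := B
  exact ⟨y, hy, x, hx, min e1 e2, lt_min he1 he2, fun s hs => (min_le_left _ _).trans (A s hs),
    fun t ht => (min_le_right _ _).trans (B t ht)⟩

/-- uniform version, by normality -/
theorem free_unif {U K₀ : Set ℂ} (hU : IsOpen U) (hc : IsPreconnected U) (hK₀ : IsCompact K₀)
    (hK₀U : K₀ ⊆ U) {a b c d : ℝ} (hab : a < b) (hcd : c < d)
    {a' b' : ℝ} (hab' : a' < b') (haa : a ≤ a') (hbb : b' ≤ b)
    (hR : {z : ℂ | z.re ∈ Icc a b ∧ z.im ∈ Icc c d} ⊆ U) (C ε : ℝ) (hε : 0 < ε) :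
    ∃ e > 0, ∀ f : ℂ → ℂ, DifferentiableOn ℂ f U → (∀ z ∈ U, ‖f z‖ ≤ C) →
      (∃ z ∈ K₀, ε ≤ ‖f z‖) → ∃ y ∈ Icc c d, ∃ x ∈ Icc a' b',
      (∀ s ∈ Icc a b, e ≤ ‖f (⟨s, y⟩ : ℂ)‖) ∧ (∀ t ∈ Icc c d, e ≤ ‖f (⟨x, t⟩ : ℂ)‖) := by
  by_contra hcon
  push Not at hcon
  have h1 : ∀ n : ℕ, ∃ f : ℂ → ℂ, DifferentiableOn ℂ f U ∧ (∀ z ∈ U, ‖f z‖ ≤ C) ∧
      (∃ z ∈ K₀, ε ≤ ‖f z‖) ∧ ∀ y ∈ Icc c d, ∀ x ∈ Icc a' b',
      (∀ s ∈ Icc a b, 1 / ((n : ℝ) + 1) ≤ ‖f (⟨s, y⟩ : ℂ)‖) →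
        ∃ t ∈ Icc c d, ‖f (⟨x, t⟩ : ℂ)‖ < 1 / ((n : ℝ) + 1) := by
    intro n
    obtain ⟨f, h1, h2, h3, h4⟩ := hcon (1 / ((n : ℝ) + 1)) (by positivity)
    exact ⟨f, h1, h2, h3, h4⟩
  choose f hfd hfb hfp hfn using h1
  obtain ⟨φ, hφ, g, hg, hlim⟩ := H699.montel hU hfd (fun K hK _ => ⟨C, fun n z hz => hfb n z (hK hz)⟩)
  -- the limit is non zero
  choose p hpK hp using hfp
  obtain ⟨q, hqK, ψ, hψ, hq⟩ := hK₀.tendsto_subseq (fun n => hpK (φ n))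
  have hgq : ε ≤ ‖g q‖ := by
    have hT : TendstoLocallyUniformlyOn (fun n => f (φ (ψ n))) g atTop U := by
      intro u hu x hx
      obtain ⟨t, ht, h⟩ := hlim u hu x hx
      exact ⟨t, ht, hψ.tendsto_atTop.eventually h⟩
    have h2 : Tendsto (fun n => f (φ (ψ n)) (p (φ (ψ n)))) atTop (𝓝 (g q)) := by
      refine hT.tendsto_comp ((hg.continuousOn) q (hK₀U hqK)) (hK₀U hqK) ?_
      refine tendsto_nhdsWithin_iff.2 ⟨hq, Eventually.of_forall fun n => hK₀U (hpK _)⟩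
    exact ge_of_tendsto h2.norm (Eventually.of_forall fun n => hp _)
  have hgq0 : g q ≠ 0 := by
    intro h0
    rw [h0, norm_zero] at hgq
    linarith
  obtain ⟨y, hy, x, hx, e, he, hA, hB⟩ := free_one hU hc hg hab hcd hab' haa hbb hR (hK₀U hqK) hgq0
  -- uniform convergence on the rectangle
  have hRc : IsCompact {z : ℂ | z.re ∈ Icc a b ∧ z.im ∈ Icc c d} := rect_compact a b c d
  have hun := (tendstoLocallyUniformlyOn_iff_forall_isCompact hU).1 hlim _ hR hRc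
  rw [Metric.tendstoUniformlyOn_iff] at hun
  have h3 := hun (e / 2) (by positivity)
  have h4 : ∀ᶠ n : ℕ in atTop, 1 / ((φ n : ℝ) + 1) < e / 2 := by
    have : Tendsto (fun n : ℕ => 1 / ((φ n : ℝ) + 1)) atTop (𝓝 0) :=
      tendsto_one_div_add_atTop_nhds_zero_nat.comp hφ.tendsto_atTop
    exact this.eventually_lt_const (by positivity)
  obtain ⟨n, h5, h6⟩ := (h3.and h4).exists
  have key : ∀ z : ℂ, (z.re ∈ Icc a b ∧ z.im ∈ Icc c d) → e ≤ ‖g z‖ → e / 2 ≤ ‖f (φ n) z‖ := by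
    intro z hz hgz
    have h7 := h5 z hz
    rw [dist_eq_norm] at h7
    have h8 : ‖g z‖ ≤ ‖g z - f (φ n) z‖ + ‖f (φ n) z‖ := by
      have := norm_add_le (g z - f (φ n) z) (f (φ n) z)
      simpa using this
    linarith
  obtain ⟨t, ht, h9⟩ := hfn (φ n) y hy x hx (fun s hs => by
    have := key ⟨s, y⟩ ⟨hs, hy⟩ (hA s hs)
    linarith)
  have := key ⟨x, t⟩ ⟨⟨haa.trans hx.1, hx.2.trans hbb⟩, ht⟩ (hB t ht)
  linarith

/-! ### the chain of segments -/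

/-- a primitive of `g⁻²` varies little on a segment where `‖g‖` is large -/
theorem seg_le {g s : ℂ → ℂ} {m : ℝ} (hm : 0 < m) {p q : ℂ}
    (hs : ∀ z ∈ segment ℝ p q, HasDerivAt s ((g z) ^ 2)⁻¹ z) (hg : ∀ z ∈ segment ℝ p q, m ≤ ‖g z‖) :
    ‖s q - s p‖ ≤ (m ^ 2)⁻¹ * ‖q - p‖ := by
  refine (convex_segment p q).norm_image_sub_le_of_norm_hasDerivWithin_le
    (fun z hz => (hs z hz).hasDerivWithinAt) (fun z hz => ?_) (left_mem_segment ℝ p q)
    (right_mem_segment ℝ p q)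
  rw [norm_inv, norm_pow]
  exact inv_anti₀ (by positivity) (pow_le_pow_left₀ hm.le (hg z hz) 2)

theorem mem_seg_h {a b y : ℝ} {z : ℂ} (hz : z ∈ segment ℝ (⟨a, y⟩ : ℂ) ⟨b, y⟩) :
    z = ⟨z.re, y⟩ ∧ min a b ≤ z.re ∧ z.re ≤ max a b := by
  obtain ⟨α, β, hα, hβ, hαβ, rfl⟩ := hz
  have h1 : (α • (⟨a, y⟩ : ℂ) + β • (⟨b, y⟩ : ℂ)).re = α * a + β * b := by simp
  have h2 : (α • (⟨a, y⟩ : ℂ) + β • (⟨b, y⟩ : ℂ)).im = y := by
    have : α * y + β * y = y := by rw [← add_mul, hαβ, one_mul]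
    simpa using this
  refine ⟨Complex.ext rfl h2, ?_, ?_⟩
  · rw [h1]
    have e1 := mul_le_mul_of_nonneg_left (min_le_left a b) hα
    have e2 := mul_le_mul_of_nonneg_left (min_le_right a b) hβ
    have e3 : α * min a b + β * min a b = min a b := by rw [← add_mul, hαβ, one_mul]
    linarith
  · rw [h1]
    have e1 := mul_le_mul_of_nonneg_left (le_max_left a b) hα
    have e2 := mul_le_mul_of_nonneg_left (le_max_right a b) hβ
    have e3 : α * max a b + β * max a b = max a b := by rw [← add_mul, hαβ, one_mul]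
    linarith

theorem mem_seg_v {x a b : ℝ} {z : ℂ} (hz : z ∈ segment ℝ (⟨x, a⟩ : ℂ) ⟨x, b⟩) :
    z = ⟨x, z.im⟩ ∧ min a b ≤ z.im ∧ z.im ≤ max a b := by
  obtain ⟨α, β, hα, hβ, hαβ, rfl⟩ := hz
  have h1 : (α • (⟨x, a⟩ : ℂ) + β • (⟨x, b⟩ : ℂ)).im = α * a + β * b := by simp
  have h2 : (α • (⟨x, a⟩ : ℂ) + β • (⟨x, b⟩ : ℂ)).re = x := by
    have : α * x + β * x = x := by rw [← add_mul, hαβ, one_mul]
    simpa using this
  refine ⟨Complex.ext h2 rfl, ?_, ?_⟩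
  · rw [h1]
    have e1 := mul_le_mul_of_nonneg_left (min_le_left a b) hα
    have e2 := mul_le_mul_of_nonneg_left (min_le_right a b) hβ
    have e3 : α * min a b + β * min a b = min a b := by rw [← add_mul, hαβ, one_mul]
    linarith
  · rw [h1]
    have e1 := mul_le_mul_of_nonneg_left (le_max_left a b) hα
    have e2 := mul_le_mul_of_nonneg_left (le_max_right a b) hβ
    have e3 : α * max a b + β * max a b = max a b := by rw [← add_mul, hαβ, one_mul]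
    linarith

/-- `(V, Y)` are the abscissa of a free vertical segment and the level of a free horizontal one -/
structure Free (g : ℂ → ℂ) (b δ m x V Y : ℝ) : Prop where
  hV : V ∈ Icc x (x + δ)
  hY : Y ∈ Icc (b - 2 * δ) (b - δ)
  h : ∀ s ∈ Icc (x - 2 * δ) (x + 2 * δ), m ≤ ‖g (⟨s, Y⟩ : ℂ)‖
  v : ∀ t ∈ Icc (b - 2 * δ) (b - δ), m ≤ ‖g (⟨V, t⟩ : ℂ)‖

theorem Free.shift {g : ℂ → ℂ} {b δ m x V Y : ℝ} (hδ : 0 < δ)
    (hg : ∀ z : ℂ, b - 3 * δ < z.im → z.im < b → g (z + 1) = g z)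
    (F : Free g b δ m x V Y) : Free g b δ m (x + 1) (V + 1) Y := by
  have e : ∀ s t : ℝ, t ∈ Icc (b - 2 * δ) (b - δ) → g (⟨s, t⟩ : ℂ) = g (⟨s - 1, t⟩ : ℂ) := by
    intro s t ht
    rw [← hg ⟨s - 1, t⟩ (by show b - 3 * δ < t; linarith [ht.1]) (by show t < b; linarith [ht.2])]
    congr 1
    apply Complex.ext
    · simp
    · simp
  refine ⟨⟨by linarith [F.hV.1], by linarith [F.hV.2]⟩, F.hY, fun s hs => ?_, fun t ht => ?_⟩
  · rw [e s Y F.hY]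
    exact F.h _ ⟨by linarith [hs.1], by linarith [hs.2]⟩
  · rw [e (V + 1) t ht]
    have := F.v t ht
    simpa using this

/-- a step of the chain -/
theorem Free.step {g s : ℂ → ℂ} {b δ m x x' V Y V' Y' : ℝ} (hδ : 0 < δ) (hm : 0 < m)
    (hs : ∀ z : ℂ, b - 3 * δ < z.im → z.im < b → g z ≠ 0 → HasDerivAt s ((g z) ^ 2)⁻¹ z)
    (hx : x ≤ x') (hx' : x' ≤ x + δ) (F : Free g b δ m x V Y) (F' : Free g b δ m x' V' Y') :
    ‖s ⟨V', Y'⟩ - s ⟨V, Y⟩‖ ≤ (m ^ 2)⁻¹ * (3 * δ) := by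
  have d : ∀ z : ℂ, z.im ∈ Icc (b - 2 * δ) (b - δ) → m ≤ ‖g z‖ →
      HasDerivAt s ((g z) ^ 2)⁻¹ z := by
    intro z hz hgz
    refine hs z (by linarith [hz.1]) (by linarith [hz.2]) ?_
    intro h0
    rw [h0, norm_zero] at hgz
    linarith
  have A : ‖s ⟨V', Y⟩ - s ⟨V, Y⟩‖ ≤ (m ^ 2)⁻¹ * ‖(⟨V', Y⟩ : ℂ) - ⟨V, Y⟩‖ := by
    have hh : ∀ z ∈ segment ℝ (⟨V, Y⟩ : ℂ) ⟨V', Y⟩, m ≤ ‖g z‖ ∧ z.im ∈ Icc (b - 2 * δ) (b - δ) := by
      intro z hz
      obtain ⟨h1, h2, h3⟩ := mem_seg_h hz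
      have h4 : x - 2 * δ ≤ min V V' := le_min (by linarith [F.hV.1]) (by linarith [F'.hV.1])
      have h5 : max V V' ≤ x + 2 * δ := max_le (by linarith [F.hV.2]) (by linarith [F'.hV.2])
      rw [h1]
      exact ⟨F.h _ ⟨h4.trans h2, h3.trans h5⟩, F.hY⟩
    exact seg_le hm (fun z hz => d z (hh z hz).2 (hh z hz).1) fun z hz => (hh z hz).1
  have B : ‖s ⟨V', Y'⟩ - s ⟨V', Y⟩‖ ≤ (m ^ 2)⁻¹ * ‖(⟨V', Y'⟩ : ℂ) - ⟨V', Y⟩‖ := by
    have hh : ∀ z ∈ segment ℝ (⟨V', Y⟩ : ℂ) ⟨V', Y'⟩,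
        m ≤ ‖g z‖ ∧ z.im ∈ Icc (b - 2 * δ) (b - δ) := by
      intro z hz
      obtain ⟨h1, h2, h3⟩ := mem_seg_v hz
      have h4 : b - 2 * δ ≤ min Y Y' := le_min F.hY.1 F'.hY.1
      have h5 : max Y Y' ≤ b - δ := max_le F.hY.2 F'.hY.2
      have h6 : z.im ∈ Icc (b - 2 * δ) (b - δ) := ⟨h4.trans h2, h3.trans h5⟩
      rw [h1]
      exact ⟨F'.v _ h6, h6⟩
    exact seg_le hm (fun z hz => d z (hh z hz).2 (hh z hz).1) fun z hz => (hh z hz).1
  have e1 : ‖(⟨V', Y⟩ : ℂ) - ⟨V, Y⟩‖ ≤ 2 * δ := by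
    have : (⟨V', Y⟩ : ℂ) - ⟨V, Y⟩ = ((V' - V : ℝ) : ℂ) := by
      apply Complex.ext
      · simp
      · simp
    rw [this, Complex.norm_real, Real.norm_eq_abs, abs_le]
    constructor
    · linarith [F.hV.2, F'.hV.1]
    · linarith [F.hV.1, F'.hV.2]
  have e2 : ‖(⟨V', Y'⟩ : ℂ) - ⟨V', Y⟩‖ ≤ δ := by
    have : (⟨V', Y'⟩ : ℂ) - ⟨V', Y⟩ = ((Y' - Y : ℝ) : ℂ) * I := by
      apply Complex.ext
      · simp
      · simp
    rw [this, norm_mul, Complex.norm_I, mul_one, Complex.norm_real, Real.norm_eq_abs, abs_le]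
    constructor
    · linarith [F.hY.2, F'.hY.1]
    · linarith [F.hY.1, F'.hY.2]
  have hm2 : 0 ≤ (m ^ 2)⁻¹ := by positivity
  calc ‖s ⟨V', Y'⟩ - s ⟨V, Y⟩‖ = ‖(s ⟨V', Y'⟩ - s ⟨V', Y⟩) + (s ⟨V', Y⟩ - s ⟨V, Y⟩)‖ := by
        congr 1; ring
    _ ≤ ‖s ⟨V', Y'⟩ - s ⟨V', Y⟩‖ + ‖s ⟨V', Y⟩ - s ⟨V, Y⟩‖ := norm_add_le _ _
    _ ≤ (m ^ 2)⁻¹ * δ + (m ^ 2)⁻¹ * (2 * δ) :=
        add_le_add (B.trans (mul_le_mul_of_nonneg_left e2 hm2))
          (A.trans (mul_le_mul_of_nonneg_left e1 hm2))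
    _ = (m ^ 2)⁻¹ * (3 * δ) := by ring

/-- if every place has free segments then the period is small -/
theorem period_le {g s : ℂ → ℂ} {b δ m P : ℝ} (hδ : 0 < δ) (hδ1 : δ ≤ 1) (hm : 0 < m)
    (hg : ∀ z : ℂ, b - 3 * δ < z.im → z.im < b → g (z + 1) = g z)
    (hs : ∀ z : ℂ, b - 3 * δ < z.im → z.im < b → g z ≠ 0 → HasDerivAt s ((g z) ^ 2)⁻¹ z)
    (hsP : ∀ z : ℂ, b - 3 * δ < z.im → z.im < b → g z ≠ 0 → s (z + 1) = s z + P)
    (hF : ∀ x : ℝ, ∃ V Y, Free g b δ m x V Y) : |P| ≤ 6 * (m ^ 2)⁻¹ := by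
  choose V Y F using hF
  obtain ⟨N, hN1, hN2⟩ : ∃ N : ℕ, 1 / δ ≤ N ∧ (N : ℝ) ≤ 2 / δ := by
    refine ⟨⌈1 / δ⌉₊, Nat.le_ceil _, ?_⟩
    have h1 := Nat.ceil_lt_add_one (show (0 : ℝ) ≤ 1 / δ by positivity)
    have h2 : 1 ≤ 1 / δ := by rw [le_div_iff₀ hδ]; linarith
    have h3 : 2 / δ = 1 / δ + 1 / δ := by ring
    linarith
  have hN0 : (0 : ℝ) < N := lt_of_lt_of_le (by positivity) hN1
  have hNδ : 1 / (N : ℝ) ≤ δ := by
    rw [div_le_iff₀ hN0]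
    rw [div_le_iff₀ hδ] at hN1
    linarith
  -- the sequences
  set x : ℕ → ℝ := fun n => n / N with hx
  have hxN : x N = x 0 + 1 := by
    simp only [hx, Nat.cast_zero, zero_div, zero_add]
    exact div_self hN0.ne'
  set v : ℕ → ℝ := fun n => if n = N then V (x 0) + 1 else V (x n) with hv
  set y : ℕ → ℝ := fun n => if n = N then Y (x 0) else Y (x n) with hy
  have hNpos : 0 < N := by exact_mod_cast hN0
  have Fn : ∀ n, Free g b δ m (x n) (v n) (y n) := by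
    intro n
    by_cases h : n = N
    · simp only [hv, hy, if_pos h]
      rw [h, hxN]
      exact (F (x 0)).shift hδ hg
    · simp only [hv, hy, if_neg h]
      exact F (x n)
  have hstep : ∀ n, x n ≤ x (n + 1) ∧ x (n + 1) ≤ x n + δ := by
    intro n
    have : x (n + 1) = x n + 1 / N := by simp only [hx]; push_cast; ring
    rw [this]
    have h1 : 0 ≤ 1 / (N : ℝ) := by positivity
    exact ⟨by linarith, by linarith⟩
  have chain : ∀ n : ℕ, ‖s ⟨v n, y n⟩ - s ⟨v 0, y 0⟩‖ ≤ n * ((m ^ 2)⁻¹ * (3 * δ)) := by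
    intro n
    induction n with
    | zero => simp
    | succ n ih =>
      have h1 := Free.step hδ hm hs (hstep n).1 (hstep n).2 (Fn n) (Fn (n + 1))
      have h2 : s ⟨v (n + 1), y (n + 1)⟩ - s ⟨v 0, y 0⟩ =
          (s ⟨v (n + 1), y (n + 1)⟩ - s ⟨v n, y n⟩) + (s ⟨v n, y n⟩ - s ⟨v 0, y 0⟩) := by ring
      rw [h2]
      refine (norm_add_le _ _).trans ?_
      push_cast
      linarith
  have h0 := Fn 0
  have hv0 : v 0 = V (x 0) := by simp only [hv]; rw [if_neg (by omega)]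
  have hy0 : y 0 = Y (x 0) := by simp only [hy]; rw [if_neg (by omega)]
  have hvN : v N = v 0 + 1 := by rw [hv0]; simp only [hv, if_true]
  have hyN : y N = y 0 := by rw [hy0]; simp only [hy, if_true]
  have hg0 : g ⟨v 0, y 0⟩ ≠ 0 := by
    intro h
    have := h0.v (y 0) h0.hY
    rw [h, norm_zero] at this
    linarith
  have hP := hsP ⟨v 0, y 0⟩ (by show b - 3 * δ < y 0; linarith [h0.hY.1])
    (by show y 0 < b; linarith [h0.hY.2]) hg0
  have hz : (⟨v 0, y 0⟩ : ℂ) + 1 = ⟨v N, y N⟩ := by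
    apply Complex.ext
    · simp [hvN]
    · simp [hyN]
  rw [hz] at hP
  have hc := chain N
  rw [hP, add_sub_cancel_left, Complex.norm_real, Real.norm_eq_abs] at hc
  refine hc.trans ?_
  have h5 : (N : ℝ) * δ ≤ 2 := by
    rw [le_div_iff₀ hδ] at hN2
    exact hN2
  have h6 : 0 ≤ (m ^ 2)⁻¹ := by positivity
  calc (N : ℝ) * ((m ^ 2)⁻¹ * (3 * δ)) = (m ^ 2)⁻¹ * 3 * (N * δ) := by ring
    _ ≤ (m ^ 2)⁻¹ * 3 * 2 := mul_le_mul_of_nonneg_left h5 (by positivity)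
    _ = 6 * (m ^ 2)⁻¹ := by ring

/-- **Trivial place.**  Windows of size `δ` below the line `Im z = b`. -/
theorem trivial_place {K C ε P : ℝ} (hK : 1 ≤ K) (hε : 0 < ε) (hP : 0 < P) :
    ∃ u₀ > 0, ∀ (b δ u : ℝ) (g s : ℂ → ℂ), 0 < u → u ≤ u₀ → 0 < δ → δ ≤ 1 →
      DifferentiableOn ℂ g {z | b - 4 * K * δ < z.im ∧ z.im < b} →
      (∀ z : ℂ, b - 4 * K * δ < z.im → z.im < b → g (z + 1) = g z) →
      (∀ z : ℂ, b - 4 * K * δ < z.im → z.im < b → g z ≠ 0 → HasDerivAt s ((g z) ^ 2)⁻¹ z) →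
      (∀ z : ℂ, b - 4 * K * δ < z.im → z.im < b → g z ≠ 0 → s (z + 1) = s z + P) →
      (∀ z : ℂ, b - 4 * K * δ < z.im → z.im < b - δ / (4 * K) → ‖g z‖ * u ≤ C) →
      ∃ x : ℝ, ∀ z : ℂ, |z.re - x| ≤ K * δ → δ / K ≤ b - z.im → b - z.im ≤ K * δ →
        ‖g z‖ * u ≤ ε := by
  have hK0 : 0 < K := by linarith
  -- the normalised region
  set U : Set ℂ := {z : ℂ | -(4 * K) < z.im ∧ z.im < -(1 / (4 * K))} with hU
  have hUo : IsOpen U := (isOpen_lt continuous_const continuous_im).inter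
    (isOpen_lt continuous_im continuous_const)
  have hUc : IsPreconnected U := by
    have h1 : Convex ℝ {z : ℂ | -(4 * K) < z.im} := convex_halfSpace_im_gt _
    have h2 : Convex ℝ {z : ℂ | z.im < -(1 / (4 * K))} := convex_halfSpace_im_lt _
    exact (h1.inter h2).isPreconnected
  set K₀ : Set ℂ := {z : ℂ | z.re ∈ Icc (-K) K ∧ z.im ∈ Icc (-K) (-(1 / K))} with hK₀
  have hlt : 1 / (4 * K) < 1 / K := by
    apply one_div_lt_one_div_of_lt hK0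
    linarith
  have hle : 1 / (4 * K) ≤ 1 / 4 := by
    apply one_div_le_one_div_of_le (by norm_num)
    linarith
  have hK₀U : K₀ ⊆ U := fun z hz => ⟨by linarith [hz.2.1], by linarith [hz.2.2]⟩
  have hRU : {z : ℂ | z.re ∈ Icc (-2 : ℝ) 2 ∧ z.im ∈ Icc (-2 : ℝ) (-1)} ⊆ U :=
    fun z hz => ⟨by linarith [hz.2.1], by linarith [hz.2.2]⟩
  obtain ⟨e, he, hfree⟩ := free_unif hUo hUc (rect_compact _ _ _ _) hK₀U
    (a := -2) (b := 2) (c := -2) (d := -1) (by norm_num) (by norm_num) (a' := 0) (b' := 1)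
    (by norm_num) (by norm_num) (by norm_num) hRU C ε hε
  refine ⟨e * Real.sqrt (P / 12), by positivity, ?_⟩
  intro b δ u g s hu hu0 hδ hδ1 hgd hgp hsd hsP hC
  by_contra hcon
  push Not at hcon
  have h3K : 3 * δ ≤ 4 * K * δ := by nlinarith
  have hm : 0 < e / u := by positivity
  have hF : ∀ x : ℝ, ∃ V Y, Free g b δ (e / u) x V Y := by
    intro x
    set f : ℂ → ℂ := fun ζ => u * g ((x : ℂ) + b * I + δ * ζ) with hf
    have hre : ∀ ζ : ℂ, ((x : ℂ) + b * I + δ * ζ).re = x + δ * ζ.re := by intro ζ; simp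
    have him : ∀ ζ : ℂ, ((x : ℂ) + b * I + δ * ζ).im = b + δ * ζ.im := by intro ζ; simp
    have hmem : ∀ ζ ∈ U, b - 4 * K * δ < ((x : ℂ) + b * I + δ * ζ).im ∧
        ((x : ℂ) + b * I + δ * ζ).im < b - δ / (4 * K) := by
      intro ζ hζ
      rw [him]
      constructor
      · have := mul_lt_mul_of_pos_left hζ.1 hδ
        nlinarith
      · have := mul_lt_mul_of_pos_left hζ.2 hδ
        have h2 : δ / (4 * K) = δ * (1 / (4 * K)) := by ring
        rw [h2]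
        linarith
    have hdK : 0 < δ / (4 * K) := by positivity
    have hfd : DifferentiableOn ℂ f U := by
      refine (hgd.comp (t := {z : ℂ | b - 4 * K * δ < z.im ∧ z.im < b})
        (by fun_prop : DifferentiableOn ℂ (fun ζ : ℂ => (x : ℂ) + b * I + δ * ζ) U)
        (fun ζ hζ => ⟨(hmem ζ hζ).1, by linarith [(hmem ζ hζ).2]⟩)).const_mul _
    have hfn : ∀ ζ, ‖f ζ‖ = ‖g ((x : ℂ) + b * I + δ * ζ)‖ * u := by
      intro ζ
      simp only [hf]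
      rw [norm_mul, Complex.norm_real, Real.norm_eq_abs, abs_of_pos hu, mul_comm]
    have hfC : ∀ ζ ∈ U, ‖f ζ‖ ≤ C := by
      intro ζ hζ
      rw [hfn]
      exact hC _ (hmem ζ hζ).1 (hmem ζ hζ).2
    obtain ⟨z, hz1, hz2, hz3, hz4⟩ := hcon x
    have hfp : ∃ ζ ∈ K₀, ε ≤ ‖f ζ‖ := by
      refine ⟨(z - x - b * I) / δ, ?_, ?_⟩
      · have hδc : (δ : ℂ) ≠ 0 := by exact_mod_cast hδ.ne'
        have e1 : ((z - x - b * I) / δ : ℂ).re = (z.re - x) / δ := by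
          rw [Complex.div_ofReal_re]; simp
        have e2 : ((z - x - b * I) / δ : ℂ).im = (z.im - b) / δ := by
          rw [Complex.div_ofReal_im]; simp
        rw [abs_le] at hz1
        refine ⟨?_, ?_⟩
        · rw [e1]
          exact ⟨by rw [le_div_iff₀ hδ]; linarith, by rw [div_le_iff₀ hδ]; linarith⟩
        · rw [e2]
          refine ⟨by rw [le_div_iff₀ hδ]; linarith, ?_⟩
          rw [div_le_iff₀ hδ]
          have : -(1 / K) * δ = -(δ / K) := by ring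
          rw [this]
          linarith
      · rw [hfn]
        have hδc : (δ : ℂ) ≠ 0 := by exact_mod_cast hδ.ne'
        have : (x : ℂ) + b * I + δ * ((z - x - b * I) / δ) = z := by
          field_simp
          ring
        rw [this]
        exact hz4.le
    obtain ⟨Y, hY, V, hV, hh, hv⟩ := hfree f hfd hfC hfp
    refine ⟨x + δ * V, b + δ * Y, ⟨?_, ?_, ?_, ?_⟩⟩
    · exact ⟨by nlinarith [hV.1], by nlinarith [hV.2]⟩
    · exact ⟨by nlinarith [hY.1], by nlinarith [hY.2]⟩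
    · intro t ht
      have h1 := hh ((t - x) / δ) ⟨by rw [le_div_iff₀ hδ]; linarith [ht.1],
        by rw [div_le_iff₀ hδ]; linarith [ht.2]⟩
      rw [hfn] at h1
      have h2 : (x : ℂ) + b * I + δ * (⟨(t - x) / δ, Y⟩ : ℂ) = ⟨t, b + δ * Y⟩ := by
        apply Complex.ext
        · rw [hre]; simp only; field_simp; ring
        · rw [him]
      rw [h2] at h1
      rw [div_le_iff₀ hu]
      exact h1
    · intro t ht
      have h1 := hv ((t - b) / δ) ⟨by rw [le_div_iff₀ hδ]; linarith [ht.1],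
        by rw [div_le_iff₀ hδ]; linarith [ht.2]⟩
      rw [hfn] at h1
      have h2 : (x : ℂ) + b * I + δ * (⟨V, (t - b) / δ⟩ : ℂ) = ⟨x + δ * V, t⟩ := by
        apply Complex.ext
        · rw [hre]
        · rw [him]; simp only; field_simp; ring
      rw [h2] at h1
      rw [div_le_iff₀ hu]
      exact h1
  have key := period_le hδ hδ1 hm (fun z h1 h2 => hgp z (by linarith) h2)
    (fun z h1 h2 => hsd z (by linarith) h2) (fun z h1 h2 => hsP z (by linarith) h2) hF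
  rw [abs_of_pos hP] at key
  have h7 : (e / u) ^ 2 * (P / 12) ≥ 1 := by
    have h8 : u ^ 2 ≤ e ^ 2 * (P / 12) := by
      have := pow_le_pow_left₀ hu.le hu0 2
      rw [mul_pow, Real.sq_sqrt (by positivity)] at this
      exact this
    rw [div_pow, div_mul_eq_mul_div, ge_iff_le, le_div_iff₀ (by positivity)]
    linarith
  have h9 : 0 < (e / u) ^ 2 := by positivity
  have h10 : ((e / u) ^ 2)⁻¹ ≤ P / 12 := by
    rw [inv_le_iff_one_le_mul₀ h9]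
    linarith
  linarith

end Vale.Agent.P097.H337
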